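import Vale.Agent.Lib.P202.QuasiFree

/-!
# Fat point fibres

Abstract setting: an ideal `n` of a commutative ring `S`, a quasi-free ideal `J ≤ n`, and
elements `x 1, …, x r` (`r ≥ 2`) with `n = (x) + J`, `n ^ c ≤ J`, such that the monomials of
degree `j < c` in the `x i` are independent modulo `n ^ (j + 1) + J` (so `S / J` looks like
`k[X_1, …, X_r] / (X) ^ c`).  Then `n ^ c ≤ J n ^ (c - 1)`: the ideal `J` is a reduction of `n`.
-/

namespace Vale.Agent.Lib.P202

open IsLocalRing

section fatPoint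

variable {S : Type*} [CommRing S] {r : ℕ}

/-- The monomial `x ^ β`. -/
def mon (x : Fin r → S) (β : Fin r → ℕ) : S := ∏ i, x i ^ β i

lemma mon_add_single (x : Fin r → S) (β : Fin r → ℕ) (l : Fin r) :
    mon x (β + Pi.single l 1) = mon x β * x l := by
  unfold mon
  simp only [Pi.add_apply, pow_add, Finset.prod_mul_distrib]
  congr 1
  rw [Finset.prod_eq_single l]
  · simp
  · intro b _ hb
    simp [Pi.single_eq_of_ne hb]
  · intro h
    exact absurd (Finset.mem_univ l) h

lemma sum_add_single (β : Fin r → ℕ) (l : Fin r) :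
    ∑ i, (β + Pi.single l 1 : Fin r → ℕ) i = ∑ i, β i + 1 := by
  simp [Finset.sum_add_distrib]

lemma mon_mem (n : Ideal S) (x : Fin r → S) (hx : ∀ i, x i ∈ n) (β : Fin r → ℕ) :
    mon x β ∈ n ^ (∑ i, β i) := by
  unfold mon
  rw [← Finset.prod_pow_eq_pow_sum]
  exact Ideal.prod_mem_prod fun i _ => Ideal.pow_mem_pow (hx i) _

lemma mon_mem' (n : Ideal S) (x : Fin r → S) (hx : ∀ i, x i ∈ n) (j : ℕ) (β : Fin r → ℕ)
    (hβ : β ∈ Finset.Nat.antidiagonalTuple r j) : mon x β ∈ n ^ j := by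
  have h := mon_mem n x hx β
  rwa [Finset.Nat.mem_antidiagonalTuple.mp hβ] at h

/-- Powers of `(x)` are spanned by monomials. -/
lemma span_range_pow_le (x : Fin r → S) (j : ℕ) :
    Ideal.span (Set.range x) ^ j ≤
      Ideal.span (mon x '' (Finset.Nat.antidiagonalTuple r j : Set (Fin r → ℕ))) := by
  induction j with
  | zero =>
    rw [pow_zero, Ideal.one_eq_top, top_le_iff, Ideal.eq_top_iff_one]
    refine Ideal.subset_span ⟨0, ?_, ?_⟩
    · rw [Finset.mem_coe, Finset.Nat.mem_antidiagonalTuple]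
      simp
    · simp [mon]
  | succ j ih =>
    rw [pow_succ]
    refine (Ideal.mul_mono_left ih).trans ?_
    rw [Ideal.span_mul_span', Ideal.span_le]
    rintro _ ⟨_, ⟨β, hβ, rfl⟩, _, ⟨l, rfl⟩, rfl⟩
    refine Ideal.subset_span ⟨β + Pi.single l 1, ?_, mon_add_single x β l⟩
    rw [Finset.mem_coe, Finset.Nat.mem_antidiagonalTuple] at hβ ⊢
    rw [sum_add_single, hβ]

/-- Expansion of an element of `n ^ j + J` in monomials of degree `j`, modulo `J`. -/
lemma exists_coeff_mod (n J : Ideal S) (x : Fin r → S)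
    (hn : n = Ideal.span (Set.range x) ⊔ J) (j : ℕ) (z : S) (hz : z ∈ n ^ j ⊔ J) :
    ∃ t : (Fin r → ℕ) → S,
      z - ∑ β ∈ Finset.Nat.antidiagonalTuple r j, t β * mon x β ∈ J := by
  have h1 : n ^ j ≤ Ideal.span (Set.range x) ^ j ⊔ J := by
    cases j with
    | zero => simp
    | succ j =>
      have h0 := sup_pow_succ_le (Ideal.span (Set.range x)) J j
      rw [← hn] at h0
      have h00 : J * n ^ j ≤ J := Ideal.mul_le_left
      exact h0.trans (sup_le (h00.trans le_sup_right) le_sup_left)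
  have h1' : n ^ j ⊔ J ≤
      Ideal.span (mon x '' (Finset.Nat.antidiagonalTuple r j : Set (Fin r → ℕ))) ⊔ J :=
    sup_le (h1.trans (sup_le_sup_right (span_range_pow_le x j) _)) le_sup_right
  have h2 := h1' hz
  obtain ⟨w, hw, e, he, rfl⟩ := Submodule.mem_sup.mp h2
  obtain ⟨t, ht⟩ := (Submodule.mem_span_image_finset_iff_exists_fun' S).mp hw
  refine ⟨t, ?_⟩
  have h3 : w = ∑ β ∈ Finset.Nat.antidiagonalTuple r j, t β * mon x β := by
    rw [← ht]
    rfl
  rw [h3, add_sub_cancel_left]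
  exact he

/-- Expansion of an element of `n ^ (j + 1)` in monomials, modulo `J n ^ j`. -/
lemma exists_coeff_mod_mul (n J : Ideal S) (x : Fin r → S)
    (hn : n = Ideal.span (Set.range x) ⊔ J) (j : ℕ) (z : S) (hz : z ∈ n ^ (j + 1)) :
    ∃ t : (Fin r → ℕ) → S,
      z - ∑ β ∈ Finset.Nat.antidiagonalTuple r (j + 1), t β * mon x β ∈ J * n ^ j := by
  have h1 : n ^ (j + 1) ≤ J * n ^ j ⊔ Ideal.span (Set.range x) ^ (j + 1) := by
    have := sup_pow_succ_le (Ideal.span (Set.range x)) J j
    rwa [← hn] at this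
  obtain ⟨e, he, w, hw, rfl⟩ := Submodule.mem_sup.mp (h1 hz)
  obtain ⟨t, ht⟩ := (Submodule.mem_span_image_finset_iff_exists_fun' S).mp
    (span_range_pow_le x (j + 1) hw)
  refine ⟨t, ?_⟩
  have h3 : w = ∑ β ∈ Finset.Nat.antidiagonalTuple r (j + 1), t β * mon x β := by
    rw [← ht]
    rfl
  rw [h3, add_sub_cancel_right]
  exact he

lemma exists_ne_of_two_le (hr : 2 ≤ r) (i : Fin r) : ∃ l : Fin r, l ≠ i := by
  by_cases h : (i : ℕ) = 0
  · refine ⟨⟨1, by omega⟩, fun h' => ?_⟩
    rw [← h'] at h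
    simp at h
  · exact ⟨⟨0, by omega⟩, fun h' => h (by rw [← h'])⟩

lemma sub_single_add_single (γ : Fin r → ℕ) (l : Fin r) (hγ : 1 ≤ γ l) :
    γ - Pi.single l 1 + Pi.single l 1 = γ := by
  funext i
  simp only [Pi.add_apply, Pi.sub_apply]
  by_cases hi : i = l
  · subst hi
    simp only [Pi.single_eq_same]
    omega
  · simp [Pi.single_eq_of_ne hi]

lemma add_single_sub_single (β : Fin r → ℕ) (l : Fin r) :
    β + Pi.single l 1 - Pi.single l 1 = β := by
  funext i
  simp

lemma sub_single_mem (γ : Fin r → ℕ) (l : Fin r) (j : ℕ) (hγ : 1 ≤ γ l)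
    (hmem : γ ∈ Finset.Nat.antidiagonalTuple r (j + 1)) :
    γ - Pi.single l 1 ∈ Finset.Nat.antidiagonalTuple r j := by
  rw [Finset.Nat.mem_antidiagonalTuple] at hmem ⊢
  have h1 := sum_add_single (γ - Pi.single l 1) l
  rw [sub_single_add_single γ l hγ, hmem] at h1
  omega

lemma add_single_mem (β : Fin r → ℕ) (l : Fin r) (j : ℕ)
    (hmem : β ∈ Finset.Nat.antidiagonalTuple r j) :
    β + Pi.single l 1 ∈ Finset.Nat.antidiagonalTuple r (j + 1) := by
  rw [Finset.Nat.mem_antidiagonalTuple] at hmem ⊢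
  rw [sum_add_single, hmem]

/-- Moving one unit from coordinate `i` to coordinate `l`. -/
lemma shift_add_single (α : Fin r → ℕ) (i l : Fin r) (hα : 1 ≤ α i) :
    α - Pi.single i 1 + Pi.single l 1 + Pi.single i 1 = α + Pi.single l 1 := by
  rw [add_right_comm, sub_single_add_single α i hα]

lemma shift_mem (α : Fin r → ℕ) (i l : Fin r) (j : ℕ) (hα : 1 ≤ α i)
    (hmem : α ∈ Finset.Nat.antidiagonalTuple r j) :
    α - Pi.single i 1 + Pi.single l 1 ∈ Finset.Nat.antidiagonalTuple r j := by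
  rw [Finset.Nat.mem_antidiagonalTuple] at hmem ⊢
  have h1 := sum_add_single (α - Pi.single i 1 + Pi.single l 1) i
  rw [shift_add_single α i l hα, sum_add_single, hmem] at h1
  omega

lemma shift_eq' (β : Fin r → ℕ) (i l : Fin r) (hil : l ≠ i) :
    β + Pi.single l 1 - Pi.single i 1 = β - Pi.single i 1 + Pi.single l 1 := by
  funext k
  simp only [Pi.add_apply, Pi.sub_apply]
  by_cases hk : k = i
  · subst hk
    simp [Pi.single_eq_of_ne (Ne.symm hil)]
  · simp [Pi.single_eq_of_ne hk]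

/-- First comparison: `n ^ (j + 1) ∩ J ≤ n ^ (j + 2) + J n ^ j` below the top degree. -/
lemma fat_L1 (n J : Ideal S) (x : Fin r → S) (c : ℕ)
    (hn : n = Ideal.span (Set.range x) ⊔ J)
    (hind : ∀ j < c, ∀ t : (Fin r → ℕ) → S,
      (∑ β ∈ Finset.Nat.antidiagonalTuple r j, t β * mon x β) ∈ n ^ (j + 1) ⊔ J →
      ∀ β ∈ Finset.Nat.antidiagonalTuple r j, t β ∈ n)
    (j : ℕ) (hj : j + 1 < c) : n ^ (j + 1) ⊓ J ≤ n ^ (j + 2) ⊔ J * n ^ j := by
  rintro z ⟨hz1, hz2⟩
  have hx : ∀ i, x i ∈ n := fun i => by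
    rw [hn]
    exact Ideal.mem_sup_left (Ideal.subset_span ⟨i, rfl⟩)
  obtain ⟨t, ht⟩ := exists_coeff_mod_mul n J x hn j z hz1
  have hJle : J * n ^ j ≤ J := Ideal.mul_le_left
  have h1 : ∑ β ∈ Finset.Nat.antidiagonalTuple r (j + 1), t β * mon x β ∈
      n ^ (j + 1 + 1) ⊔ J := by
    apply Ideal.mem_sup_right
    have h0 : ∑ β ∈ Finset.Nat.antidiagonalTuple r (j + 1), t β * mon x β =
        z - (z - ∑ β ∈ Finset.Nat.antidiagonalTuple r (j + 1), t β * mon x β) := by ring
    rw [h0]
    exact Ideal.sub_mem _ hz2 (hJle ht)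
  have h2 := hind (j + 1) hj t h1
  have h3 : ∑ β ∈ Finset.Nat.antidiagonalTuple r (j + 1), t β * mon x β ∈ n ^ (j + 2) := by
    apply Ideal.sum_mem
    intro β hβ
    rw [pow_succ']
    exact Ideal.mul_mem_mul (h2 β hβ) (mon_mem' n x hx (j + 1) β hβ)
  have h4 : z = ∑ β ∈ Finset.Nat.antidiagonalTuple r (j + 1), t β * mon x β +
      (z - ∑ β ∈ Finset.Nat.antidiagonalTuple r (j + 1), t β * mon x β) := by ring
  rw [h4]
  exact Ideal.add_mem _ (Ideal.mem_sup_left h3) (Ideal.mem_sup_right ht)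

/-- Second comparison: `n ^ (j + 1) ∩ J ≤ n ^ c + J n ^ j` for `j + 1 ≤ c`. -/
lemma fat_L2 (n J : Ideal S) (x : Fin r → S) (c : ℕ)
    (hn : n = Ideal.span (Set.range x) ⊔ J)
    (hind : ∀ j < c, ∀ t : (Fin r → ℕ) → S,
      (∑ β ∈ Finset.Nat.antidiagonalTuple r j, t β * mon x β) ∈ n ^ (j + 1) ⊔ J →
      ∀ β ∈ Finset.Nat.antidiagonalTuple r j, t β ∈ n) :
    ∀ k j : ℕ, j + 1 + k = c → n ^ (j + 1) ⊓ J ≤ n ^ c ⊔ J * n ^ j := by
  intro k
  induction k with
  | zero =>
    intro j hj
    obtain rfl : j + 1 = c := by omega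
    exact inf_le_left.trans le_sup_left
  | succ k ih =>
    intro j hj
    rintro z ⟨hz1, hz2⟩
    have hJle : J * n ^ j ≤ J := Ideal.mul_le_left
    have h1 := fat_L1 n J x c hn hind j (by omega) ⟨hz1, hz2⟩
    obtain ⟨u, hu, e, he, rfl⟩ := Submodule.mem_sup.mp h1
    have hu2 : u ∈ J := by
      have h0 : u = (u + e) - e := by ring
      rw [h0]
      exact Ideal.sub_mem _ hz2 (hJle he)
    have h2 := ih (j + 1) (by omega) ⟨hu, hu2⟩
    refine Ideal.add_mem _ ?_ (Ideal.mem_sup_right he)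
    have h3 : J * n ^ (j + 1) ≤ J * n ^ j :=
      Ideal.mul_mono_right (Ideal.pow_le_pow_right (Nat.le_succ j))
    exact (sup_le le_sup_left (h3.trans le_sup_right)) h2

/-- Reindexing a sum over monomials of degree `j + 1` divisible by `x l`. -/
lemma sum_shift (x : Fin r → S) (j : ℕ) (l : Fin r) (f : (Fin r → ℕ) → S) :
    ∑ γ ∈ Finset.Nat.antidiagonalTuple r (j + 1),
        (if 1 ≤ γ l then f (γ - Pi.single l 1) else 0) * mon x γ =
      ∑ β ∈ Finset.Nat.antidiagonalTuple r j, f β * mon x (β + Pi.single l 1) := by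
  simp only [ite_mul, zero_mul]
  rw [← Finset.sum_filter]
  refine Finset.sum_nbij' (fun γ => γ - Pi.single l 1) (fun β => β + Pi.single l 1)
    ?_ ?_ ?_ ?_ ?_
  · intro γ hγ
    rw [Finset.mem_filter] at hγ
    exact sub_single_mem γ l j hγ.2 hγ.1
  · intro β hβ
    rw [Finset.mem_filter]
    exact ⟨add_single_mem β l j hβ, by simp⟩
  · intro γ hγ
    rw [Finset.mem_filter] at hγ
    exact sub_single_add_single γ l hγ.2
  · intro β _
    exact add_single_sub_single β l
  · intro γ hγ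
    rw [Finset.mem_filter] at hγ
    rw [sub_single_add_single γ l hγ.2]

/-- Extraction of coefficient relations from a relation between shifted monomial sums. -/
lemma fat_extract (n J : Ideal S) (x : Fin r → S) (c : ℕ)
    (hind : ∀ j < c, ∀ t : (Fin r → ℕ) → S,
      (∑ β ∈ Finset.Nat.antidiagonalTuple r j, t β * mon x β) ∈ n ^ (j + 1) ⊔ J →
      ∀ β ∈ Finset.Nat.antidiagonalTuple r j, t β ∈ n)
    (j : ℕ) (hj : j + 1 < c) (i l : Fin r) (hil : l ≠ i) (A B : (Fin r → ℕ) → S)
    (h : (∑ β ∈ Finset.Nat.antidiagonalTuple r j, A β * mon x (β + Pi.single l 1)) -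
      (∑ β ∈ Finset.Nat.antidiagonalTuple r j, B β * mon x (β + Pi.single i 1)) ∈
        n ^ (j + 2) ⊔ J)
    (β : Fin r → ℕ) (hβ : β ∈ Finset.Nat.antidiagonalTuple r j) :
    (β i = 0 → A β ∈ n) ∧ (1 ≤ β i → A β - B (β + Pi.single l 1 - Pi.single i 1) ∈ n) := by
  set t : (Fin r → ℕ) → S := fun γ =>
    (if 1 ≤ γ l then A (γ - Pi.single l 1) else 0) -
      (if 1 ≤ γ i then B (γ - Pi.single i 1) else 0) with ht
  have h1 : ∑ γ ∈ Finset.Nat.antidiagonalTuple r (j + 1), t γ * mon x γ =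
      (∑ β ∈ Finset.Nat.antidiagonalTuple r j, A β * mon x (β + Pi.single l 1)) -
      (∑ β ∈ Finset.Nat.antidiagonalTuple r j, B β * mon x (β + Pi.single i 1)) := by
    rw [← sum_shift x j l A, ← sum_shift x j i B, ← Finset.sum_sub_distrib]
    apply Finset.sum_congr rfl
    intro γ _
    rw [ht]
    ring
  have h2 := hind (j + 1) hj t (by rw [h1]; exact h) (β + Pi.single l 1)
    (add_single_mem β l j hβ)
  have h3 : t (β + Pi.single l 1) =
      A β - (if 1 ≤ β i then B (β + Pi.single l 1 - Pi.single i 1) else 0) := by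
    rw [ht]
    have h4 : (β + Pi.single l 1 : Fin r → ℕ) l = β l + 1 := by simp
    have h5 : (β + Pi.single l 1 : Fin r → ℕ) i = β i := by
      simp [Pi.single_eq_of_ne (Ne.symm hil)]
    simp only [h4, h5, add_single_sub_single, if_pos (Nat.le_add_left 1 (β l))]
  rw [h3] at h2
  constructor
  · intro hβi
    rw [if_neg (by omega), sub_zero] at h2
    exact h2
  · intro hβi
    rw [if_pos hβi] at h2
    exact h2

/-- The comb lemma: a family `σ α` (`α` of degree `c`) satisfying the shift relations modulo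
`n ^ (c' + 1) + J` lies in `n ^ c' + J`. -/
lemma fat_comb (n J : Ideal S) (x : Fin r → S) (hr : 2 ≤ r) (c : ℕ)
    (hn : n = Ideal.span (Set.range x) ⊔ J)
    (hind : ∀ j < c, ∀ t : (Fin r → ℕ) → S,
      (∑ β ∈ Finset.Nat.antidiagonalTuple r j, t β * mon x β) ∈ n ^ (j + 1) ⊔ J →
      ∀ β ∈ Finset.Nat.antidiagonalTuple r j, t β ∈ n)
    (c' : ℕ) (hc' : c' + 1 ≤ c) (σ : (Fin r → ℕ) → S)
    (hσ : ∀ α ∈ Finset.Nat.antidiagonalTuple r c, ∀ i l : Fin r, l ≠ i → 1 ≤ α i →
      x l * σ α - x i * σ (α - Pi.single i 1 + Pi.single l 1) ∈ n ^ (c' + 1) ⊔ J) :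
    ∀ α ∈ Finset.Nat.antidiagonalTuple r c, σ α ∈ n ^ c' ⊔ J := by
  have hx : ∀ i, x i ∈ n := fun i => by
    rw [hn]
    exact Ideal.mem_sup_left (Ideal.subset_span ⟨i, rfl⟩)
  have key : ∀ j, j ≤ c' → ∀ α ∈ Finset.Nat.antidiagonalTuple r c, σ α ∈ n ^ j ⊔ J := by
    intro j
    induction j with
    | zero =>
      intro _ α _
      simp
    | succ j ih =>
      intro hj α hα
      have ih' := ih (by omega)
      have hex : ∀ α : Fin r → ℕ, ∃ t : (Fin r → ℕ) → S,
          α ∈ Finset.Nat.antidiagonalTuple r c →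
          σ α - ∑ β ∈ Finset.Nat.antidiagonalTuple r j, t β * mon x β ∈ J := by
        intro α
        by_cases hα : α ∈ Finset.Nat.antidiagonalTuple r c
        · obtain ⟨t, ht⟩ := exists_coeff_mod n J x hn j (σ α) (ih' α hα)
          exact ⟨t, fun _ => ht⟩
        · exact ⟨fun _ => 0, fun h => absurd h hα⟩
      choose cf hcf using hex
      have hext : ∀ α ∈ Finset.Nat.antidiagonalTuple r c, ∀ i l : Fin r, l ≠ i → 1 ≤ α i →
          ∀ β ∈ Finset.Nat.antidiagonalTuple r j,
            (β i = 0 → cf α β ∈ n) ∧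
            (1 ≤ β i → cf α β - cf (α - Pi.single i 1 + Pi.single l 1)
              (β + Pi.single l 1 - Pi.single i 1) ∈ n) := by
        intro α hα i l hil hαi
        have hα' := shift_mem α i l c hαi hα
        apply fat_extract n J x c hind j (by omega) i l hil (cf α)
          (cf (α - Pi.single i 1 + Pi.single l 1))
        have h1 := hσ α hα i l hil hαi
        have h2 := hcf α hα
        have h3 := hcf _ hα'
        have e1 : ∑ β ∈ Finset.Nat.antidiagonalTuple r j, cf α β * mon x (β + Pi.single l 1) =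
            x l * ∑ β ∈ Finset.Nat.antidiagonalTuple r j, cf α β * mon x β := by
          rw [Finset.mul_sum]
          apply Finset.sum_congr rfl
          intro β _
          rw [mon_add_single]
          ring
        have e2 : ∑ β ∈ Finset.Nat.antidiagonalTuple r j,
            cf (α - Pi.single i 1 + Pi.single l 1) β * mon x (β + Pi.single i 1) =
            x i * ∑ β ∈ Finset.Nat.antidiagonalTuple r j,
              cf (α - Pi.single i 1 + Pi.single l 1) β * mon x β := by
          rw [Finset.mul_sum]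
          apply Finset.sum_congr rfl
          intro β _
          rw [mon_add_single]
          ring
        have h4 : (∑ β ∈ Finset.Nat.antidiagonalTuple r j,
              cf α β * mon x (β + Pi.single l 1)) -
            (∑ β ∈ Finset.Nat.antidiagonalTuple r j,
              cf (α - Pi.single i 1 + Pi.single l 1) β * mon x (β + Pi.single i 1)) =
            (x l * σ α - x i * σ (α - Pi.single i 1 + Pi.single l 1)) -
            x l * (σ α - ∑ β ∈ Finset.Nat.antidiagonalTuple r j, cf α β * mon x β) +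
            x i * (σ (α - Pi.single i 1 + Pi.single l 1) -
              ∑ β ∈ Finset.Nat.antidiagonalTuple r j,
                cf (α - Pi.single i 1 + Pi.single l 1) β * mon x β) := by
          rw [e1, e2]
          ring
        rw [h4]
        have h5 : n ^ (c' + 1) ⊔ J ≤ n ^ (j + 2) ⊔ J :=
          sup_le_sup_right (Ideal.pow_le_pow_right (by omega)) _
        exact Ideal.add_mem _ (Ideal.sub_mem _ (h5 h1)
          (Ideal.mem_sup_right (Ideal.mul_mem_left _ _ h2)))
          (Ideal.mem_sup_right (Ideal.mul_mem_left _ _ h3))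
      have hcl : ∀ m : ℕ, ∀ α ∈ Finset.Nat.antidiagonalTuple r c,
          ∀ β ∈ Finset.Nat.antidiagonalTuple r j, ∀ i : Fin r, β i = m → m < α i →
          cf α β ∈ n := by
        intro m
        induction m with
        | zero =>
          intro α hα β hβ i hβi hαi
          obtain ⟨l, hl⟩ := exists_ne_of_two_le hr i
          exact (hext α hα i l hl (by omega) β hβ).1 hβi
        | succ m ihm =>
          intro α hα β hβ i hβi hαi
          obtain ⟨l, hl⟩ := exists_ne_of_two_le hr i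
          have h1 := (hext α hα i l hl (by omega) β hβ).2 (by omega)
          have hβ' : β + Pi.single l 1 - Pi.single i 1 ∈ Finset.Nat.antidiagonalTuple r j := by
            rw [shift_eq' β i l hl]
            exact shift_mem β i l j (by omega) hβ
          have h6 : (β + Pi.single l 1 - Pi.single i 1 : Fin r → ℕ) i = m := by
            simp [Pi.single_eq_of_ne (Ne.symm hl)]
            omega
          have h7 : m < (α - Pi.single i 1 + Pi.single l 1 : Fin r → ℕ) i := by
            simp [Pi.single_eq_of_ne (Ne.symm hl)]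
            omega
          have h2 := ihm (α - Pi.single i 1 + Pi.single l 1) (shift_mem α i l c (by omega) hα)
            (β + Pi.single l 1 - Pi.single i 1) hβ' i h6 h7
          have h8 : cf α β = (cf α β - cf (α - Pi.single i 1 + Pi.single l 1)
              (β + Pi.single l 1 - Pi.single i 1)) + cf (α - Pi.single i 1 + Pi.single l 1)
              (β + Pi.single l 1 - Pi.single i 1) := by ring
          rw [h8]
          exact Ideal.add_mem _ h1 h2
      have hall : ∀ β ∈ Finset.Nat.antidiagonalTuple r j, cf α β ∈ n := by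
        intro β hβ
        obtain ⟨i, hi⟩ : ∃ i, β i < α i := by
          by_contra hcon
          have hcon' : ∀ i, α i ≤ β i := fun i => not_lt.mp (fun h => hcon ⟨i, h⟩)
          have h1 := Finset.sum_le_sum (fun i (_ : i ∈ Finset.univ) => hcon' i)
          rw [Finset.Nat.mem_antidiagonalTuple.mp hα, Finset.Nat.mem_antidiagonalTuple.mp hβ]
            at h1
          omega
        exact hcl (β i) α hα β hβ i rfl hi
      have h9 : σ α = ∑ β ∈ Finset.Nat.antidiagonalTuple r j, cf α β * mon x β +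
          (σ α - ∑ β ∈ Finset.Nat.antidiagonalTuple r j, cf α β * mon x β) := by ring
      rw [h9]
      refine Ideal.add_mem _ (Ideal.mem_sup_left ?_) (Ideal.mem_sup_right (hcf α hα))
      apply Ideal.sum_mem
      intro β hβ
      rw [pow_succ']
      exact Ideal.mul_mem_mul (hall β hβ) (mon_mem' n x hx j β hβ)
  exact key c' le_rfl

/-- The climbing lemma. -/
lemma fat_climb (n J : Ideal S) (hJ : QuasiFree J) (c P q : ℕ) (hq : 1 ≤ q) (hqP : q < P)
    (hPc : P < c)
    (hL2 : ∀ j : ℕ, j + 1 ≤ c → n ^ (j + 1) ⊓ J ≤ n ^ c ⊔ J * n ^ j)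
    (hP : n ^ c ≤ J * n ^ (c - 1) ⊔ J ^ P)
    (z : S) (hz : z ∈ J ^ q * n ^ (c + 1 - q) ⊔ J ^ (P + 1)) (hz' : z ∈ J ^ (q + 1)) :
    z ∈ J ^ (q + 1) * n ^ (c - q) ⊔ J ^ (P + 1) := by
  obtain ⟨z1, hz1, z2, hz2, rfl⟩ := Submodule.mem_sup.mp hz
  refine Ideal.add_mem _ ?_ (Ideal.mem_sup_right hz2)
  have hz1' : z1 ∈ J ^ (q + 1) := by
    have h0 : z1 = (z1 + z2) - z2 := by ring
    rw [h0]
    have hle : J ^ (P + 1) ≤ J ^ (q + 1) := Ideal.pow_le_pow_right (by omega)
    exact Ideal.sub_mem _ hz' (hle hz2)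
  obtain ⟨ι, _, G, hG, hgen, hGind⟩ := hJ q
  have h1 : J ^ q * n ^ (c + 1 - q) ≤
      Ideal.span (Set.range G) * n ^ (c + 1 - q) ⊔ J ^ (q + 1) * n ^ (c + 1 - q) := by
    rw [← Ideal.sup_mul]
    exact Ideal.mul_mono_left hgen
  obtain ⟨g, hg, z3, hz3, rfl⟩ := Submodule.mem_sup.mp (h1 hz1)
  obtain ⟨v, hv, rfl⟩ := exists_sum_of_mem_span_mul G _ g hg
  have hle3 : J ^ (q + 1) * n ^ (c + 1 - q) ≤ J ^ (q + 1) := Ideal.mul_le_left
  have hz3' : z3 ∈ J ^ (q + 1) := hle3 hz3
  have h2 : ∀ γ, v γ ∈ J := by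
    apply hGind
    have h0 : ∑ γ, G γ * v γ = (∑ γ, G γ * v γ + z3) - z3 := by ring
    rw [h0]
    exact Ideal.sub_mem _ hz1' hz3'
  have hcq : c + 1 - q = (c - q) + 1 := by omega
  have h3 : ∀ γ, v γ ∈ n ^ c ⊔ J * n ^ (c - q) := by
    intro γ
    have hv' : v γ ∈ n ^ (c - q + 1) := by
      rw [← hcq]
      exact hv γ
    exact hL2 (c - q) (by omega) ⟨hv', h2 γ⟩
  have h5 : J ^ q * n ^ c ≤ J ^ (q + 1) * n ^ (c - q) ⊔ J ^ (P + 1) := by
    have h51 : J ^ q * n ^ c ≤ J ^ q * (J * n ^ (c - 1) ⊔ J ^ P) := Ideal.mul_mono_right hP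
    refine h51.trans ?_
    rw [Ideal.mul_sup]
    refine sup_le ?_ ?_
    · have h52 : J ^ q * (J * n ^ (c - 1)) = J ^ (q + 1) * n ^ (c - 1) := by
        rw [← mul_assoc, ← pow_succ]
      rw [h52]
      have h53 : J ^ (q + 1) * n ^ (c - 1) ≤ J ^ (q + 1) * n ^ (c - q) :=
        Ideal.mul_mono_right (Ideal.pow_le_pow_right (by omega))
      exact h53.trans le_sup_left
    · rw [← pow_add]
      have h54 : J ^ (q + P) ≤ J ^ (P + 1) := Ideal.pow_le_pow_right (by omega)
      exact h54.trans le_sup_right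
  apply Ideal.add_mem
  · apply Ideal.sum_mem
    intro γ _
    have h6 : G γ * v γ ∈ J ^ q * (n ^ c ⊔ J * n ^ (c - q)) := Ideal.mul_mem_mul (hG γ) (h3 γ)
    rw [Ideal.mul_sup] at h6
    have h61 : J ^ q * (J * n ^ (c - q)) = J ^ (q + 1) * n ^ (c - q) := by
      rw [← mul_assoc, ← pow_succ]
    rw [h61] at h6
    exact (sup_le h5 le_sup_left) h6
  · apply Ideal.mem_sup_left
    have h7 : J ^ (q + 1) * n ^ (c + 1 - q) ≤ J ^ (q + 1) * n ^ (c - q) :=
      Ideal.mul_mono_right (Ideal.pow_le_pow_right (by omega))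
    exact h7 hz3

/-- **Fat point fibres are reduction fibres** (abstract form).  If `J ≤ n` is quasi-free,
`n = (x_1, …, x_r) + J` with `r ≥ 2`, `n ^ c ≤ J`, and the monomials of each degree `j < c` in
the `x_i` are independent modulo `n ^ (j + 1) + J`, then `n ^ c ≤ J n ^ (c - 1)`. -/
theorem fat_point_reduction (n J : Ideal S) (hJ : QuasiFree J) (x : Fin r → S) (hr : 2 ≤ r)
    (c : ℕ) (hc : 1 ≤ c) (hn : n = Ideal.span (Set.range x) ⊔ J) (hpow : n ^ c ≤ J)
    (hind : ∀ j < c, ∀ t : (Fin r → ℕ) → S,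
      (∑ β ∈ Finset.Nat.antidiagonalTuple r j, t β * mon x β) ∈ n ^ (j + 1) ⊔ J →
      ∀ β ∈ Finset.Nat.antidiagonalTuple r j, t β ∈ n) :
    n ^ c ≤ J * n ^ (c - 1) := by
  have hJn : J ≤ n := by
    rw [hn]
    exact le_sup_right
  have hx : ∀ i, x i ∈ n := fun i => by
    rw [hn]
    exact Ideal.mem_sup_left (Ideal.subset_span ⟨i, rfl⟩)
  obtain ⟨c0, rfl⟩ : ∃ c0, c = c0 + 1 := ⟨c - 1, by omega⟩
  rw [Nat.add_sub_cancel]
  have hL2 : ∀ j : ℕ, j + 1 ≤ c0 + 1 → n ^ (j + 1) ⊓ J ≤ n ^ (c0 + 1) ⊔ J * n ^ j := by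
    intro j hj
    exact fat_L2 n J x (c0 + 1) hn hind (c0 + 1 - (j + 1)) j (by omega)
  have key : ∀ P, 1 ≤ P → P ≤ c0 + 1 → n ^ (c0 + 1) ≤ J * n ^ c0 ⊔ J ^ P := by
    intro P hP1
    induction P, hP1 using Nat.le_induction with
    | base =>
      intro _
      rw [pow_one]
      exact hpow.trans le_sup_right
    | succ P hP1 ih =>
      intro hPc
      have hP := ih (by omega)
      obtain ⟨ι, _, G, hG, hgen, hGind⟩ := hJ P
      have hex : ∀ α : Fin r → ℕ, ∃ s : ι → S,
          α ∈ Finset.Nat.antidiagonalTuple r (c0 + 1) →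
          mon x α - ∑ γ, G γ * s γ ∈ J * n ^ c0 ⊔ J ^ (P + 1) := by
        intro α
        by_cases hα : α ∈ Finset.Nat.antidiagonalTuple r (c0 + 1)
        · have h1 : mon x α ∈ J * n ^ c0 ⊔ J ^ P := hP (mon_mem' n x hx (c0 + 1) α hα)
          obtain ⟨e, he, w, hw, hew⟩ := Submodule.mem_sup.mp h1
          obtain ⟨g, hg, w', hw', rfl⟩ := Submodule.mem_sup.mp (hgen hw)
          obtain ⟨κ, rfl⟩ := (Ideal.mem_span_range_iff_exists_fun).mp hg
          refine ⟨κ, fun _ => ?_⟩
          have h2 : mon x α - ∑ γ, G γ * κ γ = e + w' := by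
            rw [← hew]
            have h3 : ∑ γ, G γ * κ γ = ∑ γ, κ γ * G γ :=
              Finset.sum_congr rfl (fun γ _ => mul_comm _ _)
            rw [h3]
            ring
          rw [h2]
          exact Ideal.add_mem _ (Ideal.mem_sup_left he) (Ideal.mem_sup_right hw')
        · exact ⟨fun _ => 0, fun h => absurd h hα⟩
      choose s hs using hex
      have hP' : n ^ (c0 + 1) ≤ J * n ^ (c0 + 1 - 1) ⊔ J ^ P := by
        rw [Nat.add_sub_cancel]
        exact hP
      have hrel : ∀ α ∈ Finset.Nat.antidiagonalTuple r (c0 + 1), ∀ i l : Fin r, l ≠ i →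
          1 ≤ α i → ∀ γ : ι, x l * s α γ - x i * s (α - Pi.single i 1 + Pi.single l 1) γ ∈
            n ^ (c0 + 1 - P + 1) ⊔ J := by
        intro α hα i l hil hαi
        have hα' := shift_mem α i l (c0 + 1) hαi hα
        have hmonrel : x l * mon x α = x i * mon x (α - Pi.single i 1 + Pi.single l 1) := by
          have h1 := mon_add_single x α l
          have h2 := mon_add_single x (α - Pi.single i 1 + Pi.single l 1) i
          rw [shift_add_single α i l hαi] at h2
          calc x l * mon x α = mon x (α + Pi.single l 1) := by rw [h1]; ring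
            _ = x i * mon x (α - Pi.single i 1 + Pi.single l 1) := by rw [h2]; ring
        have hE : ∀ α ∈ Finset.Nat.antidiagonalTuple r (c0 + 1), ∀ k : Fin r,
            x k * (mon x α - ∑ γ, G γ * s α γ) ∈ J * n ^ (c0 + 1) ⊔ J ^ (P + 1) := by
          intro α hα k
          obtain ⟨e1, he1, e2, he2, he12⟩ := Submodule.mem_sup.mp (hs α hα)
          rw [← he12, mul_add]
          refine Ideal.add_mem _ (Ideal.mem_sup_left ?_)
            (Ideal.mem_sup_right (Ideal.mul_mem_left _ _ he2))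
          have h1 : e1 * x k ∈ J * n ^ c0 * n := Ideal.mul_mem_mul he1 (hx k)
          rw [mul_assoc, ← pow_succ] at h1
          rw [mul_comm (x k) e1]
          exact h1
        have e1 : ∑ γ, G γ * (x l * s α γ - x i * s (α - Pi.single i 1 + Pi.single l 1) γ) =
            x l * ∑ γ, G γ * s α γ -
              x i * ∑ γ, G γ * s (α - Pi.single i 1 + Pi.single l 1) γ := by
          rw [Finset.mul_sum, Finset.mul_sum, ← Finset.sum_sub_distrib]
          apply Finset.sum_congr rfl
          intro γ _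
          ring
        have hZ0 : ∑ γ, G γ * (x l * s α γ - x i * s (α - Pi.single i 1 + Pi.single l 1) γ) =
            x i * (mon x (α - Pi.single i 1 + Pi.single l 1) -
              ∑ γ, G γ * s (α - Pi.single i 1 + Pi.single l 1) γ) -
            x l * (mon x α - ∑ γ, G γ * s α γ) := by
          rw [e1]
          linear_combination hmonrel
        have hZJP : ∑ γ, G γ * (x l * s α γ - x i * s (α - Pi.single i 1 + Pi.single l 1) γ) ∈
            J ^ P := Ideal.sum_mem _ fun γ _ => Ideal.mul_mem_right _ _ (hG γ)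
        have hclimb : ∀ q, 1 ≤ q → q ≤ P →
            ∑ γ, G γ * (x l * s α γ - x i * s (α - Pi.single i 1 + Pi.single l 1) γ) ∈
              J ^ q * n ^ (c0 + 1 + 1 - q) ⊔ J ^ (P + 1) := by
          intro q hq1
          induction q, hq1 using Nat.le_induction with
          | base =>
            intro _
            rw [pow_one, Nat.add_sub_cancel, hZ0]
            exact Ideal.sub_mem _ (hE _ hα' i) (hE α hα l)
          | succ q hq1 ihq =>
            intro hqP
            have h1 := fat_climb n J hJ (c0 + 1) P q hq1 (by omega) (by omega) hL2 hP' _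
              (ihq (by omega)) (Ideal.pow_le_pow_right (by omega) hZJP)
            rw [Nat.add_sub_add_right]
            exact h1
        have h1 := hclimb P hP1 le_rfl
        obtain ⟨z1, hz1, z2, hz2, hz12⟩ := Submodule.mem_sup.mp h1
        have h2 : J ^ P * n ^ (c0 + 1 + 1 - P) ≤
            Ideal.span (Set.range G) * n ^ (c0 + 1 + 1 - P) ⊔
              J ^ (P + 1) * n ^ (c0 + 1 + 1 - P) := by
          rw [← Ideal.sup_mul]
          exact Ideal.mul_mono_left hgen
        obtain ⟨g, hg, z3, hz3, hgz3⟩ := Submodule.mem_sup.mp (h2 hz1)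
        obtain ⟨v, hv, rfl⟩ := exists_sum_of_mem_span_mul G _ g hg
        have hle3 : J ^ (P + 1) * n ^ (c0 + 1 + 1 - P) ≤ J ^ (P + 1) := Ideal.mul_le_left
        have h3 : ∑ γ, G γ * ((x l * s α γ - x i * s (α - Pi.single i 1 + Pi.single l 1) γ) -
            v γ) ∈ J ^ (P + 1) := by
          have h4 : ∑ γ, G γ * ((x l * s α γ -
              x i * s (α - Pi.single i 1 + Pi.single l 1) γ) - v γ) = z3 + z2 := by
            have h5 : ∑ γ, G γ * ((x l * s α γ -
                x i * s (α - Pi.single i 1 + Pi.single l 1) γ) - v γ) =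
                ∑ γ, G γ * (x l * s α γ - x i * s (α - Pi.single i 1 + Pi.single l 1) γ) -
                ∑ γ, G γ * v γ := by
              rw [← Finset.sum_sub_distrib]
              apply Finset.sum_congr rfl
              intro γ _
              ring
            rw [h5, ← hz12, ← hgz3]
            ring
          rw [h4]
          exact Ideal.add_mem _ (hle3 hz3) hz2
        have h6 := hGind _ h3
        intro γ
        have h7 : x l * s α γ - x i * s (α - Pi.single i 1 + Pi.single l 1) γ =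
            ((x l * s α γ - x i * s (α - Pi.single i 1 + Pi.single l 1) γ) - v γ) + v γ := by
          ring
        rw [h7]
        have h8 : c0 + 1 - P + 1 = c0 + 1 + 1 - P := by omega
        rw [h8]
        exact Ideal.add_mem _ (Ideal.mem_sup_right (h6 γ)) (Ideal.mem_sup_left (hv γ))
      have hmon : ∀ α ∈ Finset.Nat.antidiagonalTuple r (c0 + 1),
          mon x α ∈ J * n ^ c0 ⊔ J ^ (P + 1) := by
        intro α hα
        have hcomb : ∀ γ, s α γ ∈ n ^ (c0 + 1 - P) ⊔ J := fun γ =>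
          fat_comb n J x hr (c0 + 1) hn hind (c0 + 1 - P) (by omega) (fun α => s α γ)
            (fun α hα i l hil hαi => hrel α hα i l hil hαi γ) α hα
        have h1 : mon x α = ∑ γ, G γ * s α γ + (mon x α - ∑ γ, G γ * s α γ) := by ring
        rw [h1]
        refine Ideal.add_mem _ (Ideal.sum_mem _ fun γ _ => ?_) (hs α hα)
        have h2 : G γ * s α γ ∈ J ^ P * (n ^ (c0 + 1 - P) ⊔ J) :=
          Ideal.mul_mem_mul (hG γ) (hcomb γ)
        rw [Ideal.mul_sup, ← pow_succ] at h2
        have h3 : J ^ P * n ^ (c0 + 1 - P) ≤ J * n ^ c0 := by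
          have h4 : J ^ P = J * J ^ (P - 1) := by
            rw [← pow_succ']
            congr 1
            omega
          have h5 : J ^ (P - 1) * n ^ (c0 + 1 - P) ≤ n ^ (P - 1) * n ^ (c0 + 1 - P) :=
            Ideal.mul_mono_left (Ideal.pow_right_mono hJn _)
          rw [← pow_add] at h5
          have h6 : P - 1 + (c0 + 1 - P) = c0 := by omega
          rw [h6] at h5
          rw [h4, mul_assoc]
          exact Ideal.mul_mono_right h5
        have h9 : J ^ P * n ^ (c0 + 1 - P) ⊔ J ^ (P + 1) ≤ J * n ^ c0 ⊔ J ^ (P + 1) :=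
          sup_le (h3.trans le_sup_left) le_sup_right
        exact h9 h2
      intro z hz
      obtain ⟨t, ht⟩ := exists_coeff_mod_mul n J x hn c0 z hz
      have h1 : z = ∑ β ∈ Finset.Nat.antidiagonalTuple r (c0 + 1), t β * mon x β +
          (z - ∑ β ∈ Finset.Nat.antidiagonalTuple r (c0 + 1), t β * mon x β) := by ring
      rw [h1]
      exact Ideal.add_mem _ (Ideal.sum_mem _ fun β hβ => Ideal.mul_mem_left _ _ (hmon β hβ))
        (Ideal.mem_sup_left ht)
  have h1 := key (c0 + 1) (by omega) le_rfl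
  refine h1.trans (sup_le le_rfl ?_)
  rw [pow_succ']
  exact Ideal.mul_mono_right (Ideal.pow_right_mono hJn c0)

end fatPoint

section final

variable {R S : Type*} [CommRing R] [CommRing S] [IsLocalRing R] [IsLocalRing S]
  [Algebra R S] [IsLocalHom (algebraMap R S)]

omit [IsLocalHom (algebraMap R S)] in
/-- If the closed fibre modulo a regular sequence is a fat point of embedding dimension at
least two, then `J = m S + (rs)` is a reduction of `n`. -/
theorem reduction_of_fat_point [IsNoetherianRing R] [IsNoetherianRing S] [Module.Flat R S]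
    (rs : List S) (hmem : ∀ r ∈ rs, r ∈ maximalIdeal S)
    (hreg : RingTheory.Sequence.IsWeaklyRegular
      (S ⧸ (maximalIdeal R).map (algebraMap R S)) rs)
    (J : Ideal S) (hJ : J = (maximalIdeal R).map (algebraMap R S) ⊔ Ideal.ofList rs)
    (r : ℕ) (x : Fin r → S) (hr : 2 ≤ r) (c : ℕ) (hc : 1 ≤ c)
    (hn : maximalIdeal S = Ideal.span (Set.range x) ⊔ J) (hpow : maximalIdeal S ^ c ≤ J)
    (hind : ∀ j < c, ∀ t : (Fin r → ℕ) → S,
      (∑ β ∈ Finset.Nat.antidiagonalTuple r j, t β * ∏ i, x i ^ β i) ∈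
        maximalIdeal S ^ (j + 1) ⊔ J →
      ∀ β ∈ Finset.Nat.antidiagonalTuple r j, t β ∈ maximalIdeal S) :
    maximalIdeal S ^ c ≤ J * maximalIdeal S ^ (c - 1) := by
  have hreg' : ∀ (T : Finset (Fin rs.length)) (k : Fin rs.length), k ∉ T →
      ∀ s : S, rs.get k * s ∈ fibreIdeal R rs.get T → s ∈ fibreIdeal R rs.get T :=
    fun T k hk s hs => regular_of_isWeaklyRegular _ rs hmem hreg T k hk s hs
  have hJ' : fibreIdeal R rs.get Finset.univ = J := by
    rw [hJ, fibreIdeal, Finset.coe_univ, Set.image_univ, Set.range_list_get]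
  have hQ : QuasiFree J := hJ' ▸ quasiFree_fibreIdeal rs.get hreg' Finset.univ
  exact fat_point_reduction (maximalIdeal S) J hQ x hr c hc hn hpow hind

open Filter in
open scoped ENNReal Nat Topology in
/-- **Main theorem for fat point fibres.** -/
theorem main_of_fat_point [IsNoetherianRing R] [IsNoetherianRing S] [Module.Flat R S]
    (rs : List S) (hmem : ∀ r ∈ rs, r ∈ maximalIdeal S)
    (hreg : RingTheory.Sequence.IsWeaklyRegular
      (S ⧸ (maximalIdeal R).map (algebraMap R S)) rs)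
    (J : Ideal S) (hJ : J = (maximalIdeal R).map (algebraMap R S) ⊔ Ideal.ofList rs)
    (r : ℕ) (x : Fin r → S) (hr : 2 ≤ r) (c : ℕ) (hc : 1 ≤ c)
    (hn : maximalIdeal S = Ideal.span (Set.range x) ⊔ J) (hpow : maximalIdeal S ^ c ≤ J)
    (hind : ∀ j < c, ∀ t : (Fin r → ℕ) → S,
      (∑ β ∈ Finset.Nat.antidiagonalTuple r j, t β * ∏ i, x i ^ β i) ∈
        maximalIdeal S ^ (j + 1) ⊔ J →
      ∀ β ∈ Finset.Nat.antidiagonalTuple r j, t β ∈ maximalIdeal S) :
    maximalIdeal S ^ c ≤ J * maximalIdeal S ^ (c - 1) ∧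
    ringKrullDim S = ringKrullDim R + rs.length ∧
    1 ≤ Module.length S (S ⧸ J) ∧
    Module.length S (S ⧸ J) ≠ ⊤ ∧
    (∀ d : ℕ,
      (Module.length S (S ⧸ J)).toENNReal *
          liminf (fun N : ℕ => (d ! : ℝ≥0∞) *
            (Module.length R (R ⧸ maximalIdeal R ^ N)).toENNReal / (N : ℝ≥0∞) ^ d) atTop ≤
        liminf (fun N : ℕ => ((d + rs.length) ! : ℝ≥0∞) *
          (Module.length S (S ⧸ maximalIdeal S ^ N)).toENNReal / (N : ℝ≥0∞) ^ (d + rs.length))
          atTop ∧
      limsup (fun N : ℕ => ((d + rs.length) ! : ℝ≥0∞) *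
          (Module.length S (S ⧸ maximalIdeal S ^ N)).toENNReal / (N : ℝ≥0∞) ^ (d + rs.length))
          atTop ≤
        (Module.length S (S ⧸ J)).toENNReal *
          limsup (fun N : ℕ => (d ! : ℝ≥0∞) *
            (Module.length R (R ⧸ maximalIdeal R ^ N)).toENNReal / (N : ℝ≥0∞) ^ d) atTop) ∧
    (∀ (d : ℕ) (e : ℝ≥0∞),
      Tendsto (fun N : ℕ => (d ! : ℝ≥0∞) *
        (Module.length R (R ⧸ maximalIdeal R ^ N)).toENNReal / (N : ℝ≥0∞) ^ d) atTop (𝓝 e) →
      Tendsto (fun N : ℕ => ((d + rs.length) ! : ℝ≥0∞) *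
        (Module.length S (S ⧸ maximalIdeal S ^ N)).toENNReal / (N : ℝ≥0∞) ^ (d + rs.length))
        atTop (𝓝 ((Module.length S (S ⧸ J)).toENNReal * e))) := by
  have hred := reduction_of_fat_point rs hmem hreg J hJ r x hr c hc hn hpow hind
  have h := main_of_isWeaklyRegular rs hmem hreg J hJ
    (Or.inl ⟨c - 1, by rw [Nat.sub_add_cancel hc]; exact hred⟩)
  exact ⟨hred, h.1, h.2.1, h.2.2.1, h.2.2.2.2.1, h.2.2.2.2.2⟩

end final

end Vale.Agent.Lib.P202
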