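import Mathlib

/-!
# Squeeze lemmas for normalised sequences with an index shift

Variants of the squeeze lemmas for `D! s_N / N^D` in which the comparison sequence is shifted
by an arbitrary amount `c`.
-/

namespace Vale.Agent.Lib.P202
open Filter Topology Nat
open scoped ENNReal

/-- The ratio of `N` to `N + c` tends to `1` in the extended nonnegative reals. -/
lemma shift_ratio_tendsto (c : ℕ) :
    Tendsto (fun N : ℕ => (N : ℝ≥0∞) / ((N + c : ℕ) : ℝ≥0∞)) atTop (𝓝 1) := by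
  have h1 : Tendsto (fun N : ℕ => ENNReal.ofReal ((N : ℝ) / ((N : ℝ) + c))) atTop
      (𝓝 (ENNReal.ofReal 1)) :=
    ENNReal.tendsto_ofReal (tendsto_natCast_div_add_atTop (c : ℝ))
  rw [ENNReal.ofReal_one] at h1
  refine h1.congr' ?_
  filter_upwards [eventually_gt_atTop 0] with N hN
  have hpos : (0 : ℝ) < (N : ℝ) + c := by
    have : (0 : ℝ) < N := by exact_mod_cast hN
    positivity
  rw [ENNReal.ofReal_div_of_pos hpos, ENNReal.ofReal_natCast]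
  congr 1
  rw [show (N : ℝ) + c = ((N + c : ℕ) : ℝ) by push_cast; ring, ENNReal.ofReal_natCast]

/-- A constant times a power of the ratio `N / (N + c)` tends to the constant. -/
lemma shift_const_ratio_tendsto (x : ℝ≥0∞) (D c : ℕ) :
    Tendsto (fun N : ℕ => x * ((N : ℝ≥0∞) / ((N + c : ℕ) : ℝ≥0∞)) ^ D) atTop (𝓝 x) := by
  have h4 : Tendsto (fun N : ℕ => ((N : ℝ≥0∞) / ((N + c : ℕ) : ℝ≥0∞)) ^ D) atTop
      (𝓝 (1 ^ D)) := ENNReal.Tendsto.pow (shift_ratio_tendsto c)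
  rw [one_pow] at h4
  have h5 := ENNReal.Tendsto.const_mul (a := x) h4 (Or.inl one_ne_zero)
  rwa [mul_one] at h5

theorem shift_sandwich_liminf (D c : ℕ) (b s : ℕ → ℝ≥0∞) (L : ℝ≥0∞)
    (h1 : ∀ N, b N * L ≤ s (N + c)) :
    L * liminf (fun N : ℕ => (D ! : ℝ≥0∞) * b N / (N : ℝ≥0∞) ^ D) atTop ≤
      liminf (fun N : ℕ => (D ! : ℝ≥0∞) * s N / (N : ℝ≥0∞) ^ D) atTop := by
  rw [← liminf_nat_add (fun N : ℕ => (D ! : ℝ≥0∞) * s N / (N : ℝ≥0∞) ^ D) c]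
  refine ENNReal.mul_le_of_forall_lt (fun L' hL' l' hl' => ?_)
  have hev1 : ∀ᶠ N in atTop, l' < (D ! : ℝ≥0∞) * b N / (N : ℝ≥0∞) ^ D :=
    eventually_lt_of_lt_liminf hl'
  have hev2 : ∀ᶠ N : ℕ in atTop, L' < L * ((N : ℝ≥0∞) / ((N + c : ℕ) : ℝ≥0∞)) ^ D :=
    (shift_const_ratio_tendsto L D c).eventually (lt_mem_nhds hL')
  refine le_liminf_of_le (by isBoundedDefault) ?_
  filter_upwards [hev1, hev2, eventually_gt_atTop 0] with N hN1 hN2 hN3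
  have hN0 : ((N : ℝ≥0∞)) ^ D ≠ 0 := pow_ne_zero _ (Nat.cast_ne_zero.mpr hN3.ne')
  have hNt : ((N : ℝ≥0∞)) ^ D ≠ ⊤ := ENNReal.pow_ne_top (ENNReal.natCast_ne_top N)
  calc L' * l' ≤ (L * ((N : ℝ≥0∞) / ((N + c : ℕ) : ℝ≥0∞)) ^ D)
          * ((D ! : ℝ≥0∞) * b N / (N : ℝ≥0∞) ^ D) := mul_le_mul' hN2.le hN1.le
    _ = (D ! : ℝ≥0∞) * (b N * L) * (((N : ℝ≥0∞) ^ D)⁻¹ * (N : ℝ≥0∞) ^ D)
          * ((((N + c : ℕ) : ℝ≥0∞)) ^ D)⁻¹ := by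
        simp only [div_eq_mul_inv, mul_pow, ENNReal.inv_pow]
        ring
    _ = (D ! : ℝ≥0∞) * (b N * L) / (((N + c : ℕ) : ℝ≥0∞)) ^ D := by
        rw [ENNReal.inv_mul_cancel hN0 hNt, mul_one, div_eq_mul_inv]
    _ ≤ (D ! : ℝ≥0∞) * s (N + c) / (((N + c : ℕ) : ℝ≥0∞)) ^ D :=
        ENNReal.div_le_div_right (mul_le_mul_right (h1 N) _) _

theorem shift_sandwich_limsup (D c : ℕ) (b s : ℕ → ℝ≥0∞) (L : ℝ≥0∞) (hL : L ≠ ⊤)
    (h2 : ∀ N, s (N + c) ≤ b (N + c) * L) :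
    limsup (fun N : ℕ => (D ! : ℝ≥0∞) * s N / (N : ℝ≥0∞) ^ D) atTop ≤
      L * limsup (fun N : ℕ => (D ! : ℝ≥0∞) * b N / (N : ℝ≥0∞) ^ D) atTop := by
  rw [← limsup_nat_add (fun N : ℕ => (D ! : ℝ≥0∞) * s N / (N : ℝ≥0∞) ^ D) c,
    ← limsup_nat_add (fun N : ℕ => (D ! : ℝ≥0∞) * b N / (N : ℝ≥0∞) ^ D) c,
    ← ENNReal.limsup_const_mul_of_ne_top hL]
  refine limsup_le_limsup (Eventually.of_forall (fun N => ?_)) (by isBoundedDefault)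
    (by isBoundedDefault)
  calc (D ! : ℝ≥0∞) * s (N + c) / (((N + c : ℕ) : ℝ≥0∞)) ^ D
      ≤ (D ! : ℝ≥0∞) * (b (N + c) * L) / (((N + c : ℕ) : ℝ≥0∞)) ^ D :=
        ENNReal.div_le_div_right (mul_le_mul_right (h2 N) _) _
    _ = L * ((D ! : ℝ≥0∞) * b (N + c) / ((N + c : ℕ) : ℝ≥0∞) ^ D) := by
        rw [div_eq_mul_inv, div_eq_mul_inv]
        ring

end Vale.Agent.Lib.P202
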