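import Mathlib
namespace Vale.Agent.Lib.P202
open Filter Topology Nat
open scoped ENNReal

/-- Upper bound for the increment of the power with exponent d+1 over the naturals. -/
lemma taskC_nat_upper (d N : ℕ) : (N + 1) ^ (d + 1) ≤ N ^ (d + 1) + (d + 1) * (N + 1) ^ d := by
  induction d with
  | zero => simp
  | succ d ih =>
    calc (N + 1) ^ (d + 1 + 1) = (N + 1) * (N + 1) ^ (d + 1) := by ring
      _ ≤ (N + 1) * (N ^ (d + 1) + (d + 1) * (N + 1) ^ d) := Nat.mul_le_mul_left _ ih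
      _ = N ^ (d + 1 + 1) + N ^ (d + 1) + (d + 1) * (N + 1) ^ (d + 1) := by ring
      _ ≤ N ^ (d + 1 + 1) + (N + 1) ^ (d + 1) + (d + 1) * (N + 1) ^ (d + 1) := by
        have h : N ^ (d + 1) ≤ (N + 1) ^ (d + 1) := Nat.pow_le_pow_left (Nat.le_succ N) _
        omega
      _ = N ^ (d + 1 + 1) + (d + 1 + 1) * (N + 1) ^ (d + 1) := by ring

/-- Lower bound for the increment of the power with exponent d+1 over the naturals. -/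
lemma taskC_nat_lower (d M : ℕ) : M ^ (d + 1) + (d + 1) * M ^ d ≤ (M + 1) ^ (d + 1) := by
  induction d with
  | zero => simp
  | succ d ih =>
    calc M ^ (d + 1 + 1) + (d + 1 + 1) * M ^ (d + 1)
        ≤ M ^ (d + 1 + 1) + (d + 1 + 1) * M ^ (d + 1) + (d + 1) * M ^ d := Nat.le_add_right _ _
      _ = (M + 1) * (M ^ (d + 1) + (d + 1) * M ^ d) := by ring
      _ ≤ (M + 1) * (M + 1) ^ (d + 1) := Nat.mul_le_mul_left _ ih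
      _ = (M + 1) ^ (d + 1 + 1) := by ring

/-- The ratio of N to N+1 tends to 1 in the extended nonnegative reals. -/
lemma taskC_ratio_tendsto :
    Tendsto (fun N : ℕ => (N : ℝ≥0∞) / ((N + 1 : ℕ) : ℝ≥0∞)) atTop (𝓝 1) := by
  have h1 : Tendsto (fun N : ℕ => ENNReal.ofReal ((N : ℝ) / ((N : ℝ) + 1))) atTop
      (𝓝 (ENNReal.ofReal 1)) :=
    ENNReal.tendsto_ofReal (tendsto_natCast_div_add_atTop (1 : ℝ))
  rw [ENNReal.ofReal_one] at h1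
  refine h1.congr (fun N => ?_)
  have hpos : (0 : ℝ) < (N : ℝ) + 1 := by positivity
  rw [ENNReal.ofReal_div_of_pos hpos, ENNReal.ofReal_natCast]
  congr 1
  rw [show (N : ℝ) + 1 = ((N + 1 : ℕ) : ℝ) by push_cast; ring, ENNReal.ofReal_natCast]

/-- A constant times a power of the ratio N/(N+1) tends to the constant. -/
lemma taskC_const_ratio_tendsto (c : ℝ≥0∞) (D : ℕ) :
    Tendsto (fun N : ℕ => c * ((N : ℝ≥0∞) / ((N + 1 : ℕ) : ℝ≥0∞)) ^ D) atTop (𝓝 c) := by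
  have h4 : Tendsto (fun N : ℕ => ((N : ℝ≥0∞) / ((N + 1 : ℕ) : ℝ≥0∞)) ^ D) atTop
      (𝓝 (1 ^ D)) := ENNReal.Tendsto.pow taskC_ratio_tendsto
  rw [one_pow] at h4
  have h5 := ENNReal.Tendsto.const_mul (a := c) h4 (Or.inl one_ne_zero)
  rwa [mul_one] at h5

/-- A finite constant is eventually dominated by a positive multiple of a positive power. -/
lemma taskC_archimedean (K δ : ℝ≥0∞) (hK : K ≠ ⊤) (hδ : δ ≠ 0) (d : ℕ) :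
    ∀ᶠ N : ℕ in atTop, K ≤ δ * (N : ℝ≥0∞) ^ (d + 1) := by
  obtain ⟨n, hn⟩ := ENNReal.exists_nat_mul_gt hδ hK
  filter_upwards [eventually_ge_atTop n, eventually_gt_atTop 0] with N hN2 hN3
  have h1 : (1 : ℝ≥0∞) ≤ (N : ℝ≥0∞) := by exact_mod_cast hN3
  calc K ≤ (n : ℝ≥0∞) * δ := hn.le
    _ ≤ (N : ℝ≥0∞) ^ (d + 1) * δ := by
        gcongr
        calc (n : ℝ≥0∞) ≤ (N : ℝ≥0∞) := by exact_mod_cast hN2
          _ = (N : ℝ≥0∞) ^ 1 := (pow_one _).symm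
          _ ≤ (N : ℝ≥0∞) ^ (d + 1) := pow_le_pow_right₀ h1 (by omega)
    _ = δ * (N : ℝ≥0∞) ^ (d + 1) := mul_comm _ _

theorem taskC_liminf (d : ℕ) (a : ℕ → ℝ≥0∞) :
    liminf (fun N : ℕ => (d ! : ℝ≥0∞) * a N / (N : ℝ≥0∞) ^ d) atTop ≤
      liminf (fun N : ℕ => ((d + 1) ! : ℝ≥0∞) * (∑ j ∈ Finset.range N, a (j + 1))
        / (N : ℝ≥0∞) ^ (d + 1)) atTop := by
  refine le_of_forall_lt_imp_le_of_dense (fun c hc => ?_)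
  obtain ⟨c₁, hc1, hc2⟩ := exists_between hc
  have hc1top : c₁ ≠ ⊤ := (lt_of_lt_of_le hc2 le_top).ne
  have hev : ∀ᶠ N in atTop, c₁ < (d ! : ℝ≥0∞) * a N / (N : ℝ≥0∞) ^ d :=
    eventually_lt_of_lt_liminf hc2
  obtain ⟨N0, hN0⟩ := eventually_atTop.mp hev
  have hpt : ∀ N, N0 ≤ N → c₁ * (N : ℝ≥0∞) ^ d ≤ (d ! : ℝ≥0∞) * a N := fun N hN =>
    ENNReal.mul_le_of_le_div (hN0 N hN).le
  have hind : ∀ N, N0 ≤ N → c₁ * (N : ℝ≥0∞) ^ (d + 1) ≤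
      ((d + 1) ! : ℝ≥0∞) * (∑ j ∈ Finset.range N, a (j + 1))
        + c₁ * (N0 : ℝ≥0∞) ^ (d + 1) := by
    intro N hN
    induction N, hN using Nat.le_induction with
    | base => exact le_add_self
    | succ N hN ih =>
      have hup : ((N + 1 : ℕ) : ℝ≥0∞) ^ (d + 1) ≤
          (N : ℝ≥0∞) ^ (d + 1) + ((d + 1 : ℕ) : ℝ≥0∞) * ((N + 1 : ℕ) : ℝ≥0∞) ^ d := by
        exact_mod_cast taskC_nat_upper d N
      have hstep := hpt (N + 1) (Nat.le_succ_of_le hN)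
      calc c₁ * ((N + 1 : ℕ) : ℝ≥0∞) ^ (d + 1)
          ≤ c₁ * ((N : ℝ≥0∞) ^ (d + 1)
              + ((d + 1 : ℕ) : ℝ≥0∞) * ((N + 1 : ℕ) : ℝ≥0∞) ^ d) := by gcongr
        _ = c₁ * (N : ℝ≥0∞) ^ (d + 1)
              + ((d + 1 : ℕ) : ℝ≥0∞) * (c₁ * ((N + 1 : ℕ) : ℝ≥0∞) ^ d) := by ring
        _ ≤ (((d + 1) ! : ℝ≥0∞) * (∑ j ∈ Finset.range N, a (j + 1))
              + c₁ * (N0 : ℝ≥0∞) ^ (d + 1))
              + ((d + 1 : ℕ) : ℝ≥0∞) * ((d ! : ℝ≥0∞) * a (N + 1)) := by gcongr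
        _ = ((d + 1) ! : ℝ≥0∞) * (∑ j ∈ Finset.range (N + 1), a (j + 1))
              + c₁ * (N0 : ℝ≥0∞) ^ (d + 1) := by
            rw [Finset.sum_range_succ, Nat.factorial_succ]
            push_cast
            ring
  have hKtop : c₁ * (N0 : ℝ≥0∞) ^ (d + 1) ≠ ⊤ :=
    ENNReal.mul_ne_top hc1top (ENNReal.pow_ne_top (ENNReal.natCast_ne_top N0))
  have hδ : c₁ - c ≠ 0 := (tsub_pos_of_lt hc1).ne'
  refine le_liminf_of_le (by isBoundedDefault) ?_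
  filter_upwards [eventually_ge_atTop N0, taskC_archimedean _ _ hKtop hδ d,
    eventually_gt_atTop 0] with N hN1 hN2 hN3
  have hNpow0 : (N : ℝ≥0∞) ^ (d + 1) ≠ 0 := pow_ne_zero _ (Nat.cast_ne_zero.mpr hN3.ne')
  have hNpowt : (N : ℝ≥0∞) ^ (d + 1) ≠ ⊤ := ENNReal.pow_ne_top (ENNReal.natCast_ne_top N)
  rw [ENNReal.le_div_iff_mul_le (Or.inl hNpow0) (Or.inl hNpowt)]
  have h2 : c * (N : ℝ≥0∞) ^ (d + 1) + c₁ * (N0 : ℝ≥0∞) ^ (d + 1)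
      ≤ ((d + 1) ! : ℝ≥0∞) * (∑ j ∈ Finset.range N, a (j + 1))
        + c₁ * (N0 : ℝ≥0∞) ^ (d + 1) := by
    calc c * (N : ℝ≥0∞) ^ (d + 1) + c₁ * (N0 : ℝ≥0∞) ^ (d + 1)
        ≤ c * (N : ℝ≥0∞) ^ (d + 1) + (c₁ - c) * (N : ℝ≥0∞) ^ (d + 1) := by gcongr
      _ = (c + (c₁ - c)) * (N : ℝ≥0∞) ^ (d + 1) := by ring
      _ = c₁ * (N : ℝ≥0∞) ^ (d + 1) := by rw [add_tsub_cancel_of_le hc1.le]
      _ ≤ _ := hind N hN1
  exact (ENNReal.add_le_add_iff_right hKtop).mp h2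

theorem taskC_limsup (d : ℕ) (a : ℕ → ℝ≥0∞) (ha : ∀ N, a N ≠ ⊤) :
    limsup (fun N : ℕ => ((d + 1) ! : ℝ≥0∞) * (∑ j ∈ Finset.range N, a (j + 1))
        / (N : ℝ≥0∞) ^ (d + 1)) atTop ≤
      limsup (fun N : ℕ => (d ! : ℝ≥0∞) * a N / (N : ℝ≥0∞) ^ d) atTop := by
  refine le_of_forall_gt_imp_ge_of_dense (fun c hc => ?_)
  obtain ⟨c₃, hc3, hc3c⟩ := exists_between hc
  obtain ⟨c₂, hc2, hc23⟩ := exists_between hc3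
  obtain ⟨c₁, hc1, hc12⟩ := exists_between hc2
  have hc1top : c₁ ≠ ⊤ := (hc12.trans_le le_top).ne
  have hev : ∀ᶠ N in atTop, (d ! : ℝ≥0∞) * a N / (N : ℝ≥0∞) ^ d < c₁ :=
    eventually_lt_of_limsup_lt hc1
  obtain ⟨N0, hN0⟩ := eventually_atTop.mp hev
  have hpt : ∀ N, N0 ≤ N → (d ! : ℝ≥0∞) * a N ≤ c₁ * (N : ℝ≥0∞) ^ d := fun N hN =>
    (ENNReal.div_le_iff_le_mul (Or.inr hc1top)
      (Or.inl (ENNReal.pow_ne_top (ENNReal.natCast_ne_top N)))).mp (hN0 N hN).le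
  have hKtop : ((d + 1) ! : ℝ≥0∞) * (∑ j ∈ Finset.range N0, a (j + 1)) ≠ ⊤ :=
    ENNReal.mul_ne_top (ENNReal.natCast_ne_top _)
      (ENNReal.sum_ne_top.mpr (fun j _ => ha (j + 1)))
  have hind : ∀ N, N0 ≤ N → ((d + 1) ! : ℝ≥0∞) * (∑ j ∈ Finset.range N, a (j + 1)) ≤
      ((d + 1) ! : ℝ≥0∞) * (∑ j ∈ Finset.range N0, a (j + 1))
        + c₁ * ((N + 1 : ℕ) : ℝ≥0∞) ^ (d + 1) := by
    intro N hN
    induction N, hN using Nat.le_induction with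
    | base => exact le_self_add
    | succ N hN ih =>
      have hlow : ((N + 1 : ℕ) : ℝ≥0∞) ^ (d + 1)
          + ((d + 1 : ℕ) : ℝ≥0∞) * ((N + 1 : ℕ) : ℝ≥0∞) ^ d
          ≤ ((N + 1 + 1 : ℕ) : ℝ≥0∞) ^ (d + 1) := by
        exact_mod_cast taskC_nat_lower d (N + 1)
      have hstep := hpt (N + 1) (Nat.le_succ_of_le hN)
      calc ((d + 1) ! : ℝ≥0∞) * (∑ j ∈ Finset.range (N + 1), a (j + 1))
          = ((d + 1) ! : ℝ≥0∞) * (∑ j ∈ Finset.range N, a (j + 1))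
              + ((d + 1 : ℕ) : ℝ≥0∞) * ((d ! : ℝ≥0∞) * a (N + 1)) := by
            rw [Finset.sum_range_succ, Nat.factorial_succ]
            push_cast
            ring
        _ ≤ (((d + 1) ! : ℝ≥0∞) * (∑ j ∈ Finset.range N0, a (j + 1))
              + c₁ * ((N + 1 : ℕ) : ℝ≥0∞) ^ (d + 1))
              + ((d + 1 : ℕ) : ℝ≥0∞) * (c₁ * ((N + 1 : ℕ) : ℝ≥0∞) ^ d) := by gcongr
        _ = ((d + 1) ! : ℝ≥0∞) * (∑ j ∈ Finset.range N0, a (j + 1))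
              + c₁ * (((N + 1 : ℕ) : ℝ≥0∞) ^ (d + 1)
                + ((d + 1 : ℕ) : ℝ≥0∞) * ((N + 1 : ℕ) : ℝ≥0∞) ^ d) := by ring
        _ ≤ ((d + 1) ! : ℝ≥0∞) * (∑ j ∈ Finset.range N0, a (j + 1))
              + c₁ * ((N + 1 + 1 : ℕ) : ℝ≥0∞) ^ (d + 1) := by gcongr
  have hev2 : ∀ᶠ N : ℕ in atTop,
      c₁ < c₂ * ((N : ℝ≥0∞) / ((N + 1 : ℕ) : ℝ≥0∞)) ^ (d + 1) :=
    (taskC_const_ratio_tendsto c₂ (d + 1)).eventually (lt_mem_nhds hc12)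
  have hδ : c₃ - c₂ ≠ 0 := (tsub_pos_of_lt hc23).ne'
  refine limsup_le_of_le (by isBoundedDefault) ?_
  filter_upwards [eventually_ge_atTop N0, taskC_archimedean _ _ hKtop hδ d, hev2]
    with N hN1 hN2 hN4
  have hN1pow0 : ((N + 1 : ℕ) : ℝ≥0∞) ^ (d + 1) ≠ 0 :=
    pow_ne_zero _ (Nat.cast_ne_zero.mpr (Nat.succ_ne_zero N))
  have hN1powt : ((N + 1 : ℕ) : ℝ≥0∞) ^ (d + 1) ≠ ⊤ :=
    ENNReal.pow_ne_top (ENNReal.natCast_ne_top _)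
  have h1 : c₁ * ((N + 1 : ℕ) : ℝ≥0∞) ^ (d + 1) ≤ c₂ * (N : ℝ≥0∞) ^ (d + 1) := by
    calc c₁ * ((N + 1 : ℕ) : ℝ≥0∞) ^ (d + 1)
        ≤ c₂ * ((N : ℝ≥0∞) / ((N + 1 : ℕ) : ℝ≥0∞)) ^ (d + 1)
            * ((N + 1 : ℕ) : ℝ≥0∞) ^ (d + 1) := by gcongr
      _ = c₂ * (N : ℝ≥0∞) ^ (d + 1) * ((((N + 1 : ℕ) : ℝ≥0∞) ^ (d + 1))⁻¹
            * ((N + 1 : ℕ) : ℝ≥0∞) ^ (d + 1)) := by
          simp only [div_eq_mul_inv, mul_pow, ENNReal.inv_pow]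
          ring
      _ = c₂ * (N : ℝ≥0∞) ^ (d + 1) := by
          rw [ENNReal.inv_mul_cancel hN1pow0 hN1powt, mul_one]
  have hle : ((d + 1) ! : ℝ≥0∞) * (∑ j ∈ Finset.range N, a (j + 1))
      ≤ c₃ * (N : ℝ≥0∞) ^ (d + 1) := by
    calc ((d + 1) ! : ℝ≥0∞) * (∑ j ∈ Finset.range N, a (j + 1))
        ≤ ((d + 1) ! : ℝ≥0∞) * (∑ j ∈ Finset.range N0, a (j + 1))
            + c₁ * ((N + 1 : ℕ) : ℝ≥0∞) ^ (d + 1) := hind N hN1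
      _ ≤ (c₃ - c₂) * (N : ℝ≥0∞) ^ (d + 1) + c₂ * (N : ℝ≥0∞) ^ (d + 1) :=
          add_le_add hN2 h1
      _ = ((c₃ - c₂) + c₂) * (N : ℝ≥0∞) ^ (d + 1) := by ring
      _ = c₃ * (N : ℝ≥0∞) ^ (d + 1) := by rw [tsub_add_cancel_of_le hc23.le]
  exact (ENNReal.div_le_of_le_mul hle).trans hc3c.le

theorem taskC_sandwich_liminf (D : ℕ) (b s : ℕ → ℝ≥0∞) (L : ℝ≥0∞)
    (h1 : ∀ N, b N * L ≤ s (N + 1)) :
    L * liminf (fun N : ℕ => (D ! : ℝ≥0∞) * b N / (N : ℝ≥0∞) ^ D) atTop ≤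
      liminf (fun N : ℕ => (D ! : ℝ≥0∞) * s N / (N : ℝ≥0∞) ^ D) atTop := by
  rw [← liminf_nat_add (fun N : ℕ => (D ! : ℝ≥0∞) * s N / (N : ℝ≥0∞) ^ D) 1]
  refine ENNReal.mul_le_of_forall_lt (fun L' hL' l' hl' => ?_)
  have hev1 : ∀ᶠ N in atTop, l' < (D ! : ℝ≥0∞) * b N / (N : ℝ≥0∞) ^ D :=
    eventually_lt_of_lt_liminf hl'
  have hev2 : ∀ᶠ N : ℕ in atTop, L' < L * ((N : ℝ≥0∞) / ((N + 1 : ℕ) : ℝ≥0∞)) ^ D :=
    (taskC_const_ratio_tendsto L D).eventually (lt_mem_nhds hL')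
  refine le_liminf_of_le (by isBoundedDefault) ?_
  filter_upwards [hev1, hev2, eventually_gt_atTop 0] with N hN1 hN2 hN3
  have hN0 : ((N : ℝ≥0∞)) ^ D ≠ 0 := pow_ne_zero _ (Nat.cast_ne_zero.mpr hN3.ne')
  have hNt : ((N : ℝ≥0∞)) ^ D ≠ ⊤ := ENNReal.pow_ne_top (ENNReal.natCast_ne_top N)
  calc L' * l' ≤ (L * ((N : ℝ≥0∞) / ((N + 1 : ℕ) : ℝ≥0∞)) ^ D)
          * ((D ! : ℝ≥0∞) * b N / (N : ℝ≥0∞) ^ D) := mul_le_mul' hN2.le hN1.le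
    _ = (D ! : ℝ≥0∞) * (b N * L) * (((N : ℝ≥0∞) ^ D)⁻¹ * (N : ℝ≥0∞) ^ D)
          * ((((N + 1 : ℕ) : ℝ≥0∞)) ^ D)⁻¹ := by
        simp only [div_eq_mul_inv, mul_pow, ENNReal.inv_pow]
        ring
    _ = (D ! : ℝ≥0∞) * (b N * L) / (((N + 1 : ℕ) : ℝ≥0∞)) ^ D := by
        rw [ENNReal.inv_mul_cancel hN0 hNt, mul_one, div_eq_mul_inv]
    _ ≤ (D ! : ℝ≥0∞) * s (N + 1) / (((N + 1 : ℕ) : ℝ≥0∞)) ^ D :=
        ENNReal.div_le_div_right (mul_le_mul_right (h1 N) _) _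

theorem taskC_sandwich_limsup (D : ℕ) (b s : ℕ → ℝ≥0∞) (L : ℝ≥0∞) (hL : L ≠ ⊤)
    (h2 : ∀ N, s (N + 1) ≤ b (N + 1) * L) :
    limsup (fun N : ℕ => (D ! : ℝ≥0∞) * s N / (N : ℝ≥0∞) ^ D) atTop ≤
      L * limsup (fun N : ℕ => (D ! : ℝ≥0∞) * b N / (N : ℝ≥0∞) ^ D) atTop := by
  rw [← limsup_nat_add (fun N : ℕ => (D ! : ℝ≥0∞) * s N / (N : ℝ≥0∞) ^ D) 1,
    ← limsup_nat_add (fun N : ℕ => (D ! : ℝ≥0∞) * b N / (N : ℝ≥0∞) ^ D) 1,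
    ← ENNReal.limsup_const_mul_of_ne_top hL]
  refine limsup_le_limsup (Eventually.of_forall (fun N => ?_)) (by isBoundedDefault)
    (by isBoundedDefault)
  calc (D ! : ℝ≥0∞) * s (N + 1) / (((N + 1 : ℕ) : ℝ≥0∞)) ^ D
      ≤ (D ! : ℝ≥0∞) * (b (N + 1) * L) / (((N + 1 : ℕ) : ℝ≥0∞)) ^ D :=
        ENNReal.div_le_div_right (mul_le_mul_right (h2 N) _) _
    _ = L * ((D ! : ℝ≥0∞) * b (N + 1) / ((N + 1 : ℕ) : ℝ≥0∞) ^ D) := by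
        rw [div_eq_mul_inv, div_eq_mul_inv]
        ring

end Vale.Agent.Lib.P202
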