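import Vale.Agent.Lib.P202.RegSeqFibre
import Vale.Agent.Lib.P202.TaskC
import Vale.Agent.Lib.P202.Shift

/-!
# Flat local maps for which `m S + (y)` is a reduction of the maximal ideal

Setting: a flat local homomorphism `(R, m) → (S, n)` of Noetherian local rings and a sequence
`y` in `n` that is regular on the closed fibre `S / m S`, such that `J = m S + (y)` is a
reduction of `n`, that is `n ^ (c + 1) ≤ J n ^ c` for some `c`.  We prove `dim S = dim R + δ`
and compare the normalised Hilbert-Samuel functions of `R` and `S`: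
`L liminf_R ≤ liminf_S ≤ limsup_S ≤ L limsup_R` with `L = length_S (S / J)`.
-/

namespace Vale.Agent.Lib.P202

open IsLocalRing Filter

section weaklyRegular

variable {S : Type*} [CommRing S]

/-- Membership in `I • ⊤ ≤ S / 𝔟`. -/
lemma mk_mem_smul_top_iff (𝔟 I : Ideal S) (s : S) :
    (Ideal.Quotient.mk 𝔟 s) ∈ (I • ⊤ : Submodule S (S ⧸ 𝔟)) ↔ s ∈ 𝔟 ⊔ I := by
  have h1 : (I • ⊤ : Submodule S (S ⧸ 𝔟)) = Submodule.map (Submodule.mkQ 𝔟) I := by
    have h2 := Submodule.map_smul'' I (⊤ : Submodule S S) (Submodule.mkQ 𝔟)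
    rw [Submodule.map_top, Submodule.range_mkQ] at h2
    rw [← h2]
    congr 1
    simp
  rw [h1, Submodule.mem_map]
  constructor
  · rintro ⟨i, hi, hi'⟩
    have h3 : s - i ∈ 𝔟 := by
      rw [← Ideal.Quotient.eq_zero_iff_mem, map_sub, sub_eq_zero]
      exact hi'.symm
    have h4 : s = (s - i) + i := by ring
    rw [h4]
    exact Ideal.add_mem _ (Ideal.mem_sup_left h3) (Ideal.mem_sup_right hi)
  · intro hs
    obtain ⟨b, hb, i, hi, rfl⟩ := Submodule.mem_sup.mp hs
    refine ⟨i, hi, ?_⟩
    change Ideal.Quotient.mk 𝔟 i = Ideal.Quotient.mk 𝔟 (b + i)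
    rw [map_add, Ideal.Quotient.eq_zero_iff_mem.mpr hb, zero_add]

/-- A weakly regular sequence on `S / 𝔟` contained in the maximal ideal of a Noetherian local
ring is regular in every order: each member is a nonzerodivisor modulo `𝔟` plus any set of
other members. -/
lemma regular_of_isWeaklyRegular [IsLocalRing S] [IsNoetherianRing S] (𝔟 : Ideal S)
    (rs : List S) (hmem : ∀ r ∈ rs, r ∈ maximalIdeal S)
    (hreg : RingTheory.Sequence.IsWeaklyRegular (S ⧸ 𝔟) rs)
    (T : Finset (Fin rs.length)) (k : Fin rs.length) (hk : k ∉ T) (s : S)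
    (hs : rs.get k * s ∈ 𝔟 ⊔ Ideal.span (rs.get '' (T : Set (Fin rs.length)))) :
    s ∈ 𝔟 ⊔ Ideal.span (rs.get '' (T : Set (Fin rs.length))) := by
  classical
  set l' : List (Fin rs.length) := T.toList ++ k :: (Finset.univ \ insert k T).toList with hl'
  have hnodup : l'.Nodup := by
    rw [hl', List.nodup_append]
    refine ⟨Finset.nodup_toList T, ?_, ?_⟩
    · rw [List.nodup_cons]
      refine ⟨?_, Finset.nodup_toList _⟩
      rw [Finset.mem_toList]
      simp
    · intro a ha b hb
      rw [Finset.mem_toList] at ha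
      rw [List.mem_cons, Finset.mem_toList] at hb
      rcases hb with rfl | hb
      · intro h
        exact hk (h ▸ ha)
      · intro h
        rw [Finset.mem_sdiff, Finset.mem_insert] at hb
        exact hb.2 (Or.inr (h ▸ ha))
  have hperm : l'.Perm (List.finRange rs.length) := by
    rw [List.perm_ext_iff_of_nodup hnodup (List.nodup_finRange _)]
    intro a
    simp only [hl', List.mem_append, Finset.mem_toList, List.mem_cons, Finset.mem_sdiff,
      Finset.mem_univ, Finset.mem_insert, true_and, List.mem_finRange, iff_true]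
    tauto
  have hperm2 : (l'.map rs.get).Perm rs := by
    have h1 := hperm.map rs.get
    rwa [List.map_get_finRange] at h1
  have hreg' : RingTheory.Sequence.IsWeaklyRegular (S ⧸ 𝔟) (l'.map rs.get) :=
    IsLocalRing.isWeaklyRegular_of_perm_of_subset_maximalIdeal hreg hperm2.symm hmem
  rw [hl', List.map_append, List.map_cons,
    RingTheory.Sequence.isWeaklyRegular_append_iff,
    RingTheory.Sequence.isWeaklyRegular_cons_iff] at hreg'
  have hinj := hreg'.2.1
  have hset : {r | r ∈ T.toList.map rs.get} = rs.get '' (T : Set (Fin rs.length)) := by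
    ext r
    simp
  have hI : Ideal.ofList (T.toList.map rs.get) =
      Ideal.span (rs.get '' (T : Set (Fin rs.length))) := by
    rw [Ideal.ofList, hset]
  rw [hI] at hinj
  rw [← mk_mem_smul_top_iff] at hs ⊢
  rw [← Submodule.Quotient.mk_eq_zero]
  apply hinj
  beta_reduce
  rw [smul_zero, ← Submodule.Quotient.mk_smul, Submodule.Quotient.mk_eq_zero]
  have h5 : rs.get k • (Ideal.Quotient.mk 𝔟 s) = Ideal.Quotient.mk 𝔟 (rs.get k * s) := by
    rw [map_mul]
    rfl
  rw [h5]
  exact hs

end weaklyRegular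

section reduction

variable {R S : Type*} [CommRing R] [CommRing S] [IsLocalRing R] [IsLocalRing S]
  [Algebra R S] [IsLocalHom (algebraMap R S)] {ι : Type*}

/-- Iterating `n ^ (c + 1) ≤ I n ^ c` gives `n ^ (N + c) ≤ I ^ N` for all `N`. -/
lemma pow_add_le_pow_of_pow_succ_le_mul {A : Type*} [CommRing A] (I n : Ideal A) (c : ℕ)
    (h : n ^ (c + 1) ≤ I * n ^ c) (N : ℕ) : n ^ (N + c) ≤ I ^ N := by
  have key : ∀ N : ℕ, n ^ (N + c) ≤ I ^ N * n ^ c := by
    intro N
    induction N with
    | zero => simp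
    | succ N ih =>
      calc n ^ (N + 1 + c) = n ^ (N + c) * n := by rw [← pow_succ]; congr 1; omega
        _ ≤ (I ^ N * n ^ c) * n := Ideal.mul_mono_left ih
        _ = I ^ N * n ^ (c + 1) := by rw [mul_assoc, ← pow_succ]
        _ ≤ I ^ N * (I * n ^ c) := Ideal.mul_mono_right h
        _ = I ^ (N + 1) * n ^ c := by rw [← mul_assoc, ← pow_succ]
  exact (key N).trans Ideal.mul_le_left

/-- The sandwich for the Hilbert-Samuel function of `S` when `J = m S + (y i : i ∈ T)` is a
reduction of `n`. -/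
lemma length_sandwich_of_reduction [IsNoetherianRing R] [IsNoetherianRing S] [Module.Flat R S]
    (y : ι → S) (hyn : ∀ k, y k ∈ maximalIdeal S)
    (hreg : ∀ (T : Finset ι) (k : ι), k ∉ T →
      ∀ s : S, y k * s ∈ fibreIdeal R y T → s ∈ fibreIdeal R y T)
    (T : Finset ι) (c : ℕ)
    (h : maximalIdeal S ^ (c + 1) ≤ fibreIdeal R y T * maximalIdeal S ^ c) (N : ℕ) :
    iterSum (fun N => Module.length R (R ⧸ maximalIdeal R ^ N)) T.card N *
        Module.length S (S ⧸ fibreIdeal R y T) ≤
      Module.length S (S ⧸ maximalIdeal S ^ (N + c)) ∧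
    Module.length S (S ⧸ maximalIdeal S ^ (N + c)) ≤
      iterSum (fun N => Module.length R (R ⧸ maximalIdeal R ^ N)) T.card (N + c) *
        Module.length S (S ⧸ fibreIdeal R y T) := by
  constructor
  · rw [← length_quot_fibreIdeal_pow y hyn hreg T N]
    exact length_quot_anti (pow_add_le_pow_of_pow_succ_le_mul _ _ c h N)
  · rw [← length_quot_fibreIdeal_pow y hyn hreg T (N + c)]
    exact length_quot_anti (Ideal.pow_right_mono (fibreIdeal_le y hyn T) _)

open scoped ENNReal Nat Topology in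
lemma liminf_iterSum (f : ℕ → ℕ∞) (d : ℕ) :
    ∀ t : ℕ, liminf (fun N : ℕ => (d ! : ℝ≥0∞) * (f N).toENNReal / (N : ℝ≥0∞) ^ d) atTop ≤
      liminf (fun N : ℕ => ((d + t) ! : ℝ≥0∞) * (iterSum f t N).toENNReal
        / (N : ℝ≥0∞) ^ (d + t)) atTop := by
  intro t
  induction t with
  | zero => exact le_rfl
  | succ t ih =>
    refine ih.trans ?_
    have h1 := taskC_liminf (d + t) (fun N => (iterSum f t N).toENNReal)
    refine h1.trans (le_of_eq ?_)
    congr 1
    funext N
    have h2 : (iterSum f (t + 1) N).toENNReal =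
        ∑ j ∈ Finset.range N, (iterSum f t (j + 1)).toENNReal :=
      map_sum ENat.toENNRealRingHom _ _
    rw [h2]
    rfl

open scoped ENNReal Nat Topology in
lemma limsup_iterSum (f : ℕ → ℕ∞) (hf : ∀ N, f N ≠ ⊤) (d : ℕ) :
    ∀ t : ℕ, limsup (fun N : ℕ => ((d + t) ! : ℝ≥0∞) * (iterSum f t N).toENNReal
        / (N : ℝ≥0∞) ^ (d + t)) atTop ≤
      limsup (fun N : ℕ => (d ! : ℝ≥0∞) * (f N).toENNReal / (N : ℝ≥0∞) ^ d) atTop := by
  intro t
  induction t with
  | zero => exact le_rfl
  | succ t ih =>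
    refine le_trans ?_ ih
    have h1 := taskC_limsup (d + t) (fun N => (iterSum f t N).toENNReal)
      (fun N => ENat.toENNReal_ne_top.mpr (iterSum_ne_top f hf t N))
    refine le_trans (le_of_eq ?_) h1
    congr 1
    funext N
    have h2 : (iterSum f (t + 1) N).toENNReal =
        ∑ j ∈ Finset.range N, (iterSum f t (j + 1)).toENNReal :=
      map_sum ENat.toENNRealRingHom _ _
    rw [h2]
    rfl

open scoped ENNReal Nat Topology in
/-- Comparison of the normalised Hilbert-Samuel functions of `R` and `S` when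
`J = m S + (y i : i ∈ T)` is a reduction of `n`. -/
theorem liminf_limsup_of_reduction [IsNoetherianRing R] [IsNoetherianRing S] [Module.Flat R S]
    (y : ι → S) (hyn : ∀ k, y k ∈ maximalIdeal S)
    (hreg : ∀ (T : Finset ι) (k : ι), k ∉ T →
      ∀ s : S, y k * s ∈ fibreIdeal R y T → s ∈ fibreIdeal R y T)
    (T : Finset ι) (c : ℕ)
    (h : maximalIdeal S ^ (c + 1) ≤ fibreIdeal R y T * maximalIdeal S ^ c) (d : ℕ) :
    (Module.length S (S ⧸ fibreIdeal R y T)).toENNReal *
        liminf (fun N : ℕ => (d ! : ℝ≥0∞) *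
          (Module.length R (R ⧸ maximalIdeal R ^ N)).toENNReal / (N : ℝ≥0∞) ^ d) atTop ≤
      liminf (fun N : ℕ => ((d + T.card) ! : ℝ≥0∞) *
        (Module.length S (S ⧸ maximalIdeal S ^ N)).toENNReal / (N : ℝ≥0∞) ^ (d + T.card))
        atTop ∧
    limsup (fun N : ℕ => ((d + T.card) ! : ℝ≥0∞) *
        (Module.length S (S ⧸ maximalIdeal S ^ N)).toENNReal / (N : ℝ≥0∞) ^ (d + T.card))
        atTop ≤
      (Module.length S (S ⧸ fibreIdeal R y T)).toENNReal *
        limsup (fun N : ℕ => (d ! : ℝ≥0∞) *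
          (Module.length R (R ⧸ maximalIdeal R ^ N)).toENNReal / (N : ℝ≥0∞) ^ d) atTop := by
  have hpow : maximalIdeal S ^ (c + 1) ≤ fibreIdeal R y T := h.trans Ideal.mul_le_left
  have hL : (Module.length S (S ⧸ fibreIdeal R y T)).toENNReal ≠ ⊤ :=
    ENat.toENNReal_ne_top.mpr
      (length_quot_ne_top_of_pow_le (fibreIdeal_le y hyn T) (c + 1) hpow)
  constructor
  · refine le_trans (mul_le_mul_right
      (liminf_iterSum (fun N => Module.length R (R ⧸ maximalIdeal R ^ N)) d T.card) _) ?_
    refine shift_sandwich_liminf (d + T.card) c _ _ _ ?_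
    intro N
    have h1 := (length_sandwich_of_reduction y hyn hreg T c h N).1
    have h2 := ENat.toENNReal_le.mpr h1
    rwa [ENat.toENNReal_mul] at h2
  · refine le_trans ?_ (mul_le_mul_right
      (limsup_iterSum (fun N => Module.length R (R ⧸ maximalIdeal R ^ N))
        (length_quot_pow_ne_top R) d T.card) _)
    refine shift_sandwich_limsup (d + T.card) c _ _ _ hL ?_
    intro N
    have h1 := (length_sandwich_of_reduction y hyn hreg T c h N).2
    have h2 := ENat.toENNReal_le.mpr h1
    rwa [ENat.toENNReal_mul] at h2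

end reduction

section final

variable {R S : Type*} [CommRing R] [CommRing S] [IsLocalRing R] [IsLocalRing S]
  [Algebra R S] [IsLocalHom (algebraMap R S)]

omit [IsLocalRing R] [IsLocalHom (algebraMap R S)] [Algebra R S] in
lemma one_le_length_quot {I : Ideal S} (hI : I ≤ maximalIdeal S) :
    1 ≤ Module.length S (S ⧸ I) := by
  have hne : I ≠ ⊤ := by
    intro h
    rw [h] at hI
    exact Ideal.IsPrime.ne_top' (top_le_iff.mp hI)
  have : Nontrivial (S ⧸ I) := Ideal.Quotient.nontrivial_iff.mpr hne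
  exact Order.one_le_iff_pos.mpr Module.length_pos

open scoped ENNReal Nat Topology in
/-- **Main theorem for a regular sequence on the closed fibre.**  Let `rs` be a sequence in `n`
that is weakly regular on `S / m S`, put `J = m S + (rs)`, and assume that `J` is a reduction
of `n`, or that `n ^ 2 ≤ J` and `n` is not of the form `x S + J`.  Then `dim S = dim R + δ`
with `δ` the length of `rs`, and `L liminf_R ≤ liminf_S ≤ limsup_S ≤ L limsup_R` for the
normalised Hilbert-Samuel functions, where `L = length_S (S / J)`. -/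
theorem main_of_isWeaklyRegular [IsNoetherianRing R] [IsNoetherianRing S] [Module.Flat R S]
    (rs : List S) (hmem : ∀ r ∈ rs, r ∈ maximalIdeal S)
    (hreg : RingTheory.Sequence.IsWeaklyRegular
      (S ⧸ (maximalIdeal R).map (algebraMap R S)) rs)
    (J : Ideal S) (hJ : J = (maximalIdeal R).map (algebraMap R S) ⊔ Ideal.ofList rs)
    (h : (∃ c : ℕ, maximalIdeal S ^ (c + 1) ≤ J * maximalIdeal S ^ c) ∨
      (maximalIdeal S ^ 2 ≤ J ∧ ∀ x : S, maximalIdeal S ≠ Ideal.span {x} ⊔ J)) :
    ringKrullDim S = ringKrullDim R + rs.length ∧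
    1 ≤ Module.length S (S ⧸ J) ∧
    Module.length S (S ⧸ J) ≠ ⊤ ∧
    ((∀ x : S, maximalIdeal S ≠ Ideal.span {x} ⊔ J) → 3 ≤ Module.length S (S ⧸ J)) ∧
    (∀ d : ℕ,
      (Module.length S (S ⧸ J)).toENNReal *
          liminf (fun N : ℕ => (d ! : ℝ≥0∞) *
            (Module.length R (R ⧸ maximalIdeal R ^ N)).toENNReal / (N : ℝ≥0∞) ^ d) atTop ≤
        liminf (fun N : ℕ => ((d + rs.length) ! : ℝ≥0∞) *
          (Module.length S (S ⧸ maximalIdeal S ^ N)).toENNReal / (N : ℝ≥0∞) ^ (d + rs.length))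
          atTop ∧
      limsup (fun N : ℕ => ((d + rs.length) ! : ℝ≥0∞) *
          (Module.length S (S ⧸ maximalIdeal S ^ N)).toENNReal / (N : ℝ≥0∞) ^ (d + rs.length))
          atTop ≤
        (Module.length S (S ⧸ J)).toENNReal *
          limsup (fun N : ℕ => (d ! : ℝ≥0∞) *
            (Module.length R (R ⧸ maximalIdeal R ^ N)).toENNReal / (N : ℝ≥0∞) ^ d) atTop) ∧
    (∀ (d : ℕ) (e : ℝ≥0∞),
      Tendsto (fun N : ℕ => (d ! : ℝ≥0∞) *
        (Module.length R (R ⧸ maximalIdeal R ^ N)).toENNReal / (N : ℝ≥0∞) ^ d) atTop (𝓝 e) →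
      Tendsto (fun N : ℕ => ((d + rs.length) ! : ℝ≥0∞) *
        (Module.length S (S ⧸ maximalIdeal S ^ N)).toENNReal / (N : ℝ≥0∞) ^ (d + rs.length))
        atTop (𝓝 ((Module.length S (S ⧸ J)).toENNReal * e))) := by
  have hyn : ∀ k : Fin rs.length, rs.get k ∈ maximalIdeal S := fun k =>
    hmem _ (List.get_mem rs k)
  have hreg' : ∀ (T : Finset (Fin rs.length)) (k : Fin rs.length), k ∉ T →
      ∀ s : S, rs.get k * s ∈ fibreIdeal R rs.get T → s ∈ fibreIdeal R rs.get T :=
    fun T k hk s hs => regular_of_isWeaklyRegular _ rs hmem hreg T k hk s hs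
  have hJ' : fibreIdeal R rs.get Finset.univ = J := by
    rw [hJ, fibreIdeal, Finset.coe_univ, Set.image_univ, Set.range_list_get]
  have hcard : (Finset.univ : Finset (Fin rs.length)).card = rs.length := Finset.card_fin _
  have hJn : J ≤ maximalIdeal S := hJ' ▸ fibreIdeal_le rs.get hyn Finset.univ
  have hred : ∃ c : ℕ, maximalIdeal S ^ (c + 1) ≤ J * maximalIdeal S ^ c := by
    rcases h with h | ⟨h2, hnp⟩
    · exact h
    · refine ⟨1, ?_⟩
      rw [pow_one, ← hJ']
      rw [← hJ'] at h2 hnp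
      exact sq_le_fibreIdeal_mul_maximalIdeal rs.get hyn hreg' Finset.univ h2 hnp
  obtain ⟨c, hc⟩ := hred
  have hpow : maximalIdeal S ^ (c + 1) ≤ J := hc.trans Ideal.mul_le_left
  have hlim : ∀ d : ℕ,
      (Module.length S (S ⧸ J)).toENNReal *
          liminf (fun N : ℕ => (d ! : ℝ≥0∞) *
            (Module.length R (R ⧸ maximalIdeal R ^ N)).toENNReal / (N : ℝ≥0∞) ^ d) atTop ≤
        liminf (fun N : ℕ => ((d + rs.length) ! : ℝ≥0∞) *
          (Module.length S (S ⧸ maximalIdeal S ^ N)).toENNReal / (N : ℝ≥0∞) ^ (d + rs.length))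
          atTop ∧
      limsup (fun N : ℕ => ((d + rs.length) ! : ℝ≥0∞) *
          (Module.length S (S ⧸ maximalIdeal S ^ N)).toENNReal / (N : ℝ≥0∞) ^ (d + rs.length))
          atTop ≤
        (Module.length S (S ⧸ J)).toENNReal *
          limsup (fun N : ℕ => (d ! : ℝ≥0∞) *
            (Module.length R (R ⧸ maximalIdeal R ^ N)).toENNReal / (N : ℝ≥0∞) ^ d) atTop := by
    intro d
    have h1 := liminf_limsup_of_reduction rs.get hyn hreg' Finset.univ c
      (by rw [hJ']; exact hc) d
    rw [hcard, hJ'] at h1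
    exact h1
  refine ⟨?_, one_le_length_quot hJn, length_quot_ne_top_of_pow_le hJn (c + 1) hpow,
    fun hnp => three_le_length_quot hJn hnp, hlim, ?_⟩
  · have h1 := ringKrullDim_eq_add_card rs.get hyn hreg' Finset.univ (c + 1)
      (by rw [hJ']; exact hpow)
    rwa [hcard] at h1
  · intro d e he
    obtain ⟨h1, h2⟩ := hlim d
    rw [he.liminf_eq] at h1
    rw [he.limsup_eq] at h2
    exact tendsto_of_le_liminf_of_limsup_le h1 h2

end final

end Vale.Agent.Lib.P202
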