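import Mathlib

/-!
# Hilbert-Samuel multiplicity of a local ring and a comparison along flat local maps

`hsMult A` is `limsup_N d! * length_A (A / m^N) / N^d` with `d = dim A`, valued in `[0, ∞]`.
For a Noetherian local ring this limsup is a limit, the Hilbert-Samuel multiplicity `e(A)`.
-/

namespace Vale.Agent.Lib.P202

open IsLocalRing Filter

/-- The Krull dimension of a commutative ring as a natural number
(`0` when the dimension is infinite or the ring is zero). -/
noncomputable def krullDimNat (A : Type*) [CommRing A] : ℕ :=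
  ((ringKrullDim A).unbotD 0).toNat

/-- The Hilbert-Samuel multiplicity of a local ring `A` with maximal ideal `m` and
`d = dim A`: the limsup over `N` of `d! * length_A (A / m ^ N) / N ^ d`, in `[0, ∞]`. -/
noncomputable def hsMult (A : Type*) [CommRing A] [IsLocalRing A] : ENNReal :=
  limsup (fun N : ℕ =>
    ((krullDimNat A).factorial : ENNReal) *
      (Module.length A (A ⧸ (maximalIdeal A) ^ N)).toENNReal
      / (N : ENNReal) ^ krullDimNat A) atTop

variable {R S : Type*} [CommRing R] [CommRing S] [IsLocalRing R] [IsLocalRing S]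
  [Algebra R S] [IsLocalHom (algebraMap R S)]

lemma length_quot_map [Module.Flat R S] (I : Ideal R) :
    Module.length S (S ⧸ I.map (algebraMap R S)) =
      Module.length R (R ⧸ I) *
        Module.length S (S ⧸ (maximalIdeal R).map (algebraMap R S)) := by
  rw [(Algebra.TensorProduct.quotIdealMapEquivTensorQuot S I).toLinearEquiv.length_eq]
  exact IsLocalRing.length_baseChange R S (R ⧸ I)

lemma length_quot_anti {A : Type*} [CommRing A] {I J : Ideal A} (h : I ≤ J) :
    Module.length A (A ⧸ J) ≤ Module.length A (A ⧸ I) :=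
  Module.length_le_of_surjective (Submodule.factor h) (Submodule.factor_surjective h)

lemma height_map_mk_eq_zero (j : ℕ)
    (h : (maximalIdeal S) ^ j ≤ (maximalIdeal R).map (algebraMap R S)) :
    ((maximalIdeal S).map
      (Ideal.Quotient.mk ((maximalIdeal R).map (algebraMap R S)))).height = 0 := by
  set mS := (maximalIdeal R).map (algebraMap R S) with hmS
  have hle : mS ≤ maximalIdeal S := by
    rw [hmS, Ideal.map_le_iff_le_comap]
    exact ((local_hom_TFAE (algebraMap R S)).out 0 3 rfl rfl).mp inferInstance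
  have hprime : ((maximalIdeal S).map (Ideal.Quotient.mk mS)).IsPrime := by
    apply Ideal.map_isPrime_of_surjective Ideal.Quotient.mk_surjective
    rw [Ideal.mk_ker]
    exact hle
  rw [Ideal.height_eq_zero_iff]
  refine ⟨⟨hprime, bot_le⟩, ?_⟩
  rintro q ⟨hq, -⟩ -
  intro x hx
  have hxj : x ^ j ∈ ((maximalIdeal S).map (Ideal.Quotient.mk mS)) ^ j := Ideal.pow_mem_pow hx j
  rw [← Ideal.map_pow] at hxj
  have : (maximalIdeal S ^ j).map (Ideal.Quotient.mk mS) = ⊥ := by
    rw [Ideal.map_eq_bot_iff_le_ker, Ideal.mk_ker]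
    exact h
  rw [this] at hxj
  have : x ^ j ∈ q := by
    rw [Ideal.mem_bot.mp hxj]; exact q.zero_mem
  exact hq.mem_of_pow_mem j this

/-- If a power of the maximal ideal of `S` lies in `m S`, then `dim S = dim R`. -/
lemma krullDimNat_eq [IsNoetherianRing R] [IsNoetherianRing S] [Module.Flat R S] (j : ℕ)
    (h : (maximalIdeal S) ^ j ≤ (maximalIdeal R).map (algebraMap R S)) :
    krullDimNat S = krullDimNat R := by
  have h1 := Ideal.height_eq_height_add_of_liesOver_of_hasGoingDown
    (maximalIdeal R) (maximalIdeal S)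
  rw [height_map_mk_eq_zero j h, add_zero] at h1
  unfold krullDimNat
  rw [← maximalIdeal_height_eq_ringKrullDim, ← maximalIdeal_height_eq_ringKrullDim, h1]

lemma tendsto_ratio_pow (c k d : ℕ) (hc : 0 < c) :
    Tendsto (fun N : ℕ => ((c * N : ℕ) : ENNReal) ^ d / ((c * N + k : ℕ) : ENNReal) ^ d)
      atTop (nhds 1) := by
  have hφ : Tendsto (fun N : ℕ => c * N) atTop atTop :=
    tendsto_atTop_mono (fun N => Nat.le_mul_of_pos_left N hc) tendsto_id
  have h1 : Tendsto (fun m : ℕ => ((m : ℝ) / (m + (k : ℝ))) ^ d) atTop (nhds ((1 : ℝ) ^ d)) :=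
    (tendsto_natCast_div_add_atTop (k : ℝ)).pow d
  rw [one_pow] at h1
  have h2 := (ENNReal.tendsto_ofReal h1).comp hφ
  rw [ENNReal.ofReal_one] at h2
  refine h2.congr' ?_
  filter_upwards [eventually_ge_atTop 1] with N hN
  simp only [Function.comp_apply]
  have hpos : (0 : ℝ) < ((c * N : ℕ) : ℝ) + (k : ℝ) := by
    have : 0 < c * N := Nat.mul_pos hc hN
    positivity
  rw [ENNReal.ofReal_pow (by positivity), ENNReal.ofReal_div_of_pos hpos,
    ENNReal.ofReal_natCast, ← Nat.cast_add, ENNReal.ofReal_natCast, div_eq_mul_inv, mul_pow,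
    ← ENNReal.inv_pow, div_eq_mul_inv]

/-- Abstract limsup comparison used for multiplicities. -/
lemma limsup_scale_le (a b : ℕ → ENNReal) (L : ENNReal) (c k d : ℕ) (hc : 0 < c)
    (D : ENNReal)
    (lR lS : ℕ → ENNReal)
    (ha : ∀ N, a N = D * lS N / (N : ENNReal) ^ d)
    (hb : ∀ N, b N = D * lR N / (N : ENNReal) ^ d)
    (h : ∀ N, lR N * L ≤ lS (c * N + k)) :
    limsup b atTop * L ≤ (c : ENNReal) ^ d * limsup a atTop := by
  have hφ : Tendsto (fun N : ℕ => c * N + k) atTop atTop := by
    apply tendsto_atTop_mono (fun N => ?_) tendsto_id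
    simp only [id]
    nlinarith [Nat.zero_le k, Nat.zero_le N]
  have h1 : limsup (a ∘ fun N : ℕ => c * N + k) atTop ≤ limsup a atTop :=
    hφ.limsup_comp_le_limsup (by isBoundedDefault) (by isBoundedDefault)
  have hcd : (c : ENNReal) ^ d ≠ ⊤ := by simp
  set v : ℕ → ENNReal := fun N => ((c * N : ℕ) : ENNReal) ^ d / ((c * N + k : ℕ) : ENNReal) ^ d
    with hv
  have hvlim : Tendsto v atTop (nhds 1) := tendsto_ratio_pow c k d hc
  have h2 : limsup b atTop * liminf (fun N => L * v N) atTop ≤
      limsup (b * fun N => L * v N) atTop := ENNReal.le_limsup_mul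
  have h3 : liminf (fun N => L * v N) atTop = L := by
    have : Tendsto (fun N => L * v N) atTop (nhds (L * 1)) :=
      ENNReal.Tendsto.const_mul hvlim (Or.inl one_ne_zero)
    rw [mul_one] at this
    exact this.liminf_eq
  rw [h3] at h2
  refine h2.trans ?_
  calc limsup (b * fun N => L * v N) atTop
      ≤ limsup (fun N => (c : ENNReal) ^ d * (a ∘ fun N : ℕ => c * N + k) N) atTop := by
        apply limsup_le_limsup _ (by isBoundedDefault) (by isBoundedDefault)
        filter_upwards [eventually_ge_atTop 1] with N hN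
        simp only [Pi.mul_apply, Function.comp_apply]
        rw [hb, ha, hv]
        simp only
        have hN0 : ((N : ENNReal)) ^ d ≠ 0 := by
          apply pow_ne_zero
          exact_mod_cast (by omega : N ≠ 0)
        have hNt : ((N : ENNReal)) ^ d ≠ ⊤ := by simp
        have e1 : ((c * N : ℕ) : ENNReal) ^ d = (c : ENNReal) ^ d * (N : ENNReal) ^ d := by
          rw [Nat.cast_mul, mul_pow]
        rw [e1, div_eq_mul_inv, div_eq_mul_inv, div_eq_mul_inv]
        calc D * lR N * ((N : ENNReal) ^ d)⁻¹ *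
              (L * ((c : ENNReal) ^ d * (N : ENNReal) ^ d * (((c * N + k : ℕ) : ENNReal) ^ d)⁻¹))
            = (c : ENNReal) ^ d * (D * (lR N * L) * (((c * N + k : ℕ) : ENNReal) ^ d)⁻¹) *
                (((N : ENNReal) ^ d)⁻¹ * (N : ENNReal) ^ d) := by ring
          _ = (c : ENNReal) ^ d * (D * (lR N * L) * (((c * N + k : ℕ) : ENNReal) ^ d)⁻¹) := by
              rw [ENNReal.inv_mul_cancel hN0 hNt, mul_one]
          _ ≤ (c : ENNReal) ^ d * (D * lS (c * N + k) * (((c * N + k : ℕ) : ENNReal) ^ d)⁻¹) := by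
              gcongr
              exact h N
    _ = (c : ENNReal) ^ d * limsup (a ∘ fun N : ℕ => c * N + k) atTop :=
        ENNReal.limsup_const_mul_of_ne_top hcd
    _ ≤ (c : ENNReal) ^ d * limsup a atTop := by gcongr

/-- Main comparison: if `n ^ (c * N + k) ≤ m ^ N S` for all `N`, then
`e(R) * length_S (S / m S) ≤ c ^ (dim R) * e(S)`. -/
theorem hsMult_mul_length_le [IsNoetherianRing R] [IsNoetherianRing S] [Module.Flat R S]
    (c k : ℕ) (hc : 0 < c)
    (h : ∀ N : ℕ, maximalIdeal S ^ (c * N + k) ≤ (maximalIdeal R ^ N).map (algebraMap R S)) :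
    hsMult R * (Module.length S (S ⧸ (maximalIdeal R).map (algebraMap R S))).toENNReal
      ≤ (c : ENNReal) ^ krullDimNat R * hsMult S := by
  have hdim : krullDimNat S = krullDimNat R := by
    apply krullDimNat_eq (c * 1 + k)
    have := h 1
    rwa [pow_one] at this
  unfold hsMult
  rw [hdim]
  refine limsup_scale_le _ _ _ c k (krullDimNat R) hc ((krullDimNat R).factorial : ENNReal)
    (fun N => (Module.length R (R ⧸ maximalIdeal R ^ N)).toENNReal)
    (fun N => (Module.length S (S ⧸ maximalIdeal S ^ N)).toENNReal)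
    (fun N => rfl) (fun N => rfl) (fun N => ?_)
  rw [← ENat.toENNReal_mul, ENat.toENNReal_le, ← length_quot_map]
  exact length_quot_anti (h N)

/-- Consequence: Lech's inequality `e(R) ≤ e(S)` when `c ^ (dim R) ≤ length_S (S / m S)`. -/
theorem hsMult_le_of_pow_le_length [IsNoetherianRing R] [IsNoetherianRing S] [Module.Flat R S]
    (c k : ℕ) (hc : 0 < c)
    (h : ∀ N : ℕ, maximalIdeal S ^ (c * N + k) ≤ (maximalIdeal R ^ N).map (algebraMap R S))
    (hL : (c : ENNReal) ^ krullDimNat R ≤
      (Module.length S (S ⧸ (maximalIdeal R).map (algebraMap R S))).toENNReal) :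
    hsMult R ≤ hsMult S := by
  have h1 := hsMult_mul_length_le c k hc h
  have h2 : hsMult R * (c : ENNReal) ^ krullDimNat R ≤ (c : ENNReal) ^ krullDimNat R * hsMult S :=
    (mul_le_mul_right hL _).trans h1
  rw [mul_comm] at h2
  have hc0 : (c : ENNReal) ^ krullDimNat R ≠ 0 := by
    apply pow_ne_zero
    exact_mod_cast hc.ne'
  have hct : (c : ENNReal) ^ krullDimNat R ≠ ⊤ := by simp
  exact (ENNReal.mul_le_mul_iff_right hc0 hct).mp h2

end Vale.Agent.Lib.P202
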