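import Vale.Agent.Lib.P202.Mult

/-!
# Flat local maps whose closed fibre has a non-principal maximal ideal

For a flat local homomorphism `(R, m) → (S, n)` of Noetherian local rings, if `x y ∈ m S`,
`y z ∈ m S` and `z ∉ x S + m S`, then `x y ∈ (m S) n`.  Consequently, if `n ^ c ≤ m S` and
`n` is not of the form `x S + m S`, then `n ^ c ≤ (m S) n`, which upgrades the multiplicity
comparison of `Mult.lean` from `c ^ d` to `(c - 1) ^ d`.
-/

namespace Vale.Agent.Lib.P202

open IsLocalRing Filter

lemma exists_smaller_generators {R : Type*} [CommRing R] {I : Ideal R} {v' : ℕ}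
    (t : Fin (v' + 1) → R) (ht : Ideal.span (Set.range t) = I)
    (a : Fin (v' + 1) → R) (ha : ∑ i, a i * t i = 0) (j : Fin (v' + 1)) (hu : IsUnit (a j)) :
    ∃ t' : Fin v' → R, Ideal.span (Set.range t') = I := by
  obtain ⟨u, hu⟩ := hu
  refine ⟨t ∘ j.succAbove, le_antisymm ?_ ?_⟩
  · rw [← ht]
    apply Ideal.span_mono
    rintro _ ⟨i, rfl⟩
    exact ⟨_, rfl⟩
  · rw [← ht, Ideal.span_le]
    rintro _ ⟨i, rfl⟩
    by_cases hij : i = j
    · subst hij
      rw [Fin.sum_univ_succAbove _ i] at ha
      have h1 : t i = -(↑u⁻¹ : R) * ∑ i' : Fin v', a (i.succAbove i') * t (i.succAbove i') := by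
        have h2 : a i * t i = -∑ i' : Fin v', a (i.succAbove i') * t (i.succAbove i') :=
          eq_neg_of_add_eq_zero_left ha
        rw [← hu] at h2
        calc t i = (↑u⁻¹ : R) * ((u : R) * t i) := by
              rw [← mul_assoc, Units.inv_mul, one_mul]
          _ = _ := by rw [h2]; ring
      rw [h1]
      apply Ideal.mul_mem_left
      apply Ideal.sum_mem
      intro i' _
      apply Ideal.mul_mem_left
      exact Ideal.subset_span ⟨i', rfl⟩
    · obtain ⟨z, rfl⟩ := Fin.exists_succAbove_eq hij
      exact Ideal.subset_span ⟨z, rfl⟩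

/-- A Noetherian local ring has a finite generating family of its maximal ideal such that every
linear relation among the generators has all coefficients in the maximal ideal. -/
lemma exists_minimal_generators (R : Type*) [CommRing R] [IsLocalRing R] [IsNoetherianRing R] :
    ∃ (v : ℕ) (t : Fin v → R), Ideal.span (Set.range t) = maximalIdeal R ∧
      ∀ a : Fin v → R, ∑ i, a i * t i = 0 → ∀ i, a i ∈ maximalIdeal R := by
  classical
  have hfg : (maximalIdeal R).FG := IsNoetherian.noetherian _
  have hex : ∃ v : ℕ, ∃ t : Fin v → R, Ideal.span (Set.range t) = maximalIdeal R :=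
    Submodule.fg_iff_exists_fin_generating_family.mp hfg
  have hmin := fun k (hk : k < Nat.find hex) => Nat.find_min hex hk
  obtain ⟨t, ht⟩ := Nat.find_spec hex
  generalize Nat.find hex = v at t ht hmin
  refine ⟨v, t, ht, ?_⟩
  intro a ha j
  by_contra hj
  have hu : IsUnit (a j) := by
    by_contra h
    exact hj ((mem_maximalIdeal _).mpr h)
  cases v with
  | zero => exact j.elim0
  | succ v' => exact hmin v' (Nat.lt_succ_self v') (exists_smaller_generators t ht a ha j hu)

section flat

variable {R S : Type*} [CommRing R] [CommRing S] [IsLocalRing R] [Algebra R S]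

/-- Flatness: a relation among minimal generators of `m` with coefficients in `S` has all
coefficients in `m S`. -/
lemma coeff_mem_map_of_sum_eq_zero [Module.Flat R S] {v : ℕ} (t : Fin v → R)
    (hmin : ∀ a : Fin v → R, ∑ i, a i * t i = 0 → ∀ i, a i ∈ maximalIdeal R)
    (u : Fin v → S) (hu : ∑ i, algebraMap R S (t i) * u i = 0) (i : Fin v) :
    u i ∈ (maximalIdeal R).map (algebraMap R S) := by
  obtain ⟨k, a, y, hx, hrel⟩ := Module.Flat.isTrivialRelation_of_sum_smul_eq_zero
    (R := R) (M := S) (f := t) (x := u) (by simpa [Algebra.smul_def] using hu)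
  rw [hx i]
  apply Ideal.sum_mem
  intro j _
  rw [Algebra.smul_def]
  apply Ideal.mul_mem_right
  apply Ideal.mem_map_of_mem
  refine hmin (fun i => a i j) ?_ i
  simpa [mul_comm] using hrel j

end flat

variable {R S : Type*} [CommRing R] [CommRing S] [IsLocalRing R] [IsLocalRing S]
  [Algebra R S] [IsLocalHom (algebraMap R S)]

lemma map_maximalIdeal_le : (maximalIdeal R).map (algebraMap R S) ≤ maximalIdeal S := by
  rw [Ideal.map_le_iff_le_comap]
  exact ((local_hom_TFAE (algebraMap R S)).out 0 3 rfl rfl).mp inferInstance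

omit [IsLocalHom (algebraMap R S)] in
/-- The key lemma: if `x y ∈ m S`, `y z ∈ m S` and `z ∉ x S + m S`, then `x y ∈ (m S) n`. -/
lemma mul_mem_map_mul_maximalIdeal [IsNoetherianRing R] [Module.Flat R S] {x y z : S}
    (hxy : x * y ∈ (maximalIdeal R).map (algebraMap R S))
    (hyz : y * z ∈ (maximalIdeal R).map (algebraMap R S))
    (hz : z ∉ Ideal.span {x} ⊔ (maximalIdeal R).map (algebraMap R S)) :
    x * y ∈ (maximalIdeal R).map (algebraMap R S) * maximalIdeal S := by
  obtain ⟨v, t, ht, hmin⟩ := exists_minimal_generators R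
  have hmap : (maximalIdeal R).map (algebraMap R S) =
      Ideal.span (Set.range fun i => algebraMap R S (t i)) := by
    rw [← ht, Ideal.map_span, ← Set.range_comp]
    rfl
  have hxy' := hxy
  have hyz' := hyz
  rw [hmap, Ideal.mem_span_range_iff_exists_fun] at hxy' hyz'
  obtain ⟨s, hs⟩ := hxy'
  obtain ⟨s', hs'⟩ := hyz'
  have hrel : ∑ i, algebraMap R S (t i) * (z * s i - x * s' i) = 0 := by
    have h1 : ∑ i, algebraMap R S (t i) * (z * s i - x * s' i) =
        z * ∑ i, s i * algebraMap R S (t i) - x * ∑ i, s' i * algebraMap R S (t i) := by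
      rw [Finset.mul_sum, Finset.mul_sum, ← Finset.sum_sub_distrib]
      apply Finset.sum_congr rfl
      intro i _
      ring
    rw [h1, hs, hs']
    ring
  have hmem := coeff_mem_map_of_sum_eq_zero t hmin _ hrel
  have hsn : ∀ i, s i ∈ maximalIdeal S := by
    intro i
    by_contra hi
    have hunit : IsUnit (s i) := by
      by_contra h
      exact hi ((mem_maximalIdeal _).mpr h)
    obtain ⟨w, hw⟩ := hunit
    apply hz
    have h2 : z = (↑w⁻¹ : S) * (z * s i - x * s' i) + x * ((↑w⁻¹ : S) * s' i) := by
      rw [← hw]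
      have : (↑w⁻¹ : S) * (z * (w : S)) = z := by
        rw [mul_comm z, ← mul_assoc, Units.inv_mul, one_mul]
      calc z = (↑w⁻¹ : S) * (z * (w : S)) := this.symm
        _ = _ := by ring
    rw [h2]
    apply Ideal.add_mem
    · exact Ideal.mem_sup_right (Ideal.mul_mem_left _ _ (hmem i))
    · exact Ideal.mem_sup_left (Ideal.mul_mem_right _ _ (Ideal.mem_span_singleton_self x))
  rw [← hs]
  apply Ideal.sum_mem
  intro i _
  have hti : t i ∈ maximalIdeal R := by
    rw [← ht]
    exact Ideal.subset_span ⟨i, rfl⟩
  have hcomm : s i * algebraMap R S (t i) = algebraMap R S (t i) * s i := mul_comm _ _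
  rw [hcomm]
  exact Ideal.mul_mem_mul (Ideal.mem_map_of_mem _ hti) (hsn i)

/-- If `n ^ (c + 1) ≤ m S` and `n` is not of the form `x S + m S`, then
`n ^ (c + 1) ≤ (m S) n`. -/
lemma pow_le_map_mul_maximalIdeal [IsNoetherianRing R] [Module.Flat R S] (c : ℕ)
    (h : maximalIdeal S ^ (c + 1) ≤ (maximalIdeal R).map (algebraMap R S))
    (hnp : ∀ x : S, maximalIdeal S ≠ Ideal.span {x} ⊔ (maximalIdeal R).map (algebraMap R S)) :
    maximalIdeal S ^ (c + 1) ≤ (maximalIdeal R).map (algebraMap R S) * maximalIdeal S := by
  rw [pow_succ', Ideal.mul_le]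
  intro x hx y hy
  have hle : Ideal.span {x} ⊔ (maximalIdeal R).map (algebraMap R S) ≤ maximalIdeal S :=
    sup_le ((Ideal.span_singleton_le_iff_mem _).mpr hx) map_maximalIdeal_le
  obtain ⟨z, hzn, hz⟩ := SetLike.exists_of_lt (lt_of_le_of_ne hle (hnp x).symm)
  have hxy : x * y ∈ (maximalIdeal R).map (algebraMap R S) := by
    apply h
    rw [pow_succ']
    exact Ideal.mul_mem_mul hx hy
  have hyz : y * z ∈ (maximalIdeal R).map (algebraMap R S) := by
    apply h
    rw [pow_succ]
    exact Ideal.mul_mem_mul hy hzn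
  exact mul_mem_map_mul_maximalIdeal hxy hyz hz

omit [IsLocalHom (algebraMap R S)] in
/-- Iterating `n ^ (c + 1) ≤ (m S) n` gives `n ^ (c N + 1) ≤ m ^ N S` for all `N`. -/
lemma pow_le_map_pow_of_pow_le_map_mul (c : ℕ)
    (h : maximalIdeal S ^ (c + 1) ≤ (maximalIdeal R).map (algebraMap R S) * maximalIdeal S)
    (N : ℕ) :
    maximalIdeal S ^ (c * N + 1) ≤ (maximalIdeal R ^ N).map (algebraMap R S) := by
  have key : ∀ N : ℕ, maximalIdeal S ^ (c * N + 1) ≤
      ((maximalIdeal R).map (algebraMap R S)) ^ N * maximalIdeal S := by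
    intro N
    induction N with
    | zero => simp
    | succ N ih =>
      have e1 : c * (N + 1) + 1 = (c * N + 1) + c := by ring
      rw [e1, pow_add]
      calc maximalIdeal S ^ (c * N + 1) * maximalIdeal S ^ c
          ≤ (((maximalIdeal R).map (algebraMap R S)) ^ N * maximalIdeal S) * maximalIdeal S ^ c :=
            Ideal.mul_mono_left ih
        _ = ((maximalIdeal R).map (algebraMap R S)) ^ N * maximalIdeal S ^ (c + 1) := by
            rw [mul_assoc, ← pow_succ']
        _ ≤ ((maximalIdeal R).map (algebraMap R S)) ^ N *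
              ((maximalIdeal R).map (algebraMap R S) * maximalIdeal S) := Ideal.mul_mono_right h
        _ = ((maximalIdeal R).map (algebraMap R S)) ^ (N + 1) * maximalIdeal S := by
            rw [← mul_assoc, ← pow_succ]
  rw [Ideal.map_pow]
  exact (key N).trans Ideal.mul_le_left

end Vale.Agent.Lib.P202

namespace Vale.Agent.Lib.P202

open IsLocalRing Filter

variable {R S : Type*} [CommRing R] [CommRing S] [IsLocalRing R] [IsLocalRing S]
  [Algebra R S] [IsLocalHom (algebraMap R S)]

/-- The closed fibre has finite length as soon as a power of `n` lies in `m S`. -/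
lemma length_fibre_ne_top [IsNoetherianRing S] (j : ℕ)
    (h : maximalIdeal S ^ j ≤ (maximalIdeal R).map (algebraMap R S)) :
    Module.length S (S ⧸ (maximalIdeal R).map (algebraMap R S)) ≠ ⊤ := by
  rw [Module.length_ne_top_iff, isFiniteLength_iff_isNoetherian_isArtinian]
  have hmin : maximalIdeal S ∈ ((maximalIdeal R).map (algebraMap R S)).minimalPrimes := by
    refine ⟨⟨inferInstance, map_maximalIdeal_le⟩, ?_⟩
    rintro q ⟨hq, hIq⟩ -
    exact hq.le_of_pow_le (h.trans hIq)
  have : IsArtinianRing (S ⧸ (maximalIdeal R).map (algebraMap R S)) :=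
    IsLocalRing.quotient_artinian_of_mem_minimalPrimes_of_isLocalRing _ hmin
  exact ⟨isNoetherian_quotient _,
    isArtinian_of_surjective_algebraMap
      (Ideal.Quotient.mk_surjective (I := (maximalIdeal R).map (algebraMap R S)))⟩

/-- The easy inequality `e(S) ≤ e(R) * length_S (S / m S)` when a power of `n` lies in `m S`. -/
theorem hsMult_le_hsMult_mul_length [IsNoetherianRing R] [IsNoetherianRing S] [Module.Flat R S]
    (j : ℕ) (h : maximalIdeal S ^ j ≤ (maximalIdeal R).map (algebraMap R S)) :
    hsMult S ≤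
      hsMult R * (Module.length S (S ⧸ (maximalIdeal R).map (algebraMap R S))).toENNReal := by
  have hdim : krullDimNat S = krullDimNat R := krullDimNat_eq j h
  have hL : (Module.length S (S ⧸ (maximalIdeal R).map (algebraMap R S))).toENNReal ≠ ⊤ := by
    simpa using length_fibre_ne_top j h
  unfold hsMult
  rw [hdim, mul_comm (limsup _ _), ← ENNReal.limsup_mul_const_of_ne_top hL]
  apply limsup_le_limsup _ (by isBoundedDefault) (by isBoundedDefault)
  filter_upwards with N
  have h1 : Module.length S (S ⧸ maximalIdeal S ^ N) ≤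
      Module.length R (R ⧸ maximalIdeal R ^ N) *
        Module.length S (S ⧸ (maximalIdeal R).map (algebraMap R S)) := by
    rw [← length_quot_map]
    apply length_quot_anti
    rw [Ideal.map_pow]
    exact Ideal.pow_right_mono map_maximalIdeal_le N
  have h2 : (Module.length S (S ⧸ maximalIdeal S ^ N)).toENNReal ≤
      (Module.length R (R ⧸ maximalIdeal R ^ N)).toENNReal *
        (Module.length S (S ⧸ (maximalIdeal R).map (algebraMap R S))).toENNReal := by
    rw [← ENat.toENNReal_mul, ENat.toENNReal_le]
    exact h1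
  calc ((krullDimNat R).factorial : ENNReal) * (Module.length S (S ⧸ maximalIdeal S ^ N)).toENNReal
        / (N : ENNReal) ^ krullDimNat R
      ≤ ((krullDimNat R).factorial : ENNReal) *
          ((Module.length R (R ⧸ maximalIdeal R ^ N)).toENNReal *
            (Module.length S (S ⧸ (maximalIdeal R).map (algebraMap R S))).toENNReal)
          / (N : ENNReal) ^ krullDimNat R := by gcongr
    _ = ((krullDimNat R).factorial : ENNReal) *
          (Module.length R (R ⧸ maximalIdeal R ^ N)).toENNReal / (N : ENNReal) ^ krullDimNat R *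
          (Module.length S (S ⧸ (maximalIdeal R).map (algebraMap R S))).toENNReal := by
        simp only [div_eq_mul_inv]
        ring

/-- **Non-principal fibres.** If `n ^ (c + 1) ≤ m S` and `n` is not of the form `x S + m S`,
then `e(R) * length_S (S / m S) ≤ c ^ (dim R) * e(S)`. -/
theorem hsMult_mul_length_le_of_nonprincipal [IsNoetherianRing R] [IsNoetherianRing S]
    [Module.Flat R S] (c : ℕ)
    (h : maximalIdeal S ^ (c + 1) ≤ (maximalIdeal R).map (algebraMap R S))
    (hnp : ∀ x : S, maximalIdeal S ≠ Ideal.span {x} ⊔ (maximalIdeal R).map (algebraMap R S)) :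
    hsMult R * (Module.length S (S ⧸ (maximalIdeal R).map (algebraMap R S))).toENNReal
      ≤ (c : ENNReal) ^ krullDimNat R * hsMult S := by
  have hc : 0 < c := by
    rcases Nat.eq_zero_or_pos c with rfl | hc
    · exfalso
      apply hnp 0
      have h1 : maximalIdeal S ≤ (maximalIdeal R).map (algebraMap R S) := by simpa using h
      have h2 : (Ideal.span {(0 : S)} : Ideal S) = ⊥ := by simp
      rw [h2, bot_sup_eq]
      exact le_antisymm h1 map_maximalIdeal_le
    · exact hc
  exact hsMult_mul_length_le c 1 hc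
    (pow_le_map_pow_of_pow_le_map_mul c (pow_le_map_mul_maximalIdeal c h hnp))

/-- **Square-zero non-principal fibres.** If `n ^ 2 ≤ m S` and `n` is not of the form
`x S + m S`, then `e(S) = e(R) * length_S (S / m S)`. -/
theorem hsMult_eq_of_sq_le_of_nonprincipal [IsNoetherianRing R] [IsNoetherianRing S]
    [Module.Flat R S]
    (h : maximalIdeal S ^ 2 ≤ (maximalIdeal R).map (algebraMap R S))
    (hnp : ∀ x : S, maximalIdeal S ≠ Ideal.span {x} ⊔ (maximalIdeal R).map (algebraMap R S)) :
    hsMult S =
      hsMult R * (Module.length S (S ⧸ (maximalIdeal R).map (algebraMap R S))).toENNReal := by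
  apply le_antisymm (hsMult_le_hsMult_mul_length 2 h)
  have := hsMult_mul_length_le_of_nonprincipal 1 h hnp
  simpa using this

/-- The closed fibre is nonzero, so its length is at least one. -/
lemma one_le_length_fibre :
    (1 : ENNReal) ≤
      (Module.length S (S ⧸ (maximalIdeal R).map (algebraMap R S))).toENNReal := by
  have hne : (maximalIdeal R).map (algebraMap R S) ≠ ⊤ := by
    intro htop
    have := map_maximalIdeal_le (R := R) (S := S)
    rw [htop] at this
    exact (maximalIdeal.isMaximal S).ne_top (top_le_iff.mp this)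
  have : Nontrivial (S ⧸ (maximalIdeal R).map (algebraMap R S)) :=
    Ideal.Quotient.nontrivial_iff.mpr hne
  have hpos : 0 < Module.length S (S ⧸ (maximalIdeal R).map (algebraMap R S)) :=
    Module.length_pos
  have h1 : (1 : ℕ∞) ≤ Module.length S (S ⧸ (maximalIdeal R).map (algebraMap R S)) :=
    Order.one_le_iff_pos.mpr hpos
  have := ENat.toENNReal_le.mpr h1
  simpa using this

/-- Lech's inequality for square-zero non-principal fibres. -/
theorem hsMult_le_of_sq_le_of_nonprincipal [IsNoetherianRing R] [IsNoetherianRing S]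
    [Module.Flat R S]
    (h : maximalIdeal S ^ 2 ≤ (maximalIdeal R).map (algebraMap R S))
    (hnp : ∀ x : S, maximalIdeal S ≠ Ideal.span {x} ⊔ (maximalIdeal R).map (algebraMap R S)) :
    hsMult R ≤ hsMult S := by
  rw [hsMult_eq_of_sq_le_of_nonprincipal h hnp]
  calc hsMult R = hsMult R * 1 := (mul_one _).symm
    _ ≤ _ := by gcongr; exact one_le_length_fibre

end Vale.Agent.Lib.P202
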