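import Vale.Agent.Lib.P202.RegularFibre

/-!
# Flat local maps whose closed fibre is one-dimensional of minimal multiplicity

Setting: a flat local homomorphism `(R, m) → (S, n)` of Noetherian local rings and an element
`y ∈ n` that is a nonzerodivisor on the closed fibre `S / m S`, with `n ^ 2 ≤ m S + y S` and
`n` not of the form `x S + y S + m S`.  We prove `n ^ 2 ≤ (m S + y S) n`, compute the lengths
`length_S (S / (m S + y S) ^ N)`, and deduce `dim S = dim R + 1` and `e(R) ≤ e(S)`.
-/

namespace Vale.Agent.Lib.P202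

open IsLocalRing Filter


section ideals

variable {A : Type*} [CommRing A]

/-- `(I + J)^(N+1) ≤ J (I + J)^N + I^(N+1)`. -/
lemma sup_pow_succ_le (I J : Ideal A) (N : ℕ) :
    (I ⊔ J) ^ (N + 1) ≤ J * (I ⊔ J) ^ N ⊔ I ^ (N + 1) := by
  induction N with
  | zero =>
    simp only [pow_zero, Ideal.one_eq_top, Ideal.mul_top, zero_add, pow_one]
    exact (sup_comm I J).le
  | succ N ih =>
    calc (I ⊔ J) ^ (N + 1 + 1) = (I ⊔ J) ^ (N + 1) * (I ⊔ J) := pow_succ _ _
      _ ≤ (J * (I ⊔ J) ^ N ⊔ I ^ (N + 1)) * (I ⊔ J) := Ideal.mul_mono_left ih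
      _ = J * (I ⊔ J) ^ (N + 1) ⊔ I ^ (N + 1) * (I ⊔ J) := by
          rw [Ideal.sup_mul, mul_assoc, ← pow_succ]
      _ ≤ J * (I ⊔ J) ^ (N + 1) ⊔ I ^ (N + 1 + 1) := by
          apply sup_le le_sup_left
          rw [Ideal.mul_sup]
          apply sup_le
          · rw [← pow_succ]
            exact le_sup_right
          · refine le_trans ?_ le_sup_left
            rw [mul_comm]
            exact Ideal.mul_mono_right (Ideal.pow_right_mono le_sup_left _)

end ideals


variable {R S : Type*} [CommRing R] [CommRing S] [IsLocalRing R] [IsLocalRing S]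
  [Algebra R S] [IsLocalHom (algebraMap R S)]



/-- An element that is a nonzerodivisor on the closed fibre is a nonzerodivisor on `S`. -/
lemma isSMulRegular_of_fibre [IsNoetherianRing R] [IsNoetherianRing S] [Module.Flat R S] (y : S)
    (hy : ∀ s : S, y * s ∈ (maximalIdeal R).map (algebraMap R S) →
      s ∈ (maximalIdeal R).map (algebraMap R S)) :
    IsSMulRegular S y := by
  intro a b hab
  have h1 : y * (a - b) ∈ (⊥ : Ideal R).map (algebraMap R S) := by
    have : y * (a - b) = 0 := by
      have h2 : y * a = y * b := hab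
      rw [mul_sub, h2, sub_self]
    rw [this]
    exact Ideal.zero_mem _
  have h3 := mem_map_of_mul_mem_map y hy ⊥ (a - b) h1
  rw [Ideal.map_bot, Ideal.mem_bot, sub_eq_zero] at h3
  exact h3

omit [IsLocalRing S] [IsLocalHom (algebraMap R S)] in
/-- Relations among minimal generators of `m` and `y`: if `∑ t_i u_i + y w = 0`, then
`w ∈ m S` and every `u_i ∈ m S + y S`. -/
lemma coeff_mem_of_sum_add_mul_eq_zero [Module.Flat R S] (y : S)
    (hy : ∀ s : S, y * s ∈ (maximalIdeal R).map (algebraMap R S) →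
      s ∈ (maximalIdeal R).map (algebraMap R S))
    {v : ℕ} (t : Fin v → R) (ht : Ideal.span (Set.range t) = maximalIdeal R)
    (hmin : ∀ a : Fin v → R, ∑ i, a i * t i = 0 → ∀ i, a i ∈ maximalIdeal R)
    (u : Fin v → S) (w : S) (hu : ∑ i, algebraMap R S (t i) * u i + y * w = 0) :
    w ∈ (maximalIdeal R).map (algebraMap R S) ∧
      ∀ i, u i ∈ (maximalIdeal R).map (algebraMap R S) ⊔ Ideal.span {y} := by
  have hmap : (maximalIdeal R).map (algebraMap R S) =
      Ideal.span (Set.range fun i => algebraMap R S (t i)) := by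
    rw [← ht, Ideal.map_span, ← Set.range_comp]
    rfl
  have hti : ∀ i, algebraMap R S (t i) ∈ (maximalIdeal R).map (algebraMap R S) := by
    intro i
    apply Ideal.mem_map_of_mem
    rw [← ht]
    exact Ideal.subset_span ⟨i, rfl⟩
  have hw : w ∈ (maximalIdeal R).map (algebraMap R S) := by
    apply hy
    have h1 : y * w = -∑ i, algebraMap R S (t i) * u i := by
      rw [eq_neg_iff_add_eq_zero, add_comm]
      exact hu
    rw [h1]
    apply neg_mem
    apply Ideal.sum_mem
    intro i _
    exact Ideal.mul_mem_right _ _ (hti i)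
  refine ⟨hw, ?_⟩
  have hw' := hw
  rw [hmap, Ideal.mem_span_range_iff_exists_fun] at hw'
  obtain ⟨c, hc⟩ := hw'
  have hrel : ∑ i, algebraMap R S (t i) * (u i + y * c i) = 0 := by
    have h2 : ∑ i, algebraMap R S (t i) * (u i + y * c i) =
        ∑ i, algebraMap R S (t i) * u i + y * ∑ i, c i * algebraMap R S (t i) := by
      rw [Finset.mul_sum, ← Finset.sum_add_distrib]
      apply Finset.sum_congr rfl
      intro i _
      ring
    rw [h2, hc]
    exact hu
  intro i
  have h3 := coeff_mem_map_of_sum_eq_zero t hmin _ hrel i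
  have h4 : u i = (u i + y * c i) + (-c i) * y := by ring
  rw [h4]
  apply Ideal.add_mem
  · exact Ideal.mem_sup_left h3
  · exact Ideal.mem_sup_right (Ideal.mul_mem_left _ _ (Ideal.mem_span_singleton_self y))

omit [IsLocalHom (algebraMap R S)] in
/-- The key lemma with a fibre-regular element: if `a b` and `z b` lie in `m S + y S` and
`z ∉ a S + m S + y S`, then `a b ∈ (m S + y S) n`. -/
lemma mul_mem_sup_mul_maximalIdeal [IsNoetherianRing R] [Module.Flat R S] (y : S)
    (hy : ∀ s : S, y * s ∈ (maximalIdeal R).map (algebraMap R S) →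
      s ∈ (maximalIdeal R).map (algebraMap R S))
    {a b z : S}
    (hab : a * b ∈ (maximalIdeal R).map (algebraMap R S) ⊔ Ideal.span {y})
    (hzb : z * b ∈ (maximalIdeal R).map (algebraMap R S) ⊔ Ideal.span {y})
    (hz : z ∉ Ideal.span {a} ⊔ ((maximalIdeal R).map (algebraMap R S) ⊔ Ideal.span {y})) :
    a * b ∈ ((maximalIdeal R).map (algebraMap R S) ⊔ Ideal.span {y}) * maximalIdeal S := by
  obtain ⟨v, t, ht, hmin⟩ := exists_minimal_generators R
  have hmap : (maximalIdeal R).map (algebraMap R S) =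
      Ideal.span (Set.range fun i => algebraMap R S (t i)) := by
    rw [← ht, Ideal.map_span, ← Set.range_comp]
    rfl
  have hdec : ∀ x : S, x ∈ (maximalIdeal R).map (algebraMap R S) ⊔ Ideal.span {y} →
      ∃ (u : Fin v → S) (w : S), x = ∑ i, algebraMap R S (t i) * u i + y * w := by
    intro x hx
    obtain ⟨p, hp, q, hq, hpq⟩ := Submodule.mem_sup.mp hx
    rw [hmap, Ideal.mem_span_range_iff_exists_fun] at hp
    obtain ⟨u, hu⟩ := hp
    obtain ⟨w, hw⟩ := Ideal.mem_span_singleton'.mp hq
    refine ⟨u, w, ?_⟩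
    rw [← hpq, ← hu, ← hw, mul_comm w y]
    congr 1
    apply Finset.sum_congr rfl
    intro i _
    ring
  obtain ⟨u, w, huw⟩ := hdec _ hab
  obtain ⟨u', w', huw'⟩ := hdec _ hzb
  have hrel : ∑ i, algebraMap R S (t i) * (z * u i - a * u' i) + y * (z * w - a * w') = 0 := by
    have h1 : ∑ i, algebraMap R S (t i) * (z * u i - a * u' i) + y * (z * w - a * w') =
        z * (∑ i, algebraMap R S (t i) * u i + y * w) -
          a * (∑ i, algebraMap R S (t i) * u' i + y * w') := by
      rw [mul_add, mul_add, Finset.mul_sum, Finset.mul_sum]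
      have h2 : ∑ i, algebraMap R S (t i) * (z * u i - a * u' i) =
          ∑ i, z * (algebraMap R S (t i) * u i) - ∑ i, a * (algebraMap R S (t i) * u' i) := by
        rw [← Finset.sum_sub_distrib]
        apply Finset.sum_congr rfl
        intro i _
        ring
      rw [h2]
      ring
    rw [h1, ← huw, ← huw']
    ring
  obtain ⟨hw1, hu1⟩ := coeff_mem_of_sum_add_mul_eq_zero y hy t ht hmin _ _ hrel
  -- a unit coefficient would put `z` into `a S + m S + y S`
  have hunit : ∀ (p p' : S), z * p - a * p' ∈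
      (maximalIdeal R).map (algebraMap R S) ⊔ Ideal.span {y} → p ∈ maximalIdeal S := by
    intro p p' hp
    by_contra hi
    have hpu : IsUnit p := by
      by_contra h
      exact hi ((mem_maximalIdeal _).mpr h)
    obtain ⟨e, he⟩ := hpu
    apply hz
    have h2 : z = (↑e⁻¹ : S) * (z * p - a * p') + a * ((↑e⁻¹ : S) * p') := by
      rw [← he]
      have : (↑e⁻¹ : S) * (z * (e : S)) = z := by
        rw [mul_comm z, ← mul_assoc, Units.inv_mul, one_mul]
      calc z = (↑e⁻¹ : S) * (z * (e : S)) := this.symm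
        _ = _ := by ring
    rw [h2]
    apply Ideal.add_mem
    · exact Ideal.mem_sup_right (Ideal.mul_mem_left _ _ hp)
    · exact Ideal.mem_sup_left (Ideal.mul_mem_right _ _ (Ideal.mem_span_singleton_self a))
  have hun : ∀ i, u i ∈ maximalIdeal S := fun i => hunit _ _ (hu1 i)
  have hwn : w ∈ maximalIdeal S := hunit _ _ (Ideal.mem_sup_left hw1)
  rw [huw]
  apply Ideal.add_mem
  · apply Ideal.sum_mem
    intro i _
    have hti : t i ∈ maximalIdeal R := by
      rw [← ht]
      exact Ideal.subset_span ⟨i, rfl⟩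
    exact Ideal.mul_mem_mul (Ideal.mem_sup_left (Ideal.mem_map_of_mem _ hti)) (hun i)
  · exact Ideal.mul_mem_mul (Ideal.mem_sup_right (Ideal.mem_span_singleton_self y)) hwn

/-- If `n ^ 2 ≤ m S + y S` and `n` is not of the form `x S + m S + y S`, then
`n ^ 2 ≤ (m S + y S) n`. -/
lemma sq_le_sup_mul_maximalIdeal [IsNoetherianRing R] [Module.Flat R S] (y : S)
    (hyn : y ∈ maximalIdeal S)
    (hy : ∀ s : S, y * s ∈ (maximalIdeal R).map (algebraMap R S) →
      s ∈ (maximalIdeal R).map (algebraMap R S))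
    (h : maximalIdeal S ^ 2 ≤ (maximalIdeal R).map (algebraMap R S) ⊔ Ideal.span {y})
    (hnp : ∀ x : S, maximalIdeal S ≠
      Ideal.span {x} ⊔ ((maximalIdeal R).map (algebraMap R S) ⊔ Ideal.span {y})) :
    maximalIdeal S ^ 2 ≤
      ((maximalIdeal R).map (algebraMap R S) ⊔ Ideal.span {y}) * maximalIdeal S := by
  rw [pow_two, Ideal.mul_le]
  intro a ha b hb
  have hle : Ideal.span {a} ⊔ ((maximalIdeal R).map (algebraMap R S) ⊔ Ideal.span {y}) ≤
      maximalIdeal S :=
    sup_le ((Ideal.span_singleton_le_iff_mem _).mpr ha)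
      (sup_le map_maximalIdeal_le ((Ideal.span_singleton_le_iff_mem _).mpr hyn))
  obtain ⟨z, hzn, hz⟩ := SetLike.exists_of_lt (lt_of_le_of_ne hle (hnp a).symm)
  have hab : a * b ∈ (maximalIdeal R).map (algebraMap R S) ⊔ Ideal.span {y} := by
    apply h
    rw [pow_two]
    exact Ideal.mul_mem_mul ha hb
  have hzb : z * b ∈ (maximalIdeal R).map (algebraMap R S) ⊔ Ideal.span {y} := by
    apply h
    rw [pow_two]
    exact Ideal.mul_mem_mul hzn hb
  exact mul_mem_sup_mul_maximalIdeal y hy hab hzb hz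

/-- Iterating `n ^ 2 ≤ I n` gives `n ^ (N + 1) ≤ I ^ N` for all `N`. -/
lemma pow_succ_le_pow_of_sq_le_mul {A : Type*} [CommRing A] (I n : Ideal A)
    (h : n ^ 2 ≤ I * n) (N : ℕ) : n ^ (N + 1) ≤ I ^ N := by
  have key : ∀ N : ℕ, n ^ (N + 1) ≤ I ^ N * n := by
    intro N
    induction N with
    | zero => simp
    | succ N ih =>
      calc n ^ (N + 1 + 1) = n ^ (N + 1) * n := pow_succ _ _
        _ ≤ (I ^ N * n) * n := Ideal.mul_mono_left ih
        _ = I ^ N * n ^ 2 := by rw [mul_assoc, ← pow_two]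
        _ ≤ I ^ N * (I * n) := Ideal.mul_mono_right h
        _ = I ^ (N + 1) * n := by rw [← mul_assoc, ← pow_succ]
  exact (key N).trans Ideal.mul_le_left


/-- If `y s ∈ (m S + y S)^(N+1)`, then `s ∈ (m S + y S)^N`. -/
lemma mem_pow_of_mul_mem_pow_succ [IsNoetherianRing R] [IsNoetherianRing S] [Module.Flat R S]
    (y : S)
    (hy : ∀ s : S, y * s ∈ (maximalIdeal R).map (algebraMap R S) →
      s ∈ (maximalIdeal R).map (algebraMap R S))
    (N : ℕ) (s : S)
    (hs : y * s ∈ ((maximalIdeal R).map (algebraMap R S) ⊔ Ideal.span {y}) ^ (N + 1)) :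
    s ∈ ((maximalIdeal R).map (algebraMap R S) ⊔ Ideal.span {y}) ^ N := by
  have h1 := sup_pow_succ_le _ _ N hs
  obtain ⟨p, hp, c, hc, hpc⟩ := Submodule.mem_sup.mp h1
  obtain ⟨a, ha, hap⟩ := Ideal.mem_span_singleton_mul.mp hp
  have h2 : y * (s - a) ∈ (maximalIdeal R ^ (N + 1)).map (algebraMap R S) := by
    rw [Ideal.map_pow]
    have : y * (s - a) = c := by
      rw [mul_sub, ← hpc, hap]
      ring
    rw [this]
    exact hc
  have h3 := mem_map_of_mul_mem_map y hy _ _ h2
  have h4 : s = a + (s - a) := by ring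
  rw [h4]
  apply Ideal.add_mem _ ha
  rw [Ideal.map_pow] at h3
  exact (Ideal.pow_le_pow_right (Nat.le_succ N)) (Ideal.pow_right_mono le_sup_left _ h3)

/-- The length recursion along the `y`-adic filtration:
`length (S / I^(N+1)) = length (S / I^N) + length (S / (y S + m^(N+1) S))`, `I = m S + y S`. -/
lemma length_quot_pow_succ [IsNoetherianRing R] [IsNoetherianRing S] [Module.Flat R S]
    (y : S)
    (hy : ∀ s : S, y * s ∈ (maximalIdeal R).map (algebraMap R S) →
      s ∈ (maximalIdeal R).map (algebraMap R S))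
    (N : ℕ) :
    Module.length S (S ⧸ ((maximalIdeal R).map (algebraMap R S) ⊔ Ideal.span {y}) ^ (N + 1)) =
      Module.length S (S ⧸ ((maximalIdeal R).map (algebraMap R S) ⊔ Ideal.span {y}) ^ N) +
        Module.length S
          (S ⧸ (Ideal.span {y} ⊔ (maximalIdeal R ^ (N + 1)).map (algebraMap R S))) := by
  set I' : Ideal S := (maximalIdeal R).map (algebraMap R S) ⊔ Ideal.span {y} with hI'
  have hle : I' ^ (N + 1) ≤
      Ideal.span {y} ⊔ (maximalIdeal R ^ (N + 1)).map (algebraMap R S) := by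
    refine (sup_pow_succ_le _ _ N).trans (sup_le (Ideal.mul_le_left.trans le_sup_left) ?_)
    rw [Ideal.map_pow]
    exact le_sup_right
  have hcomap : I' ^ N ≤ Submodule.comap (LinearMap.mulLeft S y) (I' ^ (N + 1)) := by
    intro a ha
    rw [Submodule.mem_comap]
    have h1 : y * a ∈ I' ^ (N + 1) := by
      rw [pow_succ']
      exact Ideal.mul_mem_mul (Ideal.mem_sup_right (Ideal.mem_span_singleton_self y)) ha
    exact h1
  have hinj : Function.Injective
      (Submodule.mapQ (I' ^ N) (I' ^ (N + 1)) (LinearMap.mulLeft S y) hcomap) := by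
    rw [injective_iff_map_eq_zero]
    intro x hx
    obtain ⟨s, rfl⟩ := Submodule.Quotient.mk_surjective _ x
    rw [Submodule.mapQ_apply, Submodule.Quotient.mk_eq_zero] at hx
    rw [Submodule.Quotient.mk_eq_zero]
    exact mem_pow_of_mul_mem_pow_succ y hy N s hx
  have hexact : Function.Exact
      (Submodule.mapQ (I' ^ N) (I' ^ (N + 1)) (LinearMap.mulLeft S y) hcomap)
      (Submodule.factor hle) := by
    intro x
    obtain ⟨s, rfl⟩ := Submodule.Quotient.mk_surjective _ x
    constructor
    · intro hx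
      have hx2 : (Submodule.Quotient.mk s : S ⧸ (Ideal.span {y} ⊔
          (maximalIdeal R ^ (N + 1)).map (algebraMap R S))) = 0 := hx
      rw [Submodule.Quotient.mk_eq_zero] at hx2
      obtain ⟨p, hp, c, hc, hpc⟩ := Submodule.mem_sup.mp hx2
      obtain ⟨a, hap⟩ := Ideal.mem_span_singleton'.mp hp
      refine ⟨Submodule.Quotient.mk a, ?_⟩
      rw [Submodule.mapQ_apply, Submodule.Quotient.eq]
      have h1 : (LinearMap.mulLeft S y) a - s = -c := by
        rw [LinearMap.mulLeft_apply, ← hpc, ← hap]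
        ring
      rw [h1]
      apply neg_mem
      rw [Ideal.map_pow] at hc
      exact Ideal.pow_right_mono le_sup_left _ hc
    · rintro ⟨x', hx'⟩
      obtain ⟨a, rfl⟩ := Submodule.Quotient.mk_surjective _ x'
      rw [← hx', Submodule.mapQ_apply]
      change (Submodule.Quotient.mk ((LinearMap.mulLeft S y) a) : S ⧸ (Ideal.span {y} ⊔
          (maximalIdeal R ^ (N + 1)).map (algebraMap R S))) = 0
      rw [Submodule.Quotient.mk_eq_zero]
      apply Ideal.mem_sup_left
      rw [LinearMap.mulLeft_apply]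
      exact Ideal.mul_mem_right _ _ (Ideal.mem_span_singleton_self y)
  exact Module.length_eq_add_of_exact _ _ hinj (Submodule.factor_surjective hle) hexact




omit [IsLocalRing R] [IsLocalHom (algebraMap R S)] in
lemma span_singleton_ne_top {y : S} (hyn : y ∈ maximalIdeal S) :
    Ideal.span {y} ≠ (⊤ : Ideal S) := by
  intro h
  have h1 : (Ideal.span {y} : Ideal S) ≤ maximalIdeal S :=
    (Ideal.span_singleton_le_iff_mem _).mpr hyn
  rw [h] at h1
  exact Ideal.IsPrime.ne_top' (top_le_iff.mp h1)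

omit [IsLocalRing R] [IsLocalHom (algebraMap R S)] in
lemma isLocalRing_quotient_span {y : S} (hyn : y ∈ maximalIdeal S) :
    IsLocalRing (S ⧸ Ideal.span {y}) := by
  have : Nontrivial (S ⧸ Ideal.span {y}) :=
    Ideal.Quotient.nontrivial_iff.mpr (span_singleton_ne_top hyn)
  exact IsLocalRing.of_surjective' (Ideal.Quotient.mk _) Ideal.Quotient.mk_surjective

omit [IsLocalRing R] in
lemma isLocalHom_quotient_span {y : S} (hyn : y ∈ maximalIdeal S) :
    IsLocalHom (algebraMap R (S ⧸ Ideal.span {y})) := by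
  have : Nontrivial (S ⧸ Ideal.span {y}) :=
    Ideal.Quotient.nontrivial_iff.mpr (span_singleton_ne_top hyn)
  have : IsLocalHom (Ideal.Quotient.mk (Ideal.span {y})) :=
    IsLocalHom.of_surjective _ Ideal.Quotient.mk_surjective
  have h : algebraMap R (S ⧸ Ideal.span {y}) =
      (Ideal.Quotient.mk (Ideal.span {y})).comp (algebraMap R S) := rfl
  rw [h]
  infer_instance

omit [IsLocalRing R] [IsLocalRing S] [IsLocalHom (algebraMap R S)] in
/-- Lengths over `S / y S` of quotients by extended ideals, computed over `S`. -/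
lemma length_quotient_span_map (y : S) (𝔞 : Ideal R) :
    Module.length (S ⧸ Ideal.span {y})
        ((S ⧸ Ideal.span {y}) ⧸ 𝔞.map (algebraMap R (S ⧸ Ideal.span {y}))) =
      Module.length S (S ⧸ (Ideal.span {y} ⊔ 𝔞.map (algebraMap R S))) := by
  have e : 𝔞.map (algebraMap R (S ⧸ Ideal.span {y})) =
      (𝔞.map (algebraMap R S)).map (Ideal.Quotient.mkₐ S (Ideal.span {y})) := by
    change _ = Ideal.map (Ideal.Quotient.mk (Ideal.span {y})) (Ideal.map (algebraMap R S) 𝔞)
    rw [Ideal.map_map]
    rfl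
  rw [e, ← Module.length_eq_of_surjective (S := S) (R := S ⧸ Ideal.span {y})
    Ideal.Quotient.mk_surjective]
  exact (DoubleQuot.quotQuotEquivQuotSupₐ S (Ideal.span {y})
    (𝔞.map (algebraMap R S))).toLinearEquiv.length_eq

/-- If `y ∈ n` is a nonzerodivisor on `S / m S`, then for every ideal `𝔮` of `R`,
`length_S (S / (y S + 𝔮 S)) = length_R (R / 𝔮) * length_S (S / (y S + m S))`. -/
lemma length_quot_span_sup_map [IsNoetherianRing R] [IsNoetherianRing S] [Module.Flat R S]
    (y : S) (hyn : y ∈ maximalIdeal S)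
    (hy : ∀ s : S, y * s ∈ (maximalIdeal R).map (algebraMap R S) →
      s ∈ (maximalIdeal R).map (algebraMap R S))
    (𝔮 : Ideal R) :
    Module.length S (S ⧸ (Ideal.span {y} ⊔ 𝔮.map (algebraMap R S))) =
      Module.length R (R ⧸ 𝔮) *
        Module.length S (S ⧸ (Ideal.span {y} ⊔ (maximalIdeal R).map (algebraMap R S))) := by
  have := isLocalRing_quotient_span hyn
  have : IsLocalHom (algebraMap R (S ⧸ Ideal.span {y})) := isLocalHom_quotient_span hyn
  have : Module.Flat R (S ⧸ Ideal.span {y}) := flat_quotient_span_singleton y hy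
  rw [← length_quotient_span_map, ← length_quotient_span_map, length_quot_map]

/-- Dimension: if `y ∈ n` is a nonzerodivisor on `S / m S` and a power of `n` lies in
`m S + y S`, then `dim S = dim R + 1`. -/
lemma ringKrullDim_eq_add_one [IsNoetherianRing R] [IsNoetherianRing S] [Module.Flat R S]
    (y : S) (hyn : y ∈ maximalIdeal S)
    (hy : ∀ s : S, y * s ∈ (maximalIdeal R).map (algebraMap R S) →
      s ∈ (maximalIdeal R).map (algebraMap R S))
    (j : ℕ) (h : maximalIdeal S ^ j ≤ (maximalIdeal R).map (algebraMap R S) ⊔ Ideal.span {y}) :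
    ringKrullDim S = ringKrullDim R + 1 := by
  have := isLocalRing_quotient_span hyn
  have : IsLocalHom (algebraMap R (S ⧸ Ideal.span {y})) := isLocalHom_quotient_span hyn
  have : Module.Flat R (S ⧸ Ideal.span {y}) := flat_quotient_span_singleton y hy
  have h1 : ringKrullDim (S ⧸ Ideal.span {y}) + 1 = ringKrullDim S :=
    ringKrullDim_quotient_span_singleton_succ_eq_ringKrullDim_of_mem_jacobson
      (isSMulRegular_of_fibre y hy) (by rwa [IsLocalRing.ringJacobson_eq_maximalIdeal])
  have hmax : maximalIdeal (S ⧸ Ideal.span {y}) =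
      (maximalIdeal S).map (Ideal.Quotient.mk (Ideal.span {y})) := by
    have hloc : IsLocalHom (Ideal.Quotient.mk (Ideal.span {y})) :=
      IsLocalHom.of_surjective _ Ideal.Quotient.mk_surjective
    ext x
    obtain ⟨x, rfl⟩ := Ideal.Quotient.mk_surjective x
    rw [mem_maximalIdeal, mem_nonunits_iff, isUnit_map_iff,
      Ideal.mem_map_iff_of_surjective _ Ideal.Quotient.mk_surjective]
    constructor
    · intro hx
      exact ⟨x, hx, rfl⟩
    · rintro ⟨x', hx', hxx'⟩
      have h5 : x - x' ∈ Ideal.span {y} := by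
        rw [← Ideal.Quotient.eq_zero_iff_mem, map_sub, hxx', sub_self]
      have h6 : x = x' + (x - x') := by ring
      have h7 : x ∈ maximalIdeal S := by
        rw [h6]
        exact Ideal.add_mem _ hx' ((Ideal.span_singleton_le_iff_mem _).mpr hyn h5)
      exact h7
  have h2 : maximalIdeal (S ⧸ Ideal.span {y}) ^ j ≤
      (maximalIdeal R).map (algebraMap R (S ⧸ Ideal.span {y})) := by
    have e : (maximalIdeal R).map (algebraMap R (S ⧸ Ideal.span {y})) =
        ((maximalIdeal R).map (algebraMap R S)).map (Ideal.Quotient.mk (Ideal.span {y})) := by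
      rw [Ideal.map_map]
      rfl
    rw [hmax, ← Ideal.map_pow, e]
    refine (Ideal.map_mono h).trans ?_
    rw [Ideal.map_sup]
    apply sup_le le_rfl
    rw [Ideal.map_span, Set.image_singleton, Ideal.span_singleton_le_iff_mem]
    have : Ideal.Quotient.mk (Ideal.span {y}) y = 0 :=
      Ideal.Quotient.eq_zero_iff_mem.mpr (Ideal.mem_span_singleton_self y)
    rw [this]
    exact Ideal.zero_mem _
  have h3 := Ideal.height_eq_height_add_of_liesOver_of_hasGoingDown
    (maximalIdeal R) (maximalIdeal (S ⧸ Ideal.span {y}))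
  rw [height_map_mk_eq_zero j h2, add_zero] at h3
  rw [← h1, ← maximalIdeal_height_eq_ringKrullDim, ← maximalIdeal_height_eq_ringKrullDim, h3]


section lengths


/-- A strict inclusion of ideals increases the length of the quotient. -/
lemma length_quot_add_one_le {A : Type*} [CommRing A] {I J : Ideal A} (h : I < J) :
    Module.length A (A ⧸ J) + 1 ≤ Module.length A (A ⧸ I) := by
  obtain ⟨z, hzJ, hzI⟩ := SetLike.exists_of_lt h
  have hexact := Module.length_eq_add_of_exact
    (Submodule.subtype (LinearMap.ker (Submodule.factor h.le))) (Submodule.factor h.le)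
    (Submodule.injective_subtype _) (Submodule.factor_surjective h.le)
    (LinearMap.exact_subtype_ker_map _)
  rw [hexact, add_comm]
  have hnt : Nontrivial (LinearMap.ker (Submodule.factor h.le)) := by
    have hmem : (Submodule.Quotient.mk z : A ⧸ I) ∈ LinearMap.ker (Submodule.factor h.le) := by
      rw [LinearMap.mem_ker]
      change (Submodule.Quotient.mk z : A ⧸ J) = 0
      rw [Submodule.Quotient.mk_eq_zero]
      exact hzJ
    refine ⟨⟨⟨_, hmem⟩, 0, ?_⟩⟩
    intro h0
    have h1 : (Submodule.Quotient.mk z : A ⧸ I) = 0 := congrArg Subtype.val h0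
    rw [Submodule.Quotient.mk_eq_zero] at h1
    exact hzI h1
  have hpos : 0 < Module.length A (LinearMap.ker (Submodule.factor h.le)) := Module.length_pos
  have h1 : (1 : ℕ∞) ≤ Module.length A (LinearMap.ker (Submodule.factor h.le)) :=
    Order.one_le_iff_pos.mpr hpos
  gcongr


/-- If `n` is not of the form `x S + m S + y S`, then `S / (m S + y S)` has length at least 3. -/
lemma three_le_length_quot_sup (y : S) (hyn : y ∈ maximalIdeal S)
    (hnp : ∀ x : S, maximalIdeal S ≠
      Ideal.span {x} ⊔ ((maximalIdeal R).map (algebraMap R S) ⊔ Ideal.span {y})) :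
    3 ≤ Module.length S (S ⧸ ((maximalIdeal R).map (algebraMap R S) ⊔ Ideal.span {y})) := by
  set I' : Ideal S := (maximalIdeal R).map (algebraMap R S) ⊔ Ideal.span {y} with hI'
  have hI'n : I' ≤ maximalIdeal S :=
    sup_le map_maximalIdeal_le ((Ideal.span_singleton_le_iff_mem _).mpr hyn)
  have h0 : I' < maximalIdeal S := by
    refine lt_of_le_of_ne hI'n ?_
    intro heq
    apply hnp 0
    have h2 : (Ideal.span {(0 : S)} : Ideal S) = ⊥ := by simp
    rw [h2, bot_sup_eq]
    exact heq.symm
  obtain ⟨x, hxn, hxI⟩ := SetLike.exists_of_lt h0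
  have h1 : I' < Ideal.span {x} ⊔ I' := by
    refine lt_of_le_of_ne le_sup_right ?_
    intro heq
    apply hxI
    rw [heq]
    exact Ideal.mem_sup_left (Ideal.mem_span_singleton_self x)
  have h2 : Ideal.span {x} ⊔ I' < maximalIdeal S :=
    lt_of_le_of_ne (sup_le ((Ideal.span_singleton_le_iff_mem _).mpr hxn) hI'n) (hnp x).symm
  have h3 : maximalIdeal S < ⊤ := lt_top_iff_ne_top.mpr Ideal.IsPrime.ne_top'
  have l3 := length_quot_add_one_le h3
  have l2 := length_quot_add_one_le h2
  have l1 := length_quot_add_one_le h1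
  calc (3 : ℕ∞) = 0 + 1 + 1 + 1 := by norm_num
    _ ≤ Module.length S (S ⧸ (⊤ : Ideal S)) + 1 + 1 + 1 := by gcongr; exact zero_le
    _ ≤ Module.length S (S ⧸ maximalIdeal S) + 1 + 1 := by gcongr
    _ ≤ Module.length S (S ⧸ (Ideal.span {x} ⊔ I')) + 1 := by gcongr
    _ ≤ Module.length S (S ⧸ I') := l1

/-- Closed formula: `length (S / (m S + y S)^N) = (∑_{j < N} length (R / m^(j+1))) *
length (S / (m S + y S))`. -/
lemma length_quot_sup_pow [IsNoetherianRing R] [IsNoetherianRing S] [Module.Flat R S]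
    (y : S) (hyn : y ∈ maximalIdeal S)
    (hy : ∀ s : S, y * s ∈ (maximalIdeal R).map (algebraMap R S) →
      s ∈ (maximalIdeal R).map (algebraMap R S))
    (N : ℕ) :
    Module.length S (S ⧸ ((maximalIdeal R).map (algebraMap R S) ⊔ Ideal.span {y}) ^ N) =
      (∑ j ∈ Finset.range N, Module.length R (R ⧸ maximalIdeal R ^ (j + 1))) *
        Module.length S (S ⧸ ((maximalIdeal R).map (algebraMap R S) ⊔ Ideal.span {y})) := by
  induction N with
  | zero =>
    rw [Finset.range_zero, Finset.sum_empty, zero_mul, Module.length_eq_zero_iff,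
      Ideal.Quotient.subsingleton_iff, pow_zero, Ideal.one_eq_top]
  | succ N ih =>
    rw [length_quot_pow_succ y hy N, ih, length_quot_span_sup_map y hyn hy,
      Finset.sum_range_succ, add_mul, sup_comm (Ideal.span {y})]

/-- The sandwich for the Hilbert-Samuel function of `S`. -/
lemma length_sandwich [IsNoetherianRing R] [IsNoetherianRing S] [Module.Flat R S]
    (y : S) (hyn : y ∈ maximalIdeal S)
    (hy : ∀ s : S, y * s ∈ (maximalIdeal R).map (algebraMap R S) →
      s ∈ (maximalIdeal R).map (algebraMap R S))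
    (h : maximalIdeal S ^ 2 ≤ (maximalIdeal R).map (algebraMap R S) ⊔ Ideal.span {y})
    (hnp : ∀ x : S, maximalIdeal S ≠
      Ideal.span {x} ⊔ ((maximalIdeal R).map (algebraMap R S) ⊔ Ideal.span {y}))
    (N : ℕ) :
    (∑ j ∈ Finset.range N, Module.length R (R ⧸ maximalIdeal R ^ (j + 1))) *
        Module.length S (S ⧸ ((maximalIdeal R).map (algebraMap R S) ⊔ Ideal.span {y})) ≤
      Module.length S (S ⧸ maximalIdeal S ^ (N + 1)) ∧
    Module.length S (S ⧸ maximalIdeal S ^ (N + 1)) ≤
      (∑ j ∈ Finset.range (N + 1), Module.length R (R ⧸ maximalIdeal R ^ (j + 1))) *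
        Module.length S (S ⧸ ((maximalIdeal R).map (algebraMap R S) ⊔ Ideal.span {y})) := by
  constructor
  · rw [← length_quot_sup_pow y hyn hy N]
    exact length_quot_anti (pow_succ_le_pow_of_sq_le_mul _ _
      (sq_le_sup_mul_maximalIdeal y hyn hy h hnp) N)
  · rw [← length_quot_sup_pow y hyn hy (N + 1)]
    apply length_quot_anti
    exact Ideal.pow_right_mono
      (sup_le map_maximalIdeal_le ((Ideal.span_singleton_le_iff_mem _).mpr hyn)) _

end lengths

section analysis


/-- An elementary inequality behind the limsup comparison: `(1 + 1/d)^d (1 + d/M)^d ≤ 3`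
once `M ≥ 11 d^2`. -/
lemma succ_mul_div_pow_le (d M : ℕ) (hd : 1 ≤ d) (hM : 11 * d ^ 2 ≤ M) :
    ((d + 1) * (M / d + 1)) ^ d ≤ 3 * M ^ d := by
  have hdpos : (0 : ℝ) < d := by exact_mod_cast hd
  have hM' : (11 : ℝ) * (d : ℝ) ^ 2 ≤ M := by exact_mod_cast hM
  have hMpos : (0 : ℝ) < M := by nlinarith
  have hK : ((M / d + 1 : ℕ) : ℝ) ≤ (M : ℝ) / d + 1 := by
    push_cast
    have := Nat.cast_div_le (m := M) (n := d) (α := ℝ)
    linarith
  have h1 : (((d + 1) * (M / d + 1) : ℕ) : ℝ) ≤
      (M : ℝ) * ((1 + 1 / (d : ℝ)) * (1 + (d : ℝ) / M)) := by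
    have e1 : (M : ℝ) * ((1 + 1 / (d : ℝ)) * (1 + (d : ℝ) / M)) =
        ((d : ℝ) + 1) * ((M : ℝ) / d + 1) := by
      field_simp
    rw [e1]
    push_cast
    push_cast at hK
    exact mul_le_mul_of_nonneg_left hK (by positivity)
  have h2 : (1 + 1 / (d : ℝ)) ^ d ≤ Real.exp 1 := by
    calc (1 + 1 / (d : ℝ)) ^ d ≤ (Real.exp (1 / (d : ℝ))) ^ d := by
          apply pow_le_pow_left₀ (by positivity)
          linarith [Real.add_one_le_exp (1 / (d : ℝ))]
      _ = Real.exp ((d : ℝ) * (1 / (d : ℝ))) := (Real.exp_nat_mul _ _).symm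
      _ = Real.exp 1 := by rw [mul_one_div_cancel hdpos.ne']
  have h3 : (1 + (d : ℝ) / M) ^ d ≤ 11 / 10 := by
    calc (1 + (d : ℝ) / M) ^ d ≤ (Real.exp ((d : ℝ) / M)) ^ d := by
          apply pow_le_pow_left₀ (by positivity)
          linarith [Real.add_one_le_exp ((d : ℝ) / M)]
      _ = Real.exp ((d : ℝ) * ((d : ℝ) / M)) := (Real.exp_nat_mul _ _).symm
      _ ≤ Real.exp (1 / 11) := by
          apply Real.exp_le_exp.mpr
          rw [← mul_div_assoc, div_le_div_iff₀ hMpos (by norm_num)]
          nlinarith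
      _ ≤ 1 / (1 - 1 / 11) := Real.exp_bound_div_one_sub_of_interval (by norm_num) (by norm_num)
      _ = 11 / 10 := by norm_num
  have h4 : ((((d + 1) * (M / d + 1) : ℕ) : ℝ)) ^ d ≤ 3 * (M : ℝ) ^ d := by
    calc ((((d + 1) * (M / d + 1) : ℕ) : ℝ)) ^ d
        ≤ ((M : ℝ) * ((1 + 1 / (d : ℝ)) * (1 + (d : ℝ) / M))) ^ d :=
          pow_le_pow_left₀ (by positivity) h1 d
      _ = (M : ℝ) ^ d * ((1 + 1 / (d : ℝ)) ^ d * (1 + (d : ℝ) / M) ^ d) := by
          rw [mul_pow, mul_pow]
      _ ≤ (M : ℝ) ^ d * (Real.exp 1 * (11 / 10)) := by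
          gcongr
      _ ≤ (M : ℝ) ^ d * 3 := by
          have := Real.exp_one_lt_d9
          have hpos : (0 : ℝ) ≤ (M : ℝ) ^ d := by positivity
          nlinarith
      _ = 3 * (M : ℝ) ^ d := mul_comm _ _
  exact_mod_cast h4

lemma ennreal_div_le_div {a c p q : ENNReal} (hp0 : p ≠ 0) (hpt : p ≠ ⊤) (hq0 : q ≠ 0)
    (hqt : q ≠ ⊤) (h : a * q ≤ c * p) : a / p ≤ c / q := by
  rw [ENNReal.le_div_iff_mul_le (Or.inl hq0) (Or.inl hqt), ← ENNReal.mul_div_right_comm,
    ENNReal.div_le_iff_le_mul (Or.inl hp0) (Or.inl hpt)]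
  exact h

/-- Abstract comparison of limsups: if `b` is monotone, `L ≥ 3` and
`q * L * b M ≤ s (M + q)` for all `M, q`, then
`limsup d! b_N / N^d ≤ limsup (d+1)! s_N / N^(d+1)`. -/
lemma limsup_le_limsup_succ (b s : ℕ → ENNReal) (L : ENNReal) (hL : 3 ≤ L) (d : ℕ)
    (hb : Monotone b) (h : ∀ M q : ℕ, (q : ENNReal) * L * b M ≤ s (M + q)) :
    limsup (fun N : ℕ => (d.factorial : ENNReal) * b N / (N : ENNReal) ^ d) atTop ≤
      limsup (fun N : ℕ => ((d + 1).factorial : ENNReal) * s N / (N : ENNReal) ^ (d + 1))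
        atTop := by
  rcases Nat.eq_zero_or_pos d with rfl | hd
  · have hφ : Tendsto (fun M : ℕ => M + (M + 1)) atTop atTop :=
      tendsto_atTop_mono (fun M => by simp only [id]; omega) tendsto_id
    refine le_trans ?_ (hφ.limsup_comp_le_limsup (by isBoundedDefault) (by isBoundedDefault))
    apply limsup_le_limsup _ (by isBoundedDefault) (by isBoundedDefault)
    filter_upwards with M
    simp only [Function.comp_apply, Nat.factorial_zero, Nat.cast_one, one_mul, pow_zero, div_one,
      zero_add, Nat.factorial_one, pow_one]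
    have h1 := h M (M + 1)
    have hN0 : ((M + (M + 1) : ℕ) : ENNReal) ≠ 0 := by
      exact_mod_cast (by omega : M + (M + 1) ≠ 0)
    have hNt : ((M + (M + 1) : ℕ) : ENNReal) ≠ ⊤ := ENNReal.natCast_ne_top _
    rw [ENNReal.le_div_iff_mul_le (Or.inl hN0) (Or.inl hNt)]
    refine le_trans ?_ h1
    have h2 : ((M + (M + 1) : ℕ) : ENNReal) ≤ ((M + 1 : ℕ) : ENNReal) * L := by
      calc ((M + (M + 1) : ℕ) : ENNReal) ≤ ((M + 1 : ℕ) : ENNReal) * 3 := by
            have : M + (M + 1) ≤ (M + 1) * 3 := by omega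
            exact_mod_cast this
        _ ≤ ((M + 1 : ℕ) : ENNReal) * L := by gcongr
    calc b M * ((M + (M + 1) : ℕ) : ENNReal) ≤ b M * (((M + 1 : ℕ) : ENNReal) * L) := by gcongr
      _ = ((M + 1 : ℕ) : ENNReal) * L * b M := by ring
  · have hφ : Tendsto (fun M : ℕ => d * (M / d + 1) + (M / d + 1)) atTop atTop := by
      apply tendsto_atTop_mono (fun M => ?_) tendsto_id
      simp only [id]
      exact le_trans (Nat.lt_mul_div_succ M hd).le (Nat.le_add_right _ _)
    refine le_trans ?_ (hφ.limsup_comp_le_limsup (by isBoundedDefault) (by isBoundedDefault))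
    apply limsup_le_limsup _ (by isBoundedDefault) (by isBoundedDefault)
    filter_upwards [eventually_ge_atTop (11 * d ^ 2)] with M hM
    simp only [Function.comp_apply]
    set K : ℕ := M / d + 1 with hK
    have hKM : M ≤ d * K := (Nat.lt_mul_div_succ M hd).le
    have hMpos : 0 < M := by
      have : 0 < 11 * d ^ 2 := by positivity
      omega
    have h1 := h (d * K) K
    have h2 : b M ≤ b (d * K) := hb hKM
    have h3 : ((d + 1) * K) ^ d ≤ 3 * M ^ d := succ_mul_div_pow_le d M hd hM
    have hX : d * K + K = (d + 1) * K := by ring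
    rw [hX] at h1 ⊢
    have hX0 : (((d + 1) * K : ℕ) : ENNReal) ^ (d + 1) ≠ 0 := by
      apply pow_ne_zero
      exact_mod_cast (by positivity : (d + 1) * K ≠ 0)
    have hXt : (((d + 1) * K : ℕ) : ENNReal) ^ (d + 1) ≠ ⊤ :=
      ENNReal.pow_ne_top (ENNReal.natCast_ne_top _)
    have hM0 : ((M : ENNReal)) ^ d ≠ 0 := by
      apply pow_ne_zero
      exact_mod_cast hMpos.ne'
    have hMt : ((M : ENNReal)) ^ d ≠ ⊤ := ENNReal.pow_ne_top (ENNReal.natCast_ne_top _)
    apply ennreal_div_le_div hM0 hMt hX0 hXt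
    have h3' : (((d + 1) * K : ℕ) : ENNReal) ^ d ≤ 3 * (M : ENNReal) ^ d := by
      exact_mod_cast h3
    have hfac : (((d + 1).factorial : ℕ) : ENNReal) =
        ((d + 1 : ℕ) : ENNReal) * (d.factorial : ENNReal) := by
      rw [Nat.factorial_succ]
      push_cast
      ring
    calc (d.factorial : ENNReal) * b M * (((d + 1) * K : ℕ) : ENNReal) ^ (d + 1)
        = (d.factorial : ENNReal) * b M * (((d + 1) * K : ℕ) : ENNReal) *
            (((d + 1) * K : ℕ) : ENNReal) ^ d := by
          rw [pow_succ]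
          ring
      _ ≤ (d.factorial : ENNReal) * b (d * K) * (((d + 1) * K : ℕ) : ENNReal) *
            (L * (M : ENNReal) ^ d) := by
          gcongr
          exact h3'.trans (by gcongr)
      _ = ((d + 1).factorial : ENNReal) * ((K : ENNReal) * L * b (d * K)) * (M : ENNReal) ^ d := by
          rw [hfac]
          push_cast
          ring
      _ ≤ ((d + 1).factorial : ENNReal) * s ((d + 1) * K) * (M : ENNReal) ^ d := by
          gcongr

end analysis

section main


lemma mul_le_sum_range_of_monotone (f : ℕ → ℕ∞) (hf : Monotone f) (M q : ℕ) :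
    (q : ℕ∞) * f (M + 1) ≤ ∑ j ∈ Finset.range (M + q), f (j + 1) := by
  induction q with
  | zero => simp
  | succ q ih =>
    rw [← add_assoc, Finset.sum_range_succ, Nat.cast_succ, add_mul, one_mul]
    exact add_le_add ih (hf (by omega))


/-- **One-dimensional closed fibres of minimal multiplicity.**  Let `y ∈ n` be a nonzerodivisor
on `S / m S` with `n ^ 2 ≤ m S + y S`, and assume `n` is not of the form `x S + m S + y S`.
Then for every `d`,
`limsup d! length (R / m^N) / N^d ≤ limsup (d+1)! length (S / n^N) / N^(d+1)`. -/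
theorem limsup_le_limsup_of_oneDimFibre [IsNoetherianRing R] [IsNoetherianRing S]
    [Module.Flat R S] (y : S) (hyn : y ∈ maximalIdeal S)
    (hy : ∀ s : S, y * s ∈ (maximalIdeal R).map (algebraMap R S) →
      s ∈ (maximalIdeal R).map (algebraMap R S))
    (h : maximalIdeal S ^ 2 ≤ (maximalIdeal R).map (algebraMap R S) ⊔ Ideal.span {y})
    (hnp : ∀ x : S, maximalIdeal S ≠
      Ideal.span {x} ⊔ ((maximalIdeal R).map (algebraMap R S) ⊔ Ideal.span {y}))
    (d : ℕ) :
    limsup (fun N : ℕ => (d.factorial : ENNReal) *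
        (Module.length R (R ⧸ maximalIdeal R ^ N)).toENNReal / (N : ENNReal) ^ d) atTop ≤
      limsup (fun N : ℕ => ((d + 1).factorial : ENNReal) *
        (Module.length S (S ⧸ maximalIdeal S ^ N)).toENNReal / (N : ENNReal) ^ (d + 1)) atTop := by
  have hmono : Monotone fun N : ℕ => Module.length R (R ⧸ maximalIdeal R ^ N) :=
    fun N M hNM => length_quot_anti (Ideal.pow_le_pow_right hNM)
  refine limsup_le_limsup_succ
    (fun N : ℕ => (Module.length R (R ⧸ maximalIdeal R ^ N)).toENNReal)
    (fun N : ℕ => (Module.length S (S ⧸ maximalIdeal S ^ N)).toENNReal)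
    (Module.length S
      (S ⧸ ((maximalIdeal R).map (algebraMap R S) ⊔ Ideal.span {y}))).toENNReal ?_ d ?_ ?_
  · have h3 := ENat.toENNReal_le.mpr (three_le_length_quot_sup y hyn hnp)
    simpa using h3
  · exact fun N M hNM => ENat.toENNReal_le.mpr (hmono hNM)
  · intro M q
    rcases M with _ | M
    · simp
    rcases q with _ | q
    · simp
    have hs := (length_sandwich y hyn hy h hnp (M + (q + 1))).1
    have hT := mul_le_sum_range_of_monotone _ hmono M (q + 1)
    have hidx : M + 1 + (q + 1) = M + (q + 1) + 1 := by omega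
    rw [hidx]
    have h4 : ((q + 1 : ℕ) : ℕ∞) * Module.length S
          (S ⧸ ((maximalIdeal R).map (algebraMap R S) ⊔ Ideal.span {y})) *
        Module.length R (R ⧸ maximalIdeal R ^ (M + 1)) ≤
        Module.length S (S ⧸ maximalIdeal S ^ (M + (q + 1) + 1)) := by
      refine le_trans ?_ hs
      rw [mul_right_comm]
      gcongr
    have h5 := ENat.toENNReal_le.mpr h4
    simpa using h5

end main

end Vale.Agent.Lib.P202
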