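import Vale.Agent.Lib.P202.ReductionFibre

/-!
# Quasi-free ideals

An ideal `J` of a commutative ring is called quasi-free here when every `J ^ q / J ^ (q + 1)`
is generated by a finite family that is independent modulo `J` (so it is a free module over
`S / J`).  The extension `m S` of the maximal ideal along a flat map is quasi-free, and
quasi-freeness is preserved by adjoining an element that is a nonzerodivisor modulo `J`.
-/

namespace Vale.Agent.Lib.P202

open IsLocalRing

section quasiFree

variable {S : Type*} [CommRing S]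

/-- `J` is quasi-free: each `J ^ q / J ^ (q + 1)` is generated by a finite family that is
independent modulo `J`. -/
def QuasiFree (J : Ideal S) : Prop :=
  ∀ q : ℕ, ∃ (ι : Type) (_ : Fintype ι) (G : ι → S), (∀ γ, G γ ∈ J ^ q) ∧
    J ^ q ≤ Ideal.span (Set.range G) ⊔ J ^ (q + 1) ∧
    ∀ b : ι → S, ∑ γ, G γ * b γ ∈ J ^ (q + 1) → ∀ γ, b γ ∈ J

/-- Elements of `span (range G) * N` are combinations of the `G γ` with coefficients in `N`. -/
lemma exists_sum_of_mem_span_mul {ι : Type*} [Fintype ι] (G : ι → S) (N : Ideal S) (z : S)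
    (hz : z ∈ Ideal.span (Set.range G) * N) :
    ∃ v : ι → S, (∀ γ, v γ ∈ N) ∧ z = ∑ γ, G γ * v γ := by
  refine Submodule.mul_induction_on hz ?_ ?_
  · intro m hm n hn
    obtain ⟨c, rfl⟩ := (Ideal.mem_span_range_iff_exists_fun).mp hm
    refine ⟨fun γ => c γ * n, fun γ => Ideal.mul_mem_left _ _ hn, ?_⟩
    rw [Finset.sum_mul]
    apply Finset.sum_congr rfl
    intro γ _
    ring
  · rintro a b ⟨v, hv, rfl⟩ ⟨w, hw, rfl⟩
    refine ⟨fun γ => v γ + w γ, fun γ => Ideal.add_mem _ (hv γ) (hw γ), ?_⟩
    rw [← Finset.sum_add_distrib]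
    apply Finset.sum_congr rfl
    intro γ _
    ring

/-- A nonzerodivisor modulo a quasi-free ideal is a nonzerodivisor modulo all its powers. -/
lemma QuasiFree.mem_pow_of_mul_mem {J : Ideal S} (hJ : QuasiFree J) (y : S)
    (hy : ∀ s, y * s ∈ J → s ∈ J) : ∀ (a : ℕ) (s : S), y * s ∈ J ^ a → s ∈ J ^ a := by
  intro a
  induction a with
  | zero => intro s _; simp
  | succ a ih =>
    intro s hs
    have h1 : s ∈ J ^ a := ih s (Ideal.pow_le_pow_right (Nat.le_succ a) hs)
    obtain ⟨ι, _, G, hG, hgen, hind⟩ := hJ a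
    obtain ⟨g, hg, s', hs', rfl⟩ := Submodule.mem_sup.mp (hgen h1)
    obtain ⟨κ, rfl⟩ := (Ideal.mem_span_range_iff_exists_fun).mp hg
    have h2 : ∑ γ, G γ * (y * κ γ) ∈ J ^ (a + 1) := by
      have h3 : ∑ γ, G γ * (y * κ γ) = y * (∑ γ, κ γ * G γ + s') - y * s' := by
        rw [mul_add, add_sub_cancel_right, Finset.mul_sum]
        apply Finset.sum_congr rfl
        intro γ _
        ring
      rw [h3]
      exact Ideal.sub_mem _ hs (Ideal.mul_mem_left _ _ hs')
    have h4 := hind _ h2
    apply Ideal.add_mem _ _ hs'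
    apply Ideal.sum_mem
    intro γ _
    rw [pow_succ']
    exact Ideal.mul_mem_mul (hy _ (h4 γ)) (hG γ)

/-- Expansion of elements of `(J + (y)) ^ q` in powers of `y`. -/
lemma exists_coeff_of_mem_sup_span_pow (J : Ideal S) (y : S) :
    ∀ (q : ℕ) (z : S), z ∈ (J ⊔ Ideal.span {y}) ^ q →
      ∃ r : ℕ → S, (∀ a, r a ∈ J ^ a) ∧ z = ∑ a ∈ Finset.range (q + 1), r a * y ^ (q - a) := by
  intro q
  induction q with
  | zero =>
    intro z _
    refine ⟨fun a => if a = 0 then z else 0, fun a => ?_, by simp⟩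
    by_cases ha : a = 0
    · subst ha; simp
    · simp [ha]
  | succ q ih =>
    intro z hz
    rw [pow_succ] at hz
    refine Submodule.mul_induction_on hz ?_ ?_
    · intro m hm n hn
      obtain ⟨r, hr, rfl⟩ := ih m hm
      obtain ⟨j, hj, w, hw, rfl⟩ := Submodule.mem_sup.mp hn
      obtain ⟨s, rfl⟩ := Ideal.mem_span_singleton'.mp hw
      refine ⟨fun a => (if a = 0 then 0 else r (a - 1) * j) + (if a ≤ q then r a * s else 0),
        fun a => ?_, ?_⟩
      · apply Ideal.add_mem
        · by_cases ha : a = 0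
          · simp [ha]
          · rw [if_neg ha]
            obtain ⟨a', rfl⟩ := Nat.exists_eq_succ_of_ne_zero ha
            rw [Nat.succ_sub_one, pow_succ]
            exact Ideal.mul_mem_mul (hr a') hj
        · by_cases ha : a ≤ q
          · rw [if_pos ha]
            exact Ideal.mul_mem_right _ _ (hr a)
          · rw [if_neg ha]
            exact Ideal.zero_mem _
      · simp only [add_mul, Finset.sum_add_distrib]
        have h1 : ∑ a ∈ Finset.range (q + 1 + 1),
            (if a = 0 then 0 else r (a - 1) * j) * y ^ (q + 1 - a) =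
            (∑ a ∈ Finset.range (q + 1), r a * y ^ (q - a)) * j := by
          rw [Finset.sum_range_succ', Finset.sum_mul]
          simp only [if_true, zero_mul, add_zero]
          apply Finset.sum_congr rfl
          intro a _
          rw [if_neg (Nat.succ_ne_zero a), Nat.add_sub_cancel, Nat.add_sub_add_right]
          ring
        have h2 : ∑ a ∈ Finset.range (q + 1 + 1),
            (if a ≤ q then r a * s else 0) * y ^ (q + 1 - a) =
            (∑ a ∈ Finset.range (q + 1), r a * y ^ (q - a)) * (s * y) := by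
          rw [Finset.sum_range_succ, Finset.sum_mul]
          rw [if_neg (by omega), zero_mul, add_zero]
          apply Finset.sum_congr rfl
          intro a ha
          have ha' : a ≤ q := by
            have := Finset.mem_range.mp ha
            omega
          rw [if_pos ha']
          have h3 : q + 1 - a = (q - a) + 1 := by omega
          rw [h3, pow_succ]
          ring
        rw [h1, h2]
        ring
    · rintro a b ⟨r, hr, rfl⟩ ⟨r', hr', rfl⟩
      refine ⟨fun a => r a + r' a, fun a => Ideal.add_mem _ (hr a) (hr' a), ?_⟩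
      rw [← Finset.sum_add_distrib]
      apply Finset.sum_congr rfl
      intro a _
      ring

/-- The tail argument: a relation `∑ u_b y ^ b ∈ J ^ (q + 1)` with `u_b ∈ J ^ (q - b)` forces
`u_b ∈ J ^ (q - b + 1) + y J ^ (q - b)`. -/
lemma mem_of_sum_mul_pow_mem (J : Ideal S) (y : S)
    (hy : ∀ (a : ℕ) (s : S), y * s ∈ J ^ a → s ∈ J ^ a) :
    ∀ (q : ℕ) (u : ℕ → S), (∀ b ≤ q, u b ∈ J ^ (q - b)) →
      ∑ b ∈ Finset.range (q + 2), u b * y ^ b ∈ J ^ (q + 1) →
      ∀ b ≤ q, u b ∈ J ^ (q - b + 1) ⊔ Ideal.span {y} * J ^ (q - b) := by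
  intro q
  induction q with
  | zero =>
    intro u _ hsum b hb
    obtain rfl : b = 0 := by omega
    have h1 : u 0 = (∑ b ∈ Finset.range (0 + 2), u b * y ^ b) - y * u 1 := by
      simp [Finset.sum_range_succ]
      ring
    rw [h1]
    refine Ideal.sub_mem _ (Ideal.mem_sup_left hsum) (Ideal.mem_sup_right ?_)
    exact Ideal.mul_mem_mul (Ideal.mem_span_singleton_self y) (by simp)
  | succ q ih =>
    intro u hu hsum b hb
    have hsplit : ∑ b ∈ Finset.range (q + 1 + 2), u b * y ^ b =
        u 0 + y * ∑ b ∈ Finset.range (q + 2), u (b + 1) * y ^ b := by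
      rw [Finset.sum_range_succ', Finset.mul_sum, pow_zero, mul_one, add_comm]
      congr 1
      apply Finset.sum_congr rfl
      intro b _
      rw [pow_succ]
      ring
    have hW : ∑ b ∈ Finset.range (q + 2), u (b + 1) * y ^ b ∈ J ^ (q + 1) := by
      apply hy
      have h1 : y * ∑ b ∈ Finset.range (q + 2), u (b + 1) * y ^ b =
          (∑ b ∈ Finset.range (q + 1 + 2), u b * y ^ b) - u 0 := by
        rw [hsplit]; ring
      rw [h1]
      exact Ideal.sub_mem _ (Ideal.pow_le_pow_right (Nat.le_succ _) hsum) (hu 0 (Nat.zero_le _))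
    rcases Nat.eq_zero_or_pos b with rfl | hbpos
    · have h1 : u 0 = (∑ b ∈ Finset.range (q + 1 + 2), u b * y ^ b) -
          y * ∑ b ∈ Finset.range (q + 2), u (b + 1) * y ^ b := by
        rw [hsplit]; ring
      rw [h1]
      refine Ideal.sub_mem _ (Ideal.mem_sup_left hsum) (Ideal.mem_sup_right ?_)
      exact Ideal.mul_mem_mul (Ideal.mem_span_singleton_self y) hW
    · obtain ⟨b', rfl⟩ := Nat.exists_eq_succ_of_ne_zero hbpos.ne'
      have h1 := ih (fun b => u (b + 1)) (fun b hb' => by
        have := hu (b + 1) (by omega)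
        rwa [Nat.add_sub_add_right] at this) hW b' (by omega)
      rwa [Nat.add_sub_add_right]

/-- Adjoining a nonzerodivisor modulo `J` preserves quasi-freeness. -/
theorem QuasiFree.sup_span_singleton {J : Ideal S} (hJ : QuasiFree J) (y : S)
    (hy : ∀ s, y * s ∈ J → s ∈ J) : QuasiFree (J ⊔ Ideal.span {y}) := by
  classical
  have hyp := hJ.mem_pow_of_mul_mem y hy
  intro q
  choose ι inst G hG hgen hind using hJ
  have hle : J ≤ J ⊔ Ideal.span {y} := le_sup_left
  have hymem : y ∈ J ⊔ Ideal.span {y} := Ideal.mem_sup_right (Ideal.mem_span_singleton_self y)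
  refine ⟨Σ a : Fin (q + 1), ι a, inferInstance,
    fun σ => G σ.1 σ.2 * y ^ (q - (σ.1 : ℕ)), ?_, ?_, ?_⟩
  · rintro ⟨a, γ⟩
    have h1 : q = (a : ℕ) + (q - (a : ℕ)) := by have := a.2; omega
    have h2 : (J ⊔ Ideal.span {y}) ^ q =
        (J ⊔ Ideal.span {y}) ^ (a : ℕ) * (J ⊔ Ideal.span {y}) ^ (q - (a : ℕ)) := by
      rw [← pow_add, ← h1]
    rw [h2]
    exact Ideal.mul_mem_mul (Ideal.pow_right_mono hle _ (hG a γ)) (Ideal.pow_mem_pow hymem _)
  · intro z hz
    obtain ⟨r, hr, rfl⟩ := exists_coeff_of_mem_sup_span_pow J y q z hz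
    apply Ideal.sum_mem
    intro a ha
    have ha' : a < q + 1 := Finset.mem_range.mp ha
    obtain ⟨g, hg, r', hr', hrr⟩ := Submodule.mem_sup.mp (hgen a (hr a))
    rw [← hrr, add_mul]
    apply Ideal.add_mem
    · apply Ideal.mem_sup_left
      obtain ⟨κ, rfl⟩ := (Ideal.mem_span_range_iff_exists_fun).mp hg
      rw [Finset.sum_mul]
      apply Ideal.sum_mem
      intro γ _
      rw [mul_assoc]
      apply Ideal.mul_mem_left
      exact Ideal.subset_span ⟨⟨⟨a, ha'⟩, γ⟩, rfl⟩
    · apply Ideal.mem_sup_right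
      have h1 : q + 1 = (a + 1) + (q - a) := by omega
      rw [h1, pow_add]
      exact Ideal.mul_mem_mul (Ideal.pow_right_mono hle _ hr') (Ideal.pow_mem_pow hymem _)
  · intro b hb
    -- the coefficient of `y ^ (q - a)`
    set p : ℕ → S := fun a => if h : a < q + 1 then ∑ γ, G a γ * b ⟨⟨a, h⟩, γ⟩ else 0 with hp
    have hpmem : ∀ a, p a ∈ J ^ a := by
      intro a
      rw [hp]
      by_cases h : a < q + 1
      · simp only [dif_pos h]
        apply Ideal.sum_mem
        intro γ _
        exact Ideal.mul_mem_right _ _ (hG a γ)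
      · simp only [dif_neg h]
        exact Ideal.zero_mem _
    have hsum : ∑ σ : (Σ a : Fin (q + 1), ι a), G σ.1 σ.2 * y ^ (q - (σ.1 : ℕ)) * b σ =
        ∑ a ∈ Finset.range (q + 1), p a * y ^ (q - a) := by
      rw [Fintype.sum_sigma, ← Fin.sum_univ_eq_sum_range (fun a => p a * y ^ (q - a)) (q + 1)]
      apply Finset.sum_congr rfl
      intro a _
      rw [hp]
      simp only [dif_pos a.2, Fin.eta, Finset.sum_mul]
      apply Finset.sum_congr rfl
      intro γ _
      ring
    rw [hsum] at hb
    obtain ⟨r, hr, hZ⟩ := exists_coeff_of_mem_sup_span_pow J y (q + 1) _ hb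
    set u : ℕ → S := fun b => (if b ≤ q then p (q - b) else 0) - r (q + 1 - b) with hu
    have humem : ∀ b ≤ q, u b ∈ J ^ (q - b) := by
      intro b hb'
      rw [hu]
      simp only [if_pos hb']
      refine Ideal.sub_mem _ (hpmem _) ?_
      exact Ideal.pow_le_pow_right (by omega) (hr (q + 1 - b))
    have hzero : ∑ b ∈ Finset.range (q + 2), u b * y ^ b = 0 := by
      rw [hu]
      simp only [sub_mul, Finset.sum_sub_distrib]
      have h1 : ∑ b ∈ Finset.range (q + 2), (if b ≤ q then p (q - b) else 0) * y ^ b =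
          ∑ a ∈ Finset.range (q + 1), p a * y ^ (q - a) := by
        rw [Finset.sum_range_succ, if_neg (by omega), zero_mul, add_zero]
        rw [← Finset.sum_range_reflect (fun a => p a * y ^ (q - a)) (q + 1)]
        apply Finset.sum_congr rfl
        intro b hb'
        have hb'' : b ≤ q := by
          have := Finset.mem_range.mp hb'
          omega
        rw [if_pos hb'']
        have h2 : q + 1 - 1 - b = q - b := by omega
        have h3 : q - (q - b) = b := by omega
        rw [h2, h3]
      have h2 : ∑ b ∈ Finset.range (q + 2), r (q + 1 - b) * y ^ b =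
          ∑ a ∈ Finset.range (q + 1 + 1), r a * y ^ (q + 1 - a) := by
        rw [← Finset.sum_range_reflect (fun a => r a * y ^ (q + 1 - a)) (q + 1 + 1)]
        apply Finset.sum_congr rfl
        intro b hb'
        have hb'' : b ≤ q + 1 := by
          have := Finset.mem_range.mp hb'
          omega
        have h3 : q + 1 + 1 - 1 - b = q + 1 - b := by omega
        have h4 : q + 1 - (q + 1 - b) = b := by omega
        rw [h3, h4]
      rw [h1, h2, ← hZ, sub_self]
    have hT := mem_of_sum_mul_pow_mem J y hyp q u humem (by rw [hzero]; exact Ideal.zero_mem _)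
    rintro ⟨a, γ⟩
    have ha : (a : ℕ) ≤ q := by have := a.2; omega
    have h1 := hT (q - (a : ℕ)) (by omega)
    have h2 : q - (q - (a : ℕ)) = (a : ℕ) := by omega
    have h3 : q + 1 - (q - (a : ℕ)) = (a : ℕ) + 1 := by omega
    rw [h2] at h1
    have h4 : u (q - (a : ℕ)) = p a - r ((a : ℕ) + 1) := by
      rw [hu]
      simp only [if_pos (Nat.sub_le q a), h2, h3]
    have h5 : p a ∈ J ^ ((a : ℕ) + 1) ⊔ Ideal.span {y} * J ^ (a : ℕ) := by
      have h6 : p a = u (q - (a : ℕ)) + r ((a : ℕ) + 1) := by rw [h4]; ring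
      rw [h6]
      exact Ideal.add_mem _ h1 (Ideal.mem_sup_left (hr _))
    obtain ⟨j1, hj1, w, hw, hpa⟩ := Submodule.mem_sup.mp h5
    obtain ⟨j2, hj2, rfl⟩ := Ideal.mem_span_singleton_mul.mp hw
    obtain ⟨g, hg, j3, hj3, rfl⟩ := Submodule.mem_sup.mp (hgen a hj2)
    obtain ⟨κ, rfl⟩ := (Ideal.mem_span_range_iff_exists_fun).mp hg
    have h7 : ∑ γ, G a γ * (b ⟨a, γ⟩ - y * κ γ) ∈ J ^ ((a : ℕ) + 1) := by
      have h8 : ∑ γ, G a γ * (b ⟨a, γ⟩ - y * κ γ) = j1 + y * j3 := by
        have h9 : p a = ∑ γ, G a γ * b ⟨a, γ⟩ := by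
          rw [hp]
          simp only [dif_pos a.2, Fin.eta]
        have h10 : ∑ γ, G a γ * (b ⟨a, γ⟩ - y * κ γ) = p a - y * ∑ γ, κ γ * G a γ := by
          rw [h9, Finset.mul_sum, ← Finset.sum_sub_distrib]
          apply Finset.sum_congr rfl
          intro γ _
          ring
        rw [h10, ← hpa]
        ring
      rw [h8]
      exact Ideal.add_mem _ hj1 (Ideal.mul_mem_left _ _ hj3)
    have h11 := hind a _ h7 γ
    have h12 : b ⟨a, γ⟩ = (b ⟨a, γ⟩ - y * κ γ) + κ γ * y := by ring
    rw [h12]
    exact Ideal.add_mem _ (Ideal.mem_sup_left h11)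
      (Ideal.mem_sup_right (Ideal.mul_mem_left _ _ (Ideal.mem_span_singleton_self y)))

end quasiFree

section flat

variable {R S : Type*} [CommRing R] [CommRing S] [IsLocalRing R] [Algebra R S]

/-- For a flat algebra `S` over a Noetherian local ring `R`, the ideal `m S` is quasi-free. -/
theorem quasiFree_map_maximalIdeal [IsNoetherianRing R] [Module.Flat R S] :
    QuasiFree ((maximalIdeal R).map (algebraMap R S)) := by
  intro q
  obtain ⟨v, τ, hmem, hgen, hind⟩ := exists_generators_mod (maximalIdeal R ^ q)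
    (maximalIdeal R ^ (q + 1)) (IsNoetherian.noetherian _)
  refine ⟨Fin v, inferInstance, fun i => algebraMap R S (τ i), ?_, ?_, ?_⟩
  · intro i
    rw [← Ideal.map_pow]
    exact Ideal.mem_map_of_mem _ (hmem i)
  · rw [← Ideal.map_pow, ← Ideal.map_pow]
    refine (Ideal.map_mono hgen).trans ?_
    rw [Ideal.map_sup, Ideal.map_span, ← Set.range_comp]
    exact le_rfl
  · intro b hb i
    rw [← Ideal.map_pow] at hb
    exact coeff_mem_map_of_sum_mem (maximalIdeal R ^ (q + 1)) τ hind b hb i

/-- The ideal `m S + (y i : i ∈ T)` is quasi-free when the `y i` are regular on the closed fibre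
in every order. -/
theorem quasiFree_fibreIdeal [IsNoetherianRing R] [Module.Flat R S] {ι : Type*} (y : ι → S)
    (hreg : ∀ (T : Finset ι) (k : ι), k ∉ T →
      ∀ s : S, y k * s ∈ fibreIdeal R y T → s ∈ fibreIdeal R y T)
    (T : Finset ι) : QuasiFree (fibreIdeal R y T) := by
  classical
  induction T using Finset.induction_on with
  | empty =>
    have h1 : fibreIdeal R y ∅ = (maximalIdeal R).map (algebraMap R S) := by
      simp [fibreIdeal]
    rw [h1]
    exact quasiFree_map_maximalIdeal
  | insert k T hk ih =>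
    have h1 : fibreIdeal R y (insert k T) = fibreIdeal R y T ⊔ Ideal.span {y k} := by
      simp only [fibreIdeal, Finset.coe_insert, Set.image_insert_eq]
      rw [Ideal.span_insert, sup_assoc, sup_comm (Ideal.span {y k})]
    rw [h1]
    exact ih.sup_span_singleton (y k) (hreg T k hk)

end flat

end Vale.Agent.Lib.P202
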