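import Mathlib
namespace Vale.Agent.Lib.P202
open Filter Topology Nat
open scoped ENNReal

/-- Bounds for the increment of the power function with exponent d+1 between x and x+1. -/
lemma taskA_incr_bounds (d : ℕ) (x : ℝ) (hx : 0 ≤ x) :
    ((d : ℝ) + 1) * x ^ d ≤ (x + 1) ^ (d + 1) - x ^ (d + 1) ∧
      (x + 1) ^ (d + 1) - x ^ (d + 1) ≤ ((d : ℝ) + 1) * (x + 1) ^ d := by
  have hgeom := geom_sum₂_mul (x + 1) x (d + 1)
  rw [add_sub_cancel_left, mul_one] at hgeom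
  rw [← hgeom]
  have hx1 : 0 ≤ x + 1 := by linarith
  have hxx : x ≤ x + 1 := by linarith
  constructor
  · calc ((d : ℝ) + 1) * x ^ d = ∑ _i ∈ Finset.range (d + 1), x ^ d := by simp
      _ ≤ ∑ i ∈ Finset.range (d + 1), (x + 1) ^ i * x ^ (d + 1 - 1 - i) := by
        refine Finset.sum_le_sum (fun i hi => ?_)
        have hi' : i ≤ d := Nat.lt_succ_iff.mp (Finset.mem_range.mp hi)
        calc x ^ d = x ^ i * x ^ (d + 1 - 1 - i) := by
              rw [← pow_add]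
              congr 1
              omega
          _ ≤ (x + 1) ^ i * x ^ (d + 1 - 1 - i) :=
              mul_le_mul_of_nonneg_right (pow_le_pow_left₀ hx hxx i) (pow_nonneg hx _)
  · calc ∑ i ∈ Finset.range (d + 1), (x + 1) ^ i * x ^ (d + 1 - 1 - i)
        ≤ ∑ _i ∈ Finset.range (d + 1), (x + 1) ^ d := by
          refine Finset.sum_le_sum (fun i hi => ?_)
          have hi' : i ≤ d := Nat.lt_succ_iff.mp (Finset.mem_range.mp hi)
          calc (x + 1) ^ i * x ^ (d + 1 - 1 - i) ≤ (x + 1) ^ i * (x + 1) ^ (d + 1 - 1 - i) :=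
                mul_le_mul_of_nonneg_left (pow_le_pow_left₀ hx hxx _) (pow_nonneg hx1 _)
            _ = (x + 1) ^ d := by
                rw [← pow_add]
                congr 1
                omega
      _ = ((d : ℝ) + 1) * (x + 1) ^ d := by simp

lemma taskA_incr_pos (d : ℕ) (j : ℕ) : 0 < ((j : ℝ) + 1) ^ (d + 1) - (j : ℝ) ^ (d + 1) :=
  sub_pos.mpr (pow_lt_pow_left₀ (by linarith) (Nat.cast_nonneg j) (Nat.succ_ne_zero d))

/-- The ratio of (d+1) times the d-th power of j+1 to the increment tends to 1. -/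
lemma taskA_ratio_tendsto (d : ℕ) :
    Tendsto (fun j : ℕ => ((d : ℝ) + 1) * ((j : ℝ) + 1) ^ d
      / (((j : ℝ) + 1) ^ (d + 1) - (j : ℝ) ^ (d + 1))) atTop (𝓝 1) := by
  have hup : Tendsto (fun j : ℕ => (1 + 1 / (j : ℝ)) ^ d) atTop (𝓝 1) := by
    have h1 : Tendsto (fun j : ℕ => (1 + 1 / (j : ℝ))) atTop (𝓝 (1 + 0)) :=
      tendsto_const_nhds.add tendsto_one_div_atTop_nhds_zero_nat
    have h2 := h1.pow d
    rw [add_zero, one_pow] at h2
    exact h2
  refine tendsto_of_tendsto_of_tendsto_of_le_of_le' tendsto_const_nhds hup ?_ ?_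
  · filter_upwards with j
    obtain ⟨-, hhi⟩ := taskA_incr_bounds d (j : ℝ) (Nat.cast_nonneg j)
    exact (one_le_div (taskA_incr_pos d j)).mpr hhi
  · filter_upwards [eventually_gt_atTop 0] with j hj
    obtain ⟨hlo, -⟩ := taskA_incr_bounds d (j : ℝ) (Nat.cast_nonneg j)
    have hj' : (0 : ℝ) < j := Nat.cast_pos.mpr hj
    have hjd : (0 : ℝ) < (j : ℝ) ^ d := pow_pos hj' d
    have hd : (0 : ℝ) < (d : ℝ) + 1 := by positivity
    calc ((d : ℝ) + 1) * ((j : ℝ) + 1) ^ d / (((j : ℝ) + 1) ^ (d + 1) - (j : ℝ) ^ (d + 1))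
        ≤ ((d : ℝ) + 1) * ((j : ℝ) + 1) ^ d / (((d : ℝ) + 1) * (j : ℝ) ^ d) :=
          div_le_div_of_nonneg_left (by positivity) (by positivity) hlo
      _ = (1 + 1 / (j : ℝ)) ^ d := by
          rw [mul_div_mul_left _ _ hd.ne', ← div_pow]
          congr 1
          field_simp

theorem taskA_real (d : ℕ) (β : ℕ → ℝ) (e : ℝ)
    (h : Tendsto (fun N : ℕ => (d ! : ℝ) * β N / (N : ℝ) ^ d) atTop (𝓝 e)) :
    Tendsto (fun N : ℕ => ((d + 1) ! : ℝ) * (∑ j ∈ Finset.range N, β (j + 1)) / (N : ℝ) ^ (d + 1))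
      atTop (𝓝 e) := by
  have hgsum : ∀ N : ℕ, ∑ j ∈ Finset.range N, (((j : ℝ) + 1) ^ (d + 1) - (j : ℝ) ^ (d + 1))
      = (N : ℝ) ^ (d + 1) := by
    intro N
    have h0 := Finset.sum_range_sub (fun j : ℕ => (j : ℝ) ^ (d + 1)) N
    simp only [Nat.cast_add, Nat.cast_one, Nat.cast_zero] at h0
    rw [h0, zero_pow (Nat.succ_ne_zero d), sub_zero]
  have h1 : Tendsto (fun j : ℕ => (d ! : ℝ) * β (j + 1) / ((j : ℝ) + 1) ^ d) atTop (𝓝 e) := by
    have h0 := (tendsto_add_atTop_iff_nat 1).mpr h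
    simp only [Nat.cast_add, Nat.cast_one] at h0
    exact h0
  have h2 : Tendsto (fun j : ℕ => ((d + 1) ! : ℝ) * β (j + 1)
      / (((j : ℝ) + 1) ^ (d + 1) - (j : ℝ) ^ (d + 1))) atTop (𝓝 e) := by
    have h3 := h1.mul (taskA_ratio_tendsto d)
    rw [mul_one] at h3
    refine h3.congr (fun j => ?_)
    have hj : ((j : ℝ) + 1) ^ d ≠ 0 := by positivity
    have hg := (taskA_incr_pos d j).ne'
    rw [Nat.factorial_succ]
    push_cast
    field_simp
  have hfg : (fun j : ℕ => ((d + 1) ! : ℝ) * β (j + 1)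
      - e * (((j : ℝ) + 1) ^ (d + 1) - (j : ℝ) ^ (d + 1)))
      =o[atTop] (fun j : ℕ => ((j : ℝ) + 1) ^ (d + 1) - (j : ℝ) ^ (d + 1)) := by
    rw [Asymptotics.isLittleO_iff_tendsto'
      (Eventually.of_forall (fun j hj => absurd hj (taskA_incr_pos d j).ne'))]
    have h4 := h2.sub_const e
    rw [sub_self] at h4
    refine h4.congr (fun j => ?_)
    have hg := (taskA_incr_pos d j).ne'
    field_simp
  have hsum := hfg.sum_range (fun j => (taskA_incr_pos d j).le) (by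
    simp only [hgsum]
    exact (tendsto_pow_atTop (Nat.succ_ne_zero d)).comp tendsto_natCast_atTop_atTop)
  simp only [hgsum, Finset.sum_sub_distrib, ← Finset.mul_sum] at hsum
  rw [Asymptotics.isLittleO_iff_tendsto' ?_] at hsum
  · have h5 := hsum.add_const e
    rw [zero_add] at h5
    refine h5.congr' ?_
    filter_upwards [eventually_gt_atTop 0] with N hN
    have hN' : ((N : ℝ)) ^ (d + 1) ≠ 0 := pow_ne_zero _ (Nat.cast_ne_zero.mpr hN.ne')
    field_simp
    ring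
  · filter_upwards [eventually_gt_atTop 0] with N hN hzero
    exact absurd hzero (pow_ne_zero _ (Nat.cast_ne_zero.mpr hN.ne'))

theorem taskA_ennreal (d : ℕ) (a : ℕ → ℝ≥0∞) (ha : ∀ N, a N ≠ ⊤) (e : ℝ≥0∞) (he : e ≠ ⊤)
    (h : Tendsto (fun N : ℕ => (d ! : ℝ≥0∞) * a N / (N : ℝ≥0∞) ^ d) atTop (𝓝 e)) :
    Tendsto (fun N : ℕ => ((d + 1) ! : ℝ≥0∞) * (∑ j ∈ Finset.range N, a (j + 1))
      / (N : ℝ≥0∞) ^ (d + 1)) atTop (𝓝 e) := by
  have h1 : Tendsto (fun N : ℕ => (d ! : ℝ) * (a N).toReal / (N : ℝ) ^ d) atTop (𝓝 e.toReal) := by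
    have h0 := (ENNReal.tendsto_toReal he).comp h
    refine h0.congr (fun N => ?_)
    simp only [Function.comp_apply, ENNReal.toReal_div, ENNReal.toReal_mul, ENNReal.toReal_pow,
      ENNReal.toReal_natCast]
  have h2 := ENNReal.tendsto_ofReal (taskA_real d (fun N => (a N).toReal) e.toReal h1)
  rw [ENNReal.ofReal_toReal he] at h2
  refine h2.congr' ?_
  filter_upwards [eventually_gt_atTop 0] with N hN
  have hfin : ((d + 1) ! : ℝ≥0∞) * (∑ j ∈ Finset.range N, a (j + 1)) / (N : ℝ≥0∞) ^ (d + 1) ≠ ⊤ := by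
    refine ENNReal.div_ne_top ?_ (pow_ne_zero _ (Nat.cast_ne_zero.mpr hN.ne'))
    exact ENNReal.mul_ne_top (ENNReal.natCast_ne_top _)
      (ENNReal.sum_ne_top.mpr (fun j _ => ha (j + 1)))
  rw [← ENNReal.ofReal_toReal hfin]
  congr 1
  rw [ENNReal.toReal_div, ENNReal.toReal_mul, ENNReal.toReal_pow, ENNReal.toReal_natCast,
    ENNReal.toReal_natCast, ENNReal.toReal_sum (fun j _ => ha (j + 1))]

end Vale.Agent.Lib.P202
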