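import Mathlib
namespace Vale.Agent.Lib.P202
open Filter Topology Nat
open scoped ENNReal

/-- `n / (n + 1) → 1` in the extended nonnegative reals. -/
lemma taskB_ratio_tendsto :
    Tendsto (fun N : ℕ => (N : ℝ≥0∞) / ((N + 1 : ℕ) : ℝ≥0∞)) atTop (𝓝 1) := by
  have h1 : Tendsto (fun N : ℕ => ENNReal.ofReal ((N : ℝ) / ((N : ℝ) + 1))) atTop
      (𝓝 (ENNReal.ofReal 1)) :=
    ENNReal.tendsto_ofReal (tendsto_natCast_div_add_atTop (1 : ℝ))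
  rw [ENNReal.ofReal_one] at h1
  refine h1.congr (fun N => ?_)
  have hpos : (0 : ℝ) < (N : ℝ) + 1 := by positivity
  rw [ENNReal.ofReal_div_of_pos hpos, ENNReal.ofReal_natCast]
  congr 1
  rw [show (N : ℝ) + 1 = ((N + 1 : ℕ) : ℝ) by push_cast; ring, ENNReal.ofReal_natCast]

theorem taskB_sandwich (D : ℕ) (b s : ℕ → ℝ≥0∞) (L e : ℝ≥0∞) (hL : L ≠ ⊤) (he : e ≠ ⊤)
    (hb : Tendsto (fun N : ℕ => (D ! : ℝ≥0∞) * b N / (N : ℝ≥0∞) ^ D) atTop (𝓝 e))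
    (h1 : ∀ N, b N * L ≤ s (N + 1)) (h2 : ∀ N, s (N + 1) ≤ b (N + 1) * L) :
    Tendsto (fun N : ℕ => (D ! : ℝ≥0∞) * s N / (N : ℝ≥0∞) ^ D) atTop (𝓝 (L * e)) := by
  refine (tendsto_add_atTop_iff_nat 1).mp ?_
  have hup : Tendsto (fun N : ℕ => L * ((D ! : ℝ≥0∞) * b (N + 1) / ((N + 1 : ℕ) : ℝ≥0∞) ^ D))
      atTop (𝓝 (L * e)) :=
    ENNReal.Tendsto.const_mul ((tendsto_add_atTop_iff_nat 1).mpr hb) (Or.inr hL)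
  have hlow : Tendsto (fun N : ℕ => L * ((D ! : ℝ≥0∞) * b N / (N : ℝ≥0∞) ^ D)
      * ((N : ℝ≥0∞) / ((N + 1 : ℕ) : ℝ≥0∞)) ^ D) atTop (𝓝 (L * e)) := by
    have h3 : Tendsto (fun N : ℕ => L * ((D ! : ℝ≥0∞) * b N / (N : ℝ≥0∞) ^ D)) atTop
        (𝓝 (L * e)) := ENNReal.Tendsto.const_mul hb (Or.inr hL)
    have h4 : Tendsto (fun N : ℕ => ((N : ℝ≥0∞) / ((N + 1 : ℕ) : ℝ≥0∞)) ^ D) atTop
        (𝓝 (1 ^ D)) := ENNReal.Tendsto.pow taskB_ratio_tendsto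
    rw [one_pow] at h4
    have h5 := ENNReal.Tendsto.mul h3 (Or.inr ENNReal.one_ne_top) h4 (Or.inl one_ne_zero)
    rwa [mul_one] at h5
  refine tendsto_of_tendsto_of_tendsto_of_le_of_le' hlow hup ?_ ?_
  · filter_upwards [eventually_gt_atTop 0] with N hN
    have hN0 : ((N : ℝ≥0∞)) ^ D ≠ 0 := pow_ne_zero _ (Nat.cast_ne_zero.mpr hN.ne')
    have hNt : ((N : ℝ≥0∞)) ^ D ≠ ⊤ := ENNReal.pow_ne_top (ENNReal.natCast_ne_top N)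
    calc L * ((D ! : ℝ≥0∞) * b N / (N : ℝ≥0∞) ^ D) * ((N : ℝ≥0∞) / ((N + 1 : ℕ) : ℝ≥0∞)) ^ D
        = (D ! : ℝ≥0∞) * (b N * L) * (((N : ℝ≥0∞) ^ D)⁻¹ * (N : ℝ≥0∞) ^ D)
            * ((((N + 1 : ℕ) : ℝ≥0∞)) ^ D)⁻¹ := by
          simp only [div_eq_mul_inv, mul_pow, ENNReal.inv_pow]
          ring
      _ = (D ! : ℝ≥0∞) * (b N * L) / (((N + 1 : ℕ) : ℝ≥0∞)) ^ D := by
          rw [ENNReal.inv_mul_cancel hN0 hNt, mul_one, div_eq_mul_inv]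
      _ ≤ (D ! : ℝ≥0∞) * s (N + 1) / (((N + 1 : ℕ) : ℝ≥0∞)) ^ D :=
          ENNReal.div_le_div_right (mul_le_mul_right (h1 N) _) _
  · filter_upwards with N
    calc (D ! : ℝ≥0∞) * s (N + 1) / (((N + 1 : ℕ) : ℝ≥0∞)) ^ D
        ≤ (D ! : ℝ≥0∞) * (b (N + 1) * L) / (((N + 1 : ℕ) : ℝ≥0∞)) ^ D :=
          ENNReal.div_le_div_right (mul_le_mul_right (h2 N) _) _
      _ = L * ((D ! : ℝ≥0∞) * b (N + 1) / ((N + 1 : ℕ) : ℝ≥0∞) ^ D) := by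
          rw [div_eq_mul_inv, div_eq_mul_inv]
          ring

end Vale.Agent.Lib.P202
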