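import Vale.Agent.Lib.P202.OneDimFibre
import Vale.Agent.Lib.P202.TaskA
import Vale.Agent.Lib.P202.TaskB

/-!
# Flat local maps whose closed fibre is Cohen-Macaulay of minimal multiplicity

Setting: a flat local homomorphism `(R, m) → (S, n)` of Noetherian local rings and a finite
family `y` of elements of `n` such that every `y k` is a nonzerodivisor modulo
`m S + (y i : i ∈ T)` for every finite set `T` not containing `k`.
-/

namespace Vale.Agent.Lib.P202

open IsLocalRing Filter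

section quotient

variable {R S : Type*} [CommRing R] [CommRing S] [IsLocalRing R] [IsLocalRing S]
  [Algebra R S] [IsLocalHom (algebraMap R S)]

omit [IsLocalRing R] [IsLocalHom (algebraMap R S)] [Algebra R S] in
lemma isLocalRing_quotient {𝔠 : Ideal S} (h𝔠 : 𝔠 ≤ maximalIdeal S) :
    IsLocalRing (S ⧸ 𝔠) := by
  have hne : 𝔠 ≠ ⊤ := by
    intro h
    rw [h] at h𝔠
    exact Ideal.IsPrime.ne_top' (top_le_iff.mp h𝔠)
  have : Nontrivial (S ⧸ 𝔠) := Ideal.Quotient.nontrivial_iff.mpr hne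
  exact IsLocalRing.of_surjective' (Ideal.Quotient.mk _) Ideal.Quotient.mk_surjective

omit [IsLocalRing R] in
lemma isLocalHom_quotient {𝔠 : Ideal S} (h𝔠 : 𝔠 ≤ maximalIdeal S) :
    IsLocalHom (algebraMap R (S ⧸ 𝔠)) := by
  have hne : 𝔠 ≠ ⊤ := by
    intro h
    rw [h] at h𝔠
    exact Ideal.IsPrime.ne_top' (top_le_iff.mp h𝔠)
  have : Nontrivial (S ⧸ 𝔠) := Ideal.Quotient.nontrivial_iff.mpr hne
  have : IsLocalHom (Ideal.Quotient.mk 𝔠) :=
    IsLocalHom.of_surjective _ Ideal.Quotient.mk_surjective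
  have h : algebraMap R (S ⧸ 𝔠) = (Ideal.Quotient.mk 𝔠).comp (algebraMap R S) := rfl
  rw [h]
  infer_instance

omit [IsLocalRing R] [IsLocalRing S] [IsLocalHom (algebraMap R S)] in
lemma map_algebraMap_quotient (𝔠 : Ideal S) (𝔞 : Ideal R) :
    𝔞.map (algebraMap R (S ⧸ 𝔠)) = (𝔞.map (algebraMap R S)).map (Ideal.Quotient.mk 𝔠) := by
  rw [Ideal.map_map]
  rfl

omit [IsLocalRing R] [IsLocalRing S] [IsLocalHom (algebraMap R S)] in
lemma mk_mem_map_quotient (𝔠 : Ideal S) (𝔞 : Ideal R) (s : S) :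
    Ideal.Quotient.mk 𝔠 s ∈ 𝔞.map (algebraMap R (S ⧸ 𝔠)) ↔
      s ∈ 𝔞.map (algebraMap R S) ⊔ 𝔠 := by
  rw [map_algebraMap_quotient, Ideal.mem_quotient_iff_mem_sup]

omit [IsLocalRing R] [IsLocalRing S] [IsLocalHom (algebraMap R S)] in
/-- Lengths over `S / 𝔠` of quotients by extended ideals, computed over `S`. -/
lemma length_quotient_map (𝔠 : Ideal S) (𝔞 : Ideal R) :
    Module.length (S ⧸ 𝔠) ((S ⧸ 𝔠) ⧸ 𝔞.map (algebraMap R (S ⧸ 𝔠))) =
      Module.length S (S ⧸ (𝔠 ⊔ 𝔞.map (algebraMap R S))) := by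
  have e : 𝔞.map (algebraMap R (S ⧸ 𝔠)) =
      (𝔞.map (algebraMap R S)).map (Ideal.Quotient.mkₐ S 𝔠) := by
    change _ = Ideal.map (Ideal.Quotient.mk 𝔠) (Ideal.map (algebraMap R S) 𝔞)
    rw [Ideal.map_map]
    rfl
  rw [e, ← Module.length_eq_of_surjective (S := S) (R := S ⧸ 𝔠)
    Ideal.Quotient.mk_surjective]
  exact (DoubleQuot.quotQuotEquivQuotSupₐ S 𝔠
    (𝔞.map (algebraMap R S))).toLinearEquiv.length_eq

/-- If `S / 𝔠` is flat over `R` and `z` is a nonzerodivisor modulo `m S + 𝔠`, then `z` is a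
nonzerodivisor modulo `𝔞 S + 𝔠` for every ideal `𝔞` of `R`. -/
lemma mem_map_sup_of_mul_mem_map_sup [IsNoetherianRing R] [IsNoetherianRing S]
    {𝔠 : Ideal S} (h𝔠 : 𝔠 ≤ maximalIdeal S) [Module.Flat R (S ⧸ 𝔠)] (z : S)
    (hz : ∀ s : S, z * s ∈ (maximalIdeal R).map (algebraMap R S) ⊔ 𝔠 →
      s ∈ (maximalIdeal R).map (algebraMap R S) ⊔ 𝔠)
    (𝔞 : Ideal R) (s : S) (hs : z * s ∈ 𝔞.map (algebraMap R S) ⊔ 𝔠) :
    s ∈ 𝔞.map (algebraMap R S) ⊔ 𝔠 := by
  have := isLocalRing_quotient h𝔠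
  have : IsLocalHom (algebraMap R (S ⧸ 𝔠)) := isLocalHom_quotient h𝔠
  have hz' : ∀ s' : S ⧸ 𝔠, Ideal.Quotient.mk 𝔠 z * s' ∈
      (maximalIdeal R).map (algebraMap R (S ⧸ 𝔠)) →
      s' ∈ (maximalIdeal R).map (algebraMap R (S ⧸ 𝔠)) := by
    intro s' hs'
    obtain ⟨s', rfl⟩ := Ideal.Quotient.mk_surjective s'
    rw [← map_mul, mk_mem_map_quotient] at hs'
    rw [mk_mem_map_quotient]
    exact hz s' hs'
  have h1 := mem_map_of_mul_mem_map (Ideal.Quotient.mk 𝔠 z) hz' 𝔞 (Ideal.Quotient.mk 𝔠 s)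
    (by rw [← map_mul, mk_mem_map_quotient]; exact hs)
  rwa [mk_mem_map_quotient] at h1

/-- If `S / 𝔠` is flat over `R` and `y` is a nonzerodivisor modulo `m S + 𝔠`, then
`S / (𝔠 + y S)` is flat over `R`. -/
lemma flat_quotient_sup_span [IsNoetherianRing R] [IsNoetherianRing S]
    {𝔠 : Ideal S} (h𝔠 : 𝔠 ≤ maximalIdeal S) [Module.Flat R (S ⧸ 𝔠)] (y : S)
    (hy : ∀ s : S, y * s ∈ (maximalIdeal R).map (algebraMap R S) ⊔ 𝔠 →
      s ∈ (maximalIdeal R).map (algebraMap R S) ⊔ 𝔠) :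
    Module.Flat R (S ⧸ (𝔠 ⊔ Ideal.span {y})) := by
  have := isLocalRing_quotient h𝔠
  have : IsLocalHom (algebraMap R (S ⧸ 𝔠)) := isLocalHom_quotient h𝔠
  have hy' : ∀ s' : S ⧸ 𝔠, Ideal.Quotient.mk 𝔠 y * s' ∈
      (maximalIdeal R).map (algebraMap R (S ⧸ 𝔠)) →
      s' ∈ (maximalIdeal R).map (algebraMap R (S ⧸ 𝔠)) := by
    intro s' hs'
    obtain ⟨s', rfl⟩ := Ideal.Quotient.mk_surjective s'
    rw [← map_mul, mk_mem_map_quotient] at hs'
    rw [mk_mem_map_quotient]
    exact hy s' hs'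
  have hflat : Module.Flat R ((S ⧸ 𝔠) ⧸ Ideal.span {Ideal.Quotient.mk 𝔠 y}) :=
    flat_quotient_span_singleton _ hy'
  have e : (Ideal.span {y}).map (Ideal.Quotient.mkₐ R 𝔠) =
      Ideal.span {Ideal.Quotient.mk 𝔠 y} := by
    rw [Ideal.map_span, Set.image_singleton]
    rfl
  rw [← e] at hflat
  exact Module.Flat.of_linearEquiv
    (DoubleQuot.quotQuotEquivQuotSupₐ R 𝔠 (Ideal.span {y})).symm.toLinearEquiv

/-- Flat base change of lengths for the quotient `S / 𝔠`, computed over `S`. -/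
lemma length_quot_sup_map_of_flat {𝔠 : Ideal S} (h𝔠 : 𝔠 ≤ maximalIdeal S)
    [Module.Flat R (S ⧸ 𝔠)] (𝔮 : Ideal R) :
    Module.length S (S ⧸ (𝔠 ⊔ 𝔮.map (algebraMap R S))) =
      Module.length R (R ⧸ 𝔮) *
        Module.length S (S ⧸ (𝔠 ⊔ (maximalIdeal R).map (algebraMap R S))) := by
  have := isLocalRing_quotient h𝔠
  have : IsLocalHom (algebraMap R (S ⧸ 𝔠)) := isLocalHom_quotient h𝔠
  rw [← length_quotient_map, ← length_quotient_map, length_quot_map]

/-- If `S / 𝔠` is flat over `R` and `y ∈ n` is a nonzerodivisor modulo `m S + 𝔠`, then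
`dim S / (𝔠 + y S) + 1 = dim S / 𝔠`. -/
lemma ringKrullDim_quotient_sup_span [IsNoetherianRing R] [IsNoetherianRing S]
    {𝔠 : Ideal S} (h𝔠 : 𝔠 ≤ maximalIdeal S) [Module.Flat R (S ⧸ 𝔠)] (y : S)
    (hyn : y ∈ maximalIdeal S)
    (hy : ∀ s : S, y * s ∈ (maximalIdeal R).map (algebraMap R S) ⊔ 𝔠 →
      s ∈ (maximalIdeal R).map (algebraMap R S) ⊔ 𝔠) :
    ringKrullDim (S ⧸ (𝔠 ⊔ Ideal.span {y})) + 1 = ringKrullDim (S ⧸ 𝔠) := by
  have := isLocalRing_quotient h𝔠
  have hreg : IsSMulRegular (S ⧸ 𝔠) (Ideal.Quotient.mk 𝔠 y) := by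
    intro a b hab
    obtain ⟨a, rfl⟩ := Ideal.Quotient.mk_surjective a
    obtain ⟨b, rfl⟩ := Ideal.Quotient.mk_surjective b
    have h1 : Ideal.Quotient.mk 𝔠 (y * (a - b)) = 0 := by
      have h2 : Ideal.Quotient.mk 𝔠 y * Ideal.Quotient.mk 𝔠 a =
          Ideal.Quotient.mk 𝔠 y * Ideal.Quotient.mk 𝔠 b := hab
      rw [map_mul, map_sub, mul_sub, h2, sub_self]
    rw [Ideal.Quotient.eq_zero_iff_mem] at h1
    have h3 : y * (a - b) ∈ (⊥ : Ideal R).map (algebraMap R S) ⊔ 𝔠 := Ideal.mem_sup_right h1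
    have h4 := mem_map_sup_of_mul_mem_map_sup h𝔠 y hy ⊥ (a - b) h3
    rw [Ideal.map_bot, bot_sup_eq] at h4
    rw [← sub_eq_zero, ← map_sub, Ideal.Quotient.eq_zero_iff_mem]
    exact h4
  have hmem : Ideal.Quotient.mk 𝔠 y ∈ maximalIdeal (S ⧸ 𝔠) := by
    rw [mem_maximalIdeal, mem_nonunits_iff]
    intro hu
    have hloc : IsLocalHom (Ideal.Quotient.mk 𝔠) :=
      IsLocalHom.of_surjective _ Ideal.Quotient.mk_surjective
    exact ((mem_maximalIdeal _).mp hyn) (isUnit_of_map_unit (Ideal.Quotient.mk 𝔠) y hu)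
  have h5 := ringKrullDim_quotient_span_singleton_succ_eq_ringKrullDim hreg hmem
  have e : (Ideal.span {y}).map (Ideal.Quotient.mk 𝔠) =
      Ideal.span {Ideal.Quotient.mk 𝔠 y} := by
    rw [Ideal.map_span, Set.image_singleton]
  rw [← e] at h5
  rw [← h5, ringKrullDim_eq_of_ringEquiv (DoubleQuot.quotQuotEquivQuotSup 𝔠 (Ideal.span {y}))]

/-- If `S / 𝔠` is flat over `R` and a power of `n` lies in `m S + 𝔠`, then
`dim S / 𝔠 = dim R`. -/
lemma ringKrullDim_quotient_eq_of_flat [IsNoetherianRing R] [IsNoetherianRing S]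
    {𝔠 : Ideal S} (h𝔠 : 𝔠 ≤ maximalIdeal S) [Module.Flat R (S ⧸ 𝔠)] (j : ℕ)
    (h : maximalIdeal S ^ j ≤ (maximalIdeal R).map (algebraMap R S) ⊔ 𝔠) :
    ringKrullDim (S ⧸ 𝔠) = ringKrullDim R := by
  have := isLocalRing_quotient h𝔠
  have : IsLocalHom (algebraMap R (S ⧸ 𝔠)) := isLocalHom_quotient h𝔠
  have hmax : maximalIdeal (S ⧸ 𝔠) = (maximalIdeal S).map (Ideal.Quotient.mk 𝔠) := by
    have hloc : IsLocalHom (Ideal.Quotient.mk 𝔠) :=
      IsLocalHom.of_surjective _ Ideal.Quotient.mk_surjective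
    ext x
    obtain ⟨x, rfl⟩ := Ideal.Quotient.mk_surjective x
    rw [mem_maximalIdeal, mem_nonunits_iff, isUnit_map_iff,
      Ideal.mem_map_iff_of_surjective _ Ideal.Quotient.mk_surjective]
    constructor
    · intro hx
      exact ⟨x, hx, rfl⟩
    · rintro ⟨x', hx', hxx'⟩
      have h5 : x - x' ∈ 𝔠 := by
        rw [← Ideal.Quotient.eq_zero_iff_mem, map_sub, hxx', sub_self]
      have h6 : x = x' + (x - x') := by ring
      have h7 : x ∈ maximalIdeal S := by
        rw [h6]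
        exact Ideal.add_mem _ hx' (h𝔠 h5)
      exact h7
  have h2 : maximalIdeal (S ⧸ 𝔠) ^ j ≤ (maximalIdeal R).map (algebraMap R (S ⧸ 𝔠)) := by
    rw [hmax, ← Ideal.map_pow, map_algebraMap_quotient]
    refine (Ideal.map_mono h).trans ?_
    rw [Ideal.map_sup]
    apply sup_le le_rfl
    have : Ideal.map (Ideal.Quotient.mk 𝔠) 𝔠 = ⊥ := by
      rw [Ideal.map_eq_bot_iff_le_ker, Ideal.mk_ker]
    rw [this]
    exact bot_le
  have h3 := Ideal.height_eq_height_add_of_liesOver_of_hasGoingDown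
    (maximalIdeal R) (maximalIdeal (S ⧸ 𝔠))
  rw [height_map_mk_eq_zero j h2, add_zero] at h3
  rw [← maximalIdeal_height_eq_ringKrullDim, ← maximalIdeal_height_eq_ringKrullDim, h3]

end quotient

section ideals

variable {A : Type*} [CommRing A]

/-- `(I + y A)^(j+1) + Y ≤ I^(j+1) + (Y + y A)`. -/
lemma sup_span_pow_succ_sup_le (I Y : Ideal A) (y : A) (j : ℕ) :
    (I ⊔ Ideal.span {y}) ^ (j + 1) ⊔ Y ≤ I ^ (j + 1) ⊔ (Y ⊔ Ideal.span {y}) := by
  have h1 : (Ideal.span {y} : Ideal A) ≤ I ^ (j + 1) ⊔ (Y ⊔ Ideal.span {y}) := by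
    intro a ha
    exact Ideal.mem_sup_right (Ideal.mem_sup_right ha)
  have h2 : Y ≤ I ^ (j + 1) ⊔ (Y ⊔ Ideal.span {y}) := by
    intro a ha
    exact Ideal.mem_sup_right (Ideal.mem_sup_left ha)
  have h3 : I ^ (j + 1) ≤ I ^ (j + 1) ⊔ (Y ⊔ Ideal.span {y}) := le_sup_left
  have h4 : Ideal.span {y} * (I ⊔ Ideal.span {y}) ^ j ≤ Ideal.span {y} := Ideal.mul_le_left
  exact sup_le ((sup_pow_succ_le I (Ideal.span {y}) j).trans (sup_le (h4.trans h1) h3)) h2

/-- `y ((I + y A)^j + Y) ≤ (I + y A)^(j+1) + Y`. -/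
lemma mul_mem_sup_span_pow_succ_sup (I Y : Ideal A) (y : A) (j : ℕ) (a : A)
    (ha : a ∈ (I ⊔ Ideal.span {y}) ^ j ⊔ Y) :
    y * a ∈ (I ⊔ Ideal.span {y}) ^ (j + 1) ⊔ Y := by
  obtain ⟨p, hp, c, hc, rfl⟩ := Submodule.mem_sup.mp ha
  rw [mul_add]
  apply Ideal.add_mem
  · apply Ideal.mem_sup_left
    rw [pow_succ']
    exact Ideal.mul_mem_mul (Ideal.mem_sup_right (Ideal.mem_span_singleton_self y)) hp
  · exact Ideal.mem_sup_right (Ideal.mul_mem_left _ _ hc)

/-- The colon step: if `y` is a nonzerodivisor modulo `I^(j+1) + Y`, then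
`y u ∈ (I + y A)^(j+1) + Y` implies `u ∈ (I + y A)^j + Y`. -/
lemma mem_sup_span_pow_sup_of_mul_mem (I Y : Ideal A) (y : A) (j : ℕ)
    (hreg : ∀ s : A, y * s ∈ I ^ (j + 1) ⊔ Y → s ∈ I ^ (j + 1) ⊔ Y)
    (u : A) (hu : y * u ∈ (I ⊔ Ideal.span {y}) ^ (j + 1) ⊔ Y) :
    u ∈ (I ⊔ Ideal.span {y}) ^ j ⊔ Y := by
  obtain ⟨p, hp, c, hc, hpc⟩ := Submodule.mem_sup.mp hu
  obtain ⟨p1, hp1, b, hb, hpb⟩ := Submodule.mem_sup.mp (sup_pow_succ_le I (Ideal.span {y}) j hp)
  obtain ⟨a, ha, hap⟩ := Ideal.mem_span_singleton_mul.mp hp1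
  have h2 : y * (u - a) ∈ I ^ (j + 1) ⊔ Y := by
    have : y * (u - a) = b + c := by
      rw [mul_sub, ← hpc, ← hpb, hap]
      ring
    rw [this]
    exact Ideal.add_mem _ (Ideal.mem_sup_left hb) (Ideal.mem_sup_right hc)
  have h3 := hreg _ h2
  have h4 : u = a + (u - a) := by ring
  rw [h4]
  apply Ideal.add_mem _ (Ideal.mem_sup_left ha)
  have h5 : I ^ (j + 1) ⊔ Y ≤ (I ⊔ Ideal.span {y}) ^ j ⊔ Y :=
    sup_le_sup_right ((Ideal.pow_le_pow_right (Nat.le_succ j)).trans
      (Ideal.pow_right_mono le_sup_left j)) Y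
  exact h5 h3

/-- The inductive step for regularity modulo powers. -/
lemma regular_sup_span_pow_succ_sup (I Y : Ideal A) (y z : A) (j : ℕ)
    (h1 : ∀ s : A, z * s ∈ I ^ (j + 1) ⊔ (Y ⊔ Ideal.span {y}) →
      s ∈ I ^ (j + 1) ⊔ (Y ⊔ Ideal.span {y}))
    (h2 : ∀ u : A, y * u ∈ (I ⊔ Ideal.span {y}) ^ (j + 1) ⊔ Y →
      u ∈ (I ⊔ Ideal.span {y}) ^ j ⊔ Y)
    (h3 : ∀ s : A, z * s ∈ (I ⊔ Ideal.span {y}) ^ j ⊔ Y → s ∈ (I ⊔ Ideal.span {y}) ^ j ⊔ Y)
    (s : A) (hs : z * s ∈ (I ⊔ Ideal.span {y}) ^ (j + 1) ⊔ Y) :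
    s ∈ (I ⊔ Ideal.span {y}) ^ (j + 1) ⊔ Y := by
  have h4 := h1 s (sup_span_pow_succ_sup_le I Y y j hs)
  rw [← sup_assoc] at h4
  obtain ⟨q, hq, r, hr, hqr⟩ := Submodule.mem_sup.mp h4
  obtain ⟨s', rfl⟩ := Ideal.mem_span_singleton'.mp hr
  have hq' : q ∈ (I ⊔ Ideal.span {y}) ^ (j + 1) ⊔ Y :=
    sup_le_sup_right (Ideal.pow_right_mono le_sup_left (j + 1)) Y hq
  have h5 : y * (z * s') ∈ (I ⊔ Ideal.span {y}) ^ (j + 1) ⊔ Y := by
    have : y * (z * s') = z * s - z * q := by
      rw [← hqr]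
      ring
    rw [this]
    exact Ideal.sub_mem _ hs (Ideal.mul_mem_left _ _ hq')
  have h6 := h3 _ (h2 _ h5)
  rw [← hqr]
  apply Ideal.add_mem _ hq'
  rw [mul_comm]
  exact mul_mem_sup_span_pow_succ_sup I Y y j s' h6

/-- The length recursion along multiplication by `y`. -/
lemma length_quot_sup_span_pow_succ_sup (I Y : Ideal A) (y : A) (N : ℕ)
    (hcol : ∀ u : A, y * u ∈ (I ⊔ Ideal.span {y}) ^ (N + 1) ⊔ Y →
      u ∈ (I ⊔ Ideal.span {y}) ^ N ⊔ Y) :
    Module.length A (A ⧸ ((I ⊔ Ideal.span {y}) ^ (N + 1) ⊔ Y)) =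
      Module.length A (A ⧸ ((I ⊔ Ideal.span {y}) ^ N ⊔ Y)) +
        Module.length A (A ⧸ (I ^ (N + 1) ⊔ (Y ⊔ Ideal.span {y}))) := by
  set Q : Ideal A := (I ⊔ Ideal.span {y}) ^ (N + 1) ⊔ Y with hQ
  set Q0 : Ideal A := (I ⊔ Ideal.span {y}) ^ N ⊔ Y with hQ0
  set Q1 : Ideal A := I ^ (N + 1) ⊔ (Y ⊔ Ideal.span {y}) with hQ1
  have hle : Q ≤ Q1 := sup_span_pow_succ_sup_le I Y y N
  have hcomap : Q0 ≤ Submodule.comap (LinearMap.mulLeft A y) Q := by
    intro a ha
    rw [Submodule.mem_comap]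
    exact mul_mem_sup_span_pow_succ_sup I Y y N a ha
  have hinj : Function.Injective (Submodule.mapQ Q0 Q (LinearMap.mulLeft A y) hcomap) := by
    rw [injective_iff_map_eq_zero]
    intro x hx
    obtain ⟨s, rfl⟩ := Submodule.Quotient.mk_surjective _ x
    rw [Submodule.mapQ_apply, Submodule.Quotient.mk_eq_zero] at hx
    rw [Submodule.Quotient.mk_eq_zero]
    exact hcol s hx
  have hexact : Function.Exact (Submodule.mapQ Q0 Q (LinearMap.mulLeft A y) hcomap)
      (Submodule.factor hle) := by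
    intro x
    obtain ⟨s, rfl⟩ := Submodule.Quotient.mk_surjective _ x
    constructor
    · intro hx
      have hx2 : (Submodule.Quotient.mk s : A ⧸ Q1) = 0 := hx
      rw [Submodule.Quotient.mk_eq_zero, hQ1, ← sup_assoc] at hx2
      obtain ⟨p, hp, c, hc, hpc⟩ := Submodule.mem_sup.mp hx2
      obtain ⟨a, hap⟩ := Ideal.mem_span_singleton'.mp hc
      refine ⟨Submodule.Quotient.mk a, ?_⟩
      rw [Submodule.mapQ_apply, Submodule.Quotient.eq]
      have h1 : (LinearMap.mulLeft A y) a - s = -p := by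
        rw [LinearMap.mulLeft_apply, ← hpc, ← hap]
        ring
      rw [h1]
      apply neg_mem
      exact sup_le_sup_right (Ideal.pow_right_mono le_sup_left (N + 1)) Y hp
    · rintro ⟨x', hx'⟩
      obtain ⟨a, rfl⟩ := Submodule.Quotient.mk_surjective _ x'
      rw [← hx', Submodule.mapQ_apply]
      change (Submodule.Quotient.mk ((LinearMap.mulLeft A y) a) : A ⧸ Q1) = 0
      rw [Submodule.Quotient.mk_eq_zero]
      apply Ideal.mem_sup_right
      apply Ideal.mem_sup_right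
      rw [LinearMap.mulLeft_apply]
      exact Ideal.mul_mem_right _ _ (Ideal.mem_span_singleton_self y)
  exact Module.length_eq_add_of_exact _ _ hinj (Submodule.factor_surjective hle) hexact

end ideals

section family

variable {R S : Type*} [CommRing R] [CommRing S] [IsLocalRing R] [IsLocalRing S]
  [Algebra R S] [IsLocalHom (algebraMap R S)] {ι : Type*}

/-- The ideal `m S + (y i : i ∈ T)` of `S`. -/
def fibreIdeal (R : Type*) {S : Type*} [CommRing R] [CommRing S] [IsLocalRing R] [Algebra R S]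
    {ι : Type*} (y : ι → S) (T : Finset ι) : Ideal S :=
  (maximalIdeal R).map (algebraMap R S) ⊔ Ideal.span (y '' (T : Set ι))

/-- Iterated summation: `iterSum f 0 = f` and
`iterSum f (t + 1) N = ∑_{j < N} iterSum f t (j + 1)`. -/
def iterSum (f : ℕ → ℕ∞) : ℕ → ℕ → ℕ∞
  | 0, N => f N
  | t + 1, N => ∑ j ∈ Finset.range N, iterSum f t (j + 1)

omit [IsLocalRing S] in
lemma span_image_insert [DecidableEq ι] (y : ι → S) (k : ι) (T : Finset ι) :
    Ideal.span (y '' ((insert k T : Finset ι) : Set ι)) =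
      Ideal.span (y '' (T : Set ι)) ⊔ Ideal.span {y k} := by
  rw [Finset.coe_insert, Set.image_insert_eq, Ideal.span_insert, sup_comm]

omit [IsLocalRing S] [IsLocalHom (algebraMap R S)] in
lemma fibreIdeal_empty (y : ι → S) :
    fibreIdeal R y ∅ = (maximalIdeal R).map (algebraMap R S) := by
  simp [fibreIdeal]

omit [IsLocalRing S] [IsLocalHom (algebraMap R S)] in
lemma fibreIdeal_insert [DecidableEq ι] (y : ι → S) (k : ι) (T : Finset ι) :
    fibreIdeal R y (insert k T) = fibreIdeal R y T ⊔ Ideal.span {y k} := by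
  rw [fibreIdeal, fibreIdeal, span_image_insert, sup_assoc]

omit [IsLocalRing R] [IsLocalHom (algebraMap R S)] [Algebra R S] in
lemma span_image_le (y : ι → S) (hyn : ∀ k, y k ∈ maximalIdeal S) (T : Finset ι) :
    Ideal.span (y '' (T : Set ι)) ≤ maximalIdeal S := by
  rw [Ideal.span_le]
  rintro _ ⟨k, -, rfl⟩
  exact hyn k

lemma fibreIdeal_le (y : ι → S) (hyn : ∀ k, y k ∈ maximalIdeal S) (T : Finset ι) :
    fibreIdeal R y T ≤ maximalIdeal S :=
  sup_le map_maximalIdeal_le (span_image_le y hyn T)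

/-- The quotient of `S` by part of the family is flat over `R`. -/
lemma flat_quotient_span_image [IsNoetherianRing R] [IsNoetherianRing S] [Module.Flat R S]
    (y : ι → S) (hyn : ∀ k, y k ∈ maximalIdeal S)
    (hreg : ∀ (T : Finset ι) (k : ι), k ∉ T →
      ∀ s : S, y k * s ∈ fibreIdeal R y T → s ∈ fibreIdeal R y T)
    (T : Finset ι) : Module.Flat R (S ⧸ Ideal.span (y '' (T : Set ι))) := by
  classical
  induction T using Finset.induction_on with
  | empty =>
    have h : Ideal.span (y '' ((∅ : Finset ι) : Set ι)) = ⊥ := by simp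
    exact Module.Flat.of_linearEquiv ((Submodule.quotEquivOfEqBot _ h).restrictScalars R)
  | insert k T hk ih =>
    rw [span_image_insert]
    have := ih
    exact flat_quotient_sup_span (span_image_le y hyn T) (y k) (hreg T k hk)

/-- An element that is a nonzerodivisor modulo `m S + (y i : i ∈ T)` is a nonzerodivisor
modulo `𝔞 S + (y i : i ∈ T)` for every ideal `𝔞` of `R`. -/
lemma regular_map_sup_span_image [IsNoetherianRing R] [IsNoetherianRing S] [Module.Flat R S]
    (y : ι → S) (hyn : ∀ k, y k ∈ maximalIdeal S)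
    (hreg : ∀ (T : Finset ι) (k : ι), k ∉ T →
      ∀ s : S, y k * s ∈ fibreIdeal R y T → s ∈ fibreIdeal R y T)
    (T : Finset ι) (z : S)
    (hz : ∀ s : S, z * s ∈ fibreIdeal R y T → s ∈ fibreIdeal R y T)
    (𝔞 : Ideal R) (s : S)
    (hs : z * s ∈ 𝔞.map (algebraMap R S) ⊔ Ideal.span (y '' (T : Set ι))) :
    s ∈ 𝔞.map (algebraMap R S) ⊔ Ideal.span (y '' (T : Set ι)) := by
  have := flat_quotient_span_image y hyn hreg T
  exact mem_map_sup_of_mul_mem_map_sup (span_image_le y hyn T) z hz 𝔞 s hs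

/-- Regularity modulo powers: an element that is a nonzerodivisor modulo
`m S + (y i : i ∈ T1 ∪ T2)` is a nonzerodivisor modulo
`(m S + (y i : i ∈ T1))^j + (y i : i ∈ T2)`. -/
lemma regular_fibreIdeal_pow_sup [DecidableEq ι] [IsNoetherianRing R] [IsNoetherianRing S]
    [Module.Flat R S] (y : ι → S) (hyn : ∀ k, y k ∈ maximalIdeal S)
    (hreg : ∀ (T : Finset ι) (k : ι), k ∉ T →
      ∀ s : S, y k * s ∈ fibreIdeal R y T → s ∈ fibreIdeal R y T) :
    ∀ (T1 T2 : Finset ι), Disjoint T1 T2 → ∀ z : S,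
      (∀ s : S, z * s ∈ fibreIdeal R y (T1 ∪ T2) → s ∈ fibreIdeal R y (T1 ∪ T2)) →
      ∀ (j : ℕ) (s : S), z * s ∈ fibreIdeal R y T1 ^ j ⊔ Ideal.span (y '' (T2 : Set ι)) →
        s ∈ fibreIdeal R y T1 ^ j ⊔ Ideal.span (y '' (T2 : Set ι)) := by
  intro T1
  induction T1 using Finset.induction_on with
  | empty =>
    intro T2 _ z hz j s hs
    rw [fibreIdeal_empty, ← Ideal.map_pow] at hs ⊢
    rw [Finset.empty_union] at hz
    exact regular_map_sup_span_image y hyn hreg T2 z hz _ s hs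
  | insert k T1 hk ih =>
    intro T2 hdisj z hz j
    have hk2 : k ∉ T2 := Finset.disjoint_left.mp hdisj (Finset.mem_insert_self k T1)
    have hd1 : Disjoint T1 T2 :=
      Finset.disjoint_of_subset_left (Finset.subset_insert k T1) hdisj
    have hd2 : Disjoint T1 (insert k T2) := by
      rw [Finset.disjoint_insert_right]
      exact ⟨hk, hd1⟩
    have hun : T1 ∪ insert k T2 = insert k T1 ∪ T2 := by
      rw [Finset.union_insert, Finset.insert_union]
    have hcol : ∀ (j : ℕ) (u : S), y k * u ∈ (fibreIdeal R y T1 ⊔ Ideal.span {y k}) ^ (j + 1) ⊔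
        Ideal.span (y '' (T2 : Set ι)) →
        u ∈ (fibreIdeal R y T1 ⊔ Ideal.span {y k}) ^ j ⊔ Ideal.span (y '' (T2 : Set ι)) := by
      intro j u hu
      refine mem_sup_span_pow_sup_of_mul_mem _ _ _ j ?_ u hu
      exact ih T2 hd1 (y k) (hreg (T1 ∪ T2) k (by simp [hk, hk2])) (j + 1)
    induction j with
    | zero =>
      intro s _
      rw [pow_zero, Ideal.one_eq_top, top_sup_eq]
      trivial
    | succ j ihj =>
      intro s hs
      rw [fibreIdeal_insert] at hs ihj ⊢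
      refine regular_sup_span_pow_succ_sup _ _ (y k) z j ?_ (hcol j) ihj s hs
      have h1 := ih (insert k T2) hd2 z (by rw [hun]; exact hz) (j + 1)
      rw [span_image_insert] at h1
      exact h1

/-- The colon step for the family. -/
lemma mem_fibreIdeal_pow_sup_of_mul_mem [DecidableEq ι] [IsNoetherianRing R]
    [IsNoetherianRing S] [Module.Flat R S] (y : ι → S) (hyn : ∀ k, y k ∈ maximalIdeal S)
    (hreg : ∀ (T : Finset ι) (k : ι), k ∉ T →
      ∀ s : S, y k * s ∈ fibreIdeal R y T → s ∈ fibreIdeal R y T)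
    (k : ι) (T1 T2 : Finset ι) (hk : k ∉ T1) (hk2 : k ∉ T2) (hd : Disjoint T1 T2)
    (j : ℕ) (u : S)
    (hu : y k * u ∈ (fibreIdeal R y T1 ⊔ Ideal.span {y k}) ^ (j + 1) ⊔
      Ideal.span (y '' (T2 : Set ι))) :
    u ∈ (fibreIdeal R y T1 ⊔ Ideal.span {y k}) ^ j ⊔ Ideal.span (y '' (T2 : Set ι)) := by
  refine mem_sup_span_pow_sup_of_mul_mem _ _ _ j ?_ u hu
  exact regular_fibreIdeal_pow_sup y hyn hreg T1 T2 hd (y k)
    (hreg (T1 ∪ T2) k (by simp [hk, hk2])) (j + 1)

/-- The Hilbert function of the filtration by powers of `m S + (y i : i ∈ T1)`, modulo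
`(y i : i ∈ T2)`. -/
lemma length_quot_fibreIdeal_pow_sup [DecidableEq ι] [IsNoetherianRing R] [IsNoetherianRing S]
    [Module.Flat R S] (y : ι → S) (hyn : ∀ k, y k ∈ maximalIdeal S)
    (hreg : ∀ (T : Finset ι) (k : ι), k ∉ T →
      ∀ s : S, y k * s ∈ fibreIdeal R y T → s ∈ fibreIdeal R y T) :
    ∀ (T1 T2 : Finset ι), Disjoint T1 T2 → ∀ N : ℕ,
      Module.length S (S ⧸ (fibreIdeal R y T1 ^ N ⊔ Ideal.span (y '' (T2 : Set ι)))) =
        iterSum (fun N => Module.length R (R ⧸ maximalIdeal R ^ N)) T1.card N *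
          Module.length S (S ⧸ fibreIdeal R y (T1 ∪ T2)) := by
  intro T1
  induction T1 using Finset.induction_on with
  | empty =>
    intro T2 _ N
    have := flat_quotient_span_image y hyn hreg T2
    rw [fibreIdeal_empty, ← Ideal.map_pow, sup_comm,
      length_quot_sup_map_of_flat (span_image_le y hyn T2), Finset.card_empty,
      Finset.empty_union, fibreIdeal, sup_comm]
    rfl
  | insert k T1 hk ih =>
    intro T2 hdisj N
    have hk2 : k ∉ T2 := Finset.disjoint_left.mp hdisj (Finset.mem_insert_self k T1)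
    have hd1 : Disjoint T1 T2 :=
      Finset.disjoint_of_subset_left (Finset.subset_insert k T1) hdisj
    have hd2 : Disjoint T1 (insert k T2) := by
      rw [Finset.disjoint_insert_right]
      exact ⟨hk, hd1⟩
    have hun : T1 ∪ insert k T2 = insert k T1 ∪ T2 := by
      rw [Finset.union_insert, Finset.insert_union]
    rw [Finset.card_insert_of_notMem hk]
    induction N with
    | zero =>
      have h0 : iterSum (fun N => Module.length R (R ⧸ maximalIdeal R ^ N)) (T1.card + 1) 0 =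
          0 := by
        simp [iterSum]
      rw [h0, zero_mul, Module.length_eq_zero_iff, Ideal.Quotient.subsingleton_iff, pow_zero,
        Ideal.one_eq_top, top_sup_eq]
    | succ N ihN =>
      rw [fibreIdeal_insert] at ihN ⊢
      rw [length_quot_sup_span_pow_succ_sup _ _ (y k) N
        (mem_fibreIdeal_pow_sup_of_mul_mem y hyn hreg k T1 T2 hk hk2 hd1 N), ihN,
        ← span_image_insert, ih (insert k T2) hd2 (N + 1), hun, ← add_mul]
      congr 1
      simp only [iterSum]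
      rw [Finset.sum_range_succ]

end family

section relations

variable {R S : Type*} [CommRing R] [CommRing S] [IsLocalRing R] [IsLocalRing S]
  [Algebra R S] [IsLocalHom (algebraMap R S)] {ι : Type*}

omit [IsLocalRing S] [IsLocalHom (algebraMap R S)] in
/-- Decomposition of the elements of `m S + (y i : i ∈ T)`. -/
lemma exists_decomp_of_mem_fibreIdeal (y : ι → S) {v : ℕ} (t : Fin v → R)
    (ht : Ideal.span (Set.range t) = maximalIdeal R) (T : Finset ι) (x : S)
    (hx : x ∈ fibreIdeal R y T) :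
    ∃ (u : Fin v → S) (w : ι → S),
      x = ∑ i, algebraMap R S (t i) * u i + ∑ l ∈ T, y l * w l := by
  have hmap : (maximalIdeal R).map (algebraMap R S) =
      Ideal.span (Set.range fun i => algebraMap R S (t i)) := by
    rw [← ht, Ideal.map_span, ← Set.range_comp]
    rfl
  obtain ⟨p, hp, q, hq, hpq⟩ := Submodule.mem_sup.mp hx
  rw [hmap, Ideal.mem_span_range_iff_exists_fun] at hp
  obtain ⟨u, hu⟩ := hp
  obtain ⟨w, hw⟩ := (Submodule.mem_span_image_finset_iff_exists_fun' S).mp hq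
  refine ⟨u, w, ?_⟩
  rw [← hpq, ← hu, ← hw]
  congr 1
  · apply Finset.sum_congr rfl
    intro i _
    ring
  · apply Finset.sum_congr rfl
    intro l _
    rw [smul_eq_mul, mul_comm]

omit [IsLocalRing S] [IsLocalHom (algebraMap R S)] in
/-- Relations among minimal generators of `m` and the family: all coefficients lie in
`m S + (y i : i ∈ T)`. -/
lemma coeff_mem_fibreIdeal_of_sum_eq_zero [DecidableEq ι] [Module.Flat R S] (y : ι → S)
    (hreg : ∀ (T : Finset ι) (k : ι), k ∉ T →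
      ∀ s : S, y k * s ∈ fibreIdeal R y T → s ∈ fibreIdeal R y T)
    {v : ℕ} (t : Fin v → R) (ht : Ideal.span (Set.range t) = maximalIdeal R)
    (hmin : ∀ a : Fin v → R, ∑ i, a i * t i = 0 → ∀ i, a i ∈ maximalIdeal R) :
    ∀ (T : Finset ι) (u : Fin v → S) (w : ι → S),
      ∑ i, algebraMap R S (t i) * u i + ∑ l ∈ T, y l * w l = 0 →
      (∀ i, u i ∈ fibreIdeal R y T) ∧ ∀ l ∈ T, w l ∈ fibreIdeal R y T := by
  have hti : ∀ (T : Finset ι) (i : Fin v), algebraMap R S (t i) ∈ fibreIdeal R y T := by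
    intro T i
    apply Ideal.mem_sup_left
    apply Ideal.mem_map_of_mem
    rw [← ht]
    exact Ideal.subset_span ⟨i, rfl⟩
  have hyl : ∀ (T : Finset ι) (l : ι), l ∈ T → y l ∈ fibreIdeal R y T := by
    intro T l hl
    exact Ideal.mem_sup_right (Ideal.subset_span ⟨l, hl, rfl⟩)
  intro T
  induction T using Finset.induction_on with
  | empty =>
    intro u w h
    rw [Finset.sum_empty, add_zero] at h
    refine ⟨fun i => ?_, fun l hl => absurd hl (Finset.notMem_empty l)⟩
    rw [fibreIdeal_empty]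
    exact coeff_mem_map_of_sum_eq_zero t hmin u h i
  | insert k T hk ih =>
    intro u w h
    rw [Finset.sum_insert hk] at h
    have hwk : w k ∈ fibreIdeal R y T := by
      apply hreg T k hk
      have h1 : y k * w k = -(∑ i, algebraMap R S (t i) * u i + ∑ l ∈ T, y l * w l) := by
        rw [eq_neg_iff_add_eq_zero, ← h]
        ring
      rw [h1]
      apply neg_mem
      apply Ideal.add_mem
      · apply Ideal.sum_mem
        intro i _
        exact Ideal.mul_mem_right _ _ (hti T i)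
      · apply Ideal.sum_mem
        intro l hl
        exact Ideal.mul_mem_right _ _ (hyl T l hl)
    obtain ⟨c, d, hcd⟩ := exists_decomp_of_mem_fibreIdeal y t ht T (w k) hwk
    have hrel : ∑ i, algebraMap R S (t i) * (u i + y k * c i) +
        ∑ l ∈ T, y l * (w l + y k * d l) = 0 := by
      have h2 : ∑ i, algebraMap R S (t i) * (u i + y k * c i) +
          ∑ l ∈ T, y l * (w l + y k * d l) =
          ∑ i, algebraMap R S (t i) * u i + (y k * w k + ∑ l ∈ T, y l * w l) := by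
        rw [hcd, mul_add, Finset.mul_sum, Finset.mul_sum]
        have e1 : ∑ i, algebraMap R S (t i) * (u i + y k * c i) =
            ∑ i, algebraMap R S (t i) * u i + ∑ i, y k * (algebraMap R S (t i) * c i) := by
          rw [← Finset.sum_add_distrib]
          apply Finset.sum_congr rfl
          intro i _
          ring
        have e2 : ∑ l ∈ T, y l * (w l + y k * d l) =
            ∑ l ∈ T, y l * w l + ∑ l ∈ T, y k * (y l * d l) := by
          rw [← Finset.sum_add_distrib]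
          apply Finset.sum_congr rfl
          intro l _
          ring
        rw [e1, e2]
        ring
      rw [h2]
      exact h
    obtain ⟨h3, h4⟩ := ih _ _ hrel
    have hyk : y k ∈ fibreIdeal R y T ⊔ Ideal.span {y k} :=
      Ideal.mem_sup_right (Ideal.mem_span_singleton_self (y k))
    rw [fibreIdeal_insert]
    refine ⟨fun i => ?_, fun l hl => ?_⟩
    · have h5 : u i = (u i + y k * c i) + (-c i) * y k := by ring
      rw [h5]
      exact Ideal.add_mem _ (Ideal.mem_sup_left (h3 i)) (Ideal.mul_mem_left _ _ hyk)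
    · rcases Finset.mem_insert.mp hl with rfl | hl'
      · exact Ideal.mem_sup_left hwk
      · have h5 : w l = (w l + y k * d l) + (-d l) * y k := by ring
        rw [h5]
        exact Ideal.add_mem _ (Ideal.mem_sup_left (h4 l hl')) (Ideal.mul_mem_left _ _ hyk)

omit [IsLocalHom (algebraMap R S)] in
/-- The key lemma for a family: if `a b` and `z b` lie in `J = m S + (y i : i ∈ T)` and
`z ∉ a S + J`, then `a b ∈ J n`. -/
lemma mul_mem_fibreIdeal_mul_maximalIdeal [IsNoetherianRing R] [Module.Flat R S] (y : ι → S)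
    (hreg : ∀ (T : Finset ι) (k : ι), k ∉ T →
      ∀ s : S, y k * s ∈ fibreIdeal R y T → s ∈ fibreIdeal R y T)
    (T : Finset ι) {a b z : S}
    (hab : a * b ∈ fibreIdeal R y T) (hzb : z * b ∈ fibreIdeal R y T)
    (hz : z ∉ Ideal.span {a} ⊔ fibreIdeal R y T) :
    a * b ∈ fibreIdeal R y T * maximalIdeal S := by
  classical
  obtain ⟨v, t, ht, hmin⟩ := exists_minimal_generators R
  obtain ⟨u, w, huw⟩ := exists_decomp_of_mem_fibreIdeal y t ht T _ hab
  obtain ⟨u', w', huw'⟩ := exists_decomp_of_mem_fibreIdeal y t ht T _ hzb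
  have hrel : ∑ i, algebraMap R S (t i) * (z * u i - a * u' i) +
      ∑ l ∈ T, y l * (z * w l - a * w' l) = 0 := by
    have h1 : ∑ i, algebraMap R S (t i) * (z * u i - a * u' i) +
        ∑ l ∈ T, y l * (z * w l - a * w' l) =
        z * (∑ i, algebraMap R S (t i) * u i + ∑ l ∈ T, y l * w l) -
          a * (∑ i, algebraMap R S (t i) * u' i + ∑ l ∈ T, y l * w' l) := by
      rw [mul_add, mul_add, Finset.mul_sum, Finset.mul_sum, Finset.mul_sum, Finset.mul_sum]
      have e1 : ∑ i, algebraMap R S (t i) * (z * u i - a * u' i) =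
          ∑ i, z * (algebraMap R S (t i) * u i) - ∑ i, a * (algebraMap R S (t i) * u' i) := by
        rw [← Finset.sum_sub_distrib]
        apply Finset.sum_congr rfl
        intro i _
        ring
      have e2 : ∑ l ∈ T, y l * (z * w l - a * w' l) =
          ∑ l ∈ T, z * (y l * w l) - ∑ l ∈ T, a * (y l * w' l) := by
        rw [← Finset.sum_sub_distrib]
        apply Finset.sum_congr rfl
        intro l _
        ring
      rw [e1, e2]
      ring
    rw [h1, ← huw, ← huw']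
    ring
  obtain ⟨hu1, hw1⟩ := coeff_mem_fibreIdeal_of_sum_eq_zero y hreg t ht hmin T _ _ hrel
  have hunit : ∀ (p p' : S), z * p - a * p' ∈ fibreIdeal R y T → p ∈ maximalIdeal S := by
    intro p p' hp
    by_contra hi
    have hpu : IsUnit p := by
      by_contra h
      exact hi ((mem_maximalIdeal _).mpr h)
    obtain ⟨e, he⟩ := hpu
    apply hz
    have h2 : z = (↑e⁻¹ : S) * (z * p - a * p') + a * ((↑e⁻¹ : S) * p') := by
      rw [← he]
      have : (↑e⁻¹ : S) * (z * (e : S)) = z := by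
        rw [mul_comm z, ← mul_assoc, Units.inv_mul, one_mul]
      calc z = (↑e⁻¹ : S) * (z * (e : S)) := this.symm
        _ = _ := by ring
    rw [h2]
    apply Ideal.add_mem
    · exact Ideal.mem_sup_right (Ideal.mul_mem_left _ _ hp)
    · exact Ideal.mem_sup_left (Ideal.mul_mem_right _ _ (Ideal.mem_span_singleton_self a))
  rw [huw]
  apply Ideal.add_mem
  · apply Ideal.sum_mem
    intro i _
    have hti : t i ∈ maximalIdeal R := by
      rw [← ht]
      exact Ideal.subset_span ⟨i, rfl⟩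
    exact Ideal.mul_mem_mul (Ideal.mem_sup_left (Ideal.mem_map_of_mem _ hti))
      (hunit _ _ (hu1 i))
  · apply Ideal.sum_mem
    intro l hl
    exact Ideal.mul_mem_mul (Ideal.mem_sup_right (Ideal.subset_span ⟨l, hl, rfl⟩))
      (hunit _ _ (hw1 l hl))

/-- If `n ^ 2 ≤ J = m S + (y i : i ∈ T)` and `n` is not of the form `x S + J`, then
`n ^ 2 ≤ J n`. -/
lemma sq_le_fibreIdeal_mul_maximalIdeal [IsNoetherianRing R] [Module.Flat R S] (y : ι → S)
    (hyn : ∀ k, y k ∈ maximalIdeal S)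
    (hreg : ∀ (T : Finset ι) (k : ι), k ∉ T →
      ∀ s : S, y k * s ∈ fibreIdeal R y T → s ∈ fibreIdeal R y T)
    (T : Finset ι) (h : maximalIdeal S ^ 2 ≤ fibreIdeal R y T)
    (hnp : ∀ x : S, maximalIdeal S ≠ Ideal.span {x} ⊔ fibreIdeal R y T) :
    maximalIdeal S ^ 2 ≤ fibreIdeal R y T * maximalIdeal S := by
  rw [pow_two, Ideal.mul_le]
  intro a ha b hb
  have hle : Ideal.span {a} ⊔ fibreIdeal R y T ≤ maximalIdeal S :=
    sup_le ((Ideal.span_singleton_le_iff_mem _).mpr ha) (fibreIdeal_le y hyn T)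
  obtain ⟨z, hzn, hz⟩ := SetLike.exists_of_lt (lt_of_le_of_ne hle (hnp a).symm)
  have hab : a * b ∈ fibreIdeal R y T := by
    apply h
    rw [pow_two]
    exact Ideal.mul_mem_mul ha hb
  have hzb : z * b ∈ fibreIdeal R y T := by
    apply h
    rw [pow_two]
    exact Ideal.mul_mem_mul hzn hb
  exact mul_mem_fibreIdeal_mul_maximalIdeal y hreg T hab hzb hz

end relations

section main

variable {R S : Type*} [CommRing R] [CommRing S] [IsLocalRing R] [IsLocalRing S]
  [Algebra R S] [IsLocalHom (algebraMap R S)] {ι : Type*}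

/-- The quotient of a Noetherian local ring by an ideal containing a power of the maximal
ideal has finite length. -/
lemma length_quot_ne_top_of_pow_le {A : Type*} [CommRing A] [IsLocalRing A]
    [IsNoetherianRing A] {I : Ideal A} (hI : I ≤ maximalIdeal A) (j : ℕ)
    (h : maximalIdeal A ^ j ≤ I) : Module.length A (A ⧸ I) ≠ ⊤ := by
  rw [Module.length_ne_top_iff, isFiniteLength_iff_isNoetherian_isArtinian]
  have hmin : maximalIdeal A ∈ I.minimalPrimes := by
    refine ⟨⟨inferInstance, hI⟩, ?_⟩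
    rintro q ⟨hq, hIq⟩ -
    exact hq.le_of_pow_le (h.trans hIq)
  have : IsArtinianRing (A ⧸ I) :=
    IsLocalRing.quotient_artinian_of_mem_minimalPrimes_of_isLocalRing _ hmin
  exact ⟨isNoetherian_quotient _,
    isArtinian_of_surjective_algebraMap (Ideal.Quotient.mk_surjective (I := I))⟩

/-- The Hilbert-Samuel function of a Noetherian local ring takes finite values. -/
lemma length_quot_pow_ne_top (A : Type*) [CommRing A] [IsLocalRing A] [IsNoetherianRing A]
    (N : ℕ) : Module.length A (A ⧸ maximalIdeal A ^ N) ≠ ⊤ := by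
  rcases N with _ | N
  · have h0 : Module.length A (A ⧸ maximalIdeal A ^ 0) = 0 := by
      rw [Module.length_eq_zero_iff, Ideal.Quotient.subsingleton_iff, pow_zero,
        Ideal.one_eq_top]
    rw [h0]
    exact ENat.zero_ne_top
  · exact length_quot_ne_top_of_pow_le (Ideal.pow_le_self (Nat.succ_ne_zero N)) (N + 1) le_rfl

omit [IsLocalRing R] [IsLocalHom (algebraMap R S)] [Algebra R S] in
/-- If `n` is not of the form `x S + I`, then `S / I` has length at least 3. -/
lemma three_le_length_quot {I : Ideal S} (hI : I ≤ maximalIdeal S)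
    (hnp : ∀ x : S, maximalIdeal S ≠ Ideal.span {x} ⊔ I) :
    3 ≤ Module.length S (S ⧸ I) := by
  have h0 : I < maximalIdeal S := by
    refine lt_of_le_of_ne hI ?_
    intro heq
    apply hnp 0
    have h2 : (Ideal.span {(0 : S)} : Ideal S) = ⊥ := by simp
    rw [h2, bot_sup_eq]
    exact heq.symm
  obtain ⟨x, hxn, hxI⟩ := SetLike.exists_of_lt h0
  have h1 : I < Ideal.span {x} ⊔ I := by
    refine lt_of_le_of_ne le_sup_right ?_
    intro heq
    apply hxI
    rw [heq]
    exact Ideal.mem_sup_left (Ideal.mem_span_singleton_self x)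
  have h2 : Ideal.span {x} ⊔ I < maximalIdeal S :=
    lt_of_le_of_ne (sup_le ((Ideal.span_singleton_le_iff_mem _).mpr hxn) hI) (hnp x).symm
  have h3 : maximalIdeal S < ⊤ := lt_top_iff_ne_top.mpr Ideal.IsPrime.ne_top'
  have l3 := length_quot_add_one_le h3
  have l2 := length_quot_add_one_le h2
  have l1 := length_quot_add_one_le h1
  calc (3 : ℕ∞) = 0 + 1 + 1 + 1 := by norm_num
    _ ≤ Module.length S (S ⧸ (⊤ : Ideal S)) + 1 + 1 + 1 := by gcongr; exact zero_le
    _ ≤ Module.length S (S ⧸ maximalIdeal S) + 1 + 1 := by gcongr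
    _ ≤ Module.length S (S ⧸ (Ideal.span {x} ⊔ I)) + 1 := by gcongr
    _ ≤ Module.length S (S ⧸ I) := l1

lemma iterSum_ne_top (f : ℕ → ℕ∞) (hf : ∀ N, f N ≠ ⊤) :
    ∀ (t N : ℕ), iterSum f t N ≠ ⊤ := by
  intro t
  induction t with
  | zero => exact hf
  | succ t ih =>
    intro N
    simp only [iterSum]
    exact ENat.sum_ne_top.mpr fun j _ => ih (j + 1)

/-- The Hilbert function of the filtration by powers of `J = m S + (y i : i ∈ T)`. -/
lemma length_quot_fibreIdeal_pow [IsNoetherianRing R] [IsNoetherianRing S] [Module.Flat R S]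
    (y : ι → S) (hyn : ∀ k, y k ∈ maximalIdeal S)
    (hreg : ∀ (T : Finset ι) (k : ι), k ∉ T →
      ∀ s : S, y k * s ∈ fibreIdeal R y T → s ∈ fibreIdeal R y T)
    (T : Finset ι) (N : ℕ) :
    Module.length S (S ⧸ fibreIdeal R y T ^ N) =
      iterSum (fun N => Module.length R (R ⧸ maximalIdeal R ^ N)) T.card N *
        Module.length S (S ⧸ fibreIdeal R y T) := by
  classical
  have h1 := length_quot_fibreIdeal_pow_sup y hyn hreg T ∅ (Finset.disjoint_empty_right T) N
  have h0 : Ideal.span (y '' ((∅ : Finset ι) : Set ι)) = ⊥ := by simp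
  rw [h0, sup_bot_eq, Finset.union_empty] at h1
  exact h1

/-- The sandwich for the Hilbert-Samuel function of `S`. -/
lemma length_sandwich_family [IsNoetherianRing R] [IsNoetherianRing S] [Module.Flat R S]
    (y : ι → S) (hyn : ∀ k, y k ∈ maximalIdeal S)
    (hreg : ∀ (T : Finset ι) (k : ι), k ∉ T →
      ∀ s : S, y k * s ∈ fibreIdeal R y T → s ∈ fibreIdeal R y T)
    (T : Finset ι) (h : maximalIdeal S ^ 2 ≤ fibreIdeal R y T)
    (hnp : ∀ x : S, maximalIdeal S ≠ Ideal.span {x} ⊔ fibreIdeal R y T) (N : ℕ) :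
    iterSum (fun N => Module.length R (R ⧸ maximalIdeal R ^ N)) T.card N *
        Module.length S (S ⧸ fibreIdeal R y T) ≤
      Module.length S (S ⧸ maximalIdeal S ^ (N + 1)) ∧
    Module.length S (S ⧸ maximalIdeal S ^ (N + 1)) ≤
      iterSum (fun N => Module.length R (R ⧸ maximalIdeal R ^ N)) T.card (N + 1) *
        Module.length S (S ⧸ fibreIdeal R y T) := by
  constructor
  · rw [← length_quot_fibreIdeal_pow y hyn hreg T N]
    exact length_quot_anti (pow_succ_le_pow_of_sq_le_mul _ _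
      (sq_le_fibreIdeal_mul_maximalIdeal y hyn hreg T h hnp) N)
  · rw [← length_quot_fibreIdeal_pow y hyn hreg T (N + 1)]
    exact length_quot_anti (Ideal.pow_right_mono (fibreIdeal_le y hyn T) _)

/-- `dim S / (y i : i ∈ T) + |T| = dim S`. -/
lemma ringKrullDim_quotient_span_image_add_card [IsNoetherianRing R] [IsNoetherianRing S]
    [Module.Flat R S] (y : ι → S) (hyn : ∀ k, y k ∈ maximalIdeal S)
    (hreg : ∀ (T : Finset ι) (k : ι), k ∉ T →
      ∀ s : S, y k * s ∈ fibreIdeal R y T → s ∈ fibreIdeal R y T)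
    (T : Finset ι) :
    ringKrullDim (S ⧸ Ideal.span (y '' (T : Set ι))) + T.card = ringKrullDim S := by
  classical
  induction T using Finset.induction_on with
  | empty =>
    have h : Ideal.span (y '' ((∅ : Finset ι) : Set ι)) = ⊥ := by simp
    rw [h, Finset.card_empty, Nat.cast_zero, add_zero]
    exact ringKrullDim_eq_of_ringEquiv (RingEquiv.quotientBot S)
  | insert k T hk ih =>
    rw [span_image_insert, Finset.card_insert_of_notMem hk]
    have := flat_quotient_span_image y hyn hreg T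
    have h1 := ringKrullDim_quotient_sup_span (span_image_le y hyn T) (y k) (hyn k)
      (hreg T k hk)
    rw [← ih, ← h1, Nat.cast_add, Nat.cast_one, add_comm (T.card : WithBot ℕ∞) 1, add_assoc]

/-- Dimension: if a power of `n` lies in `m S + (y i : i ∈ T)`, then `dim S = dim R + |T|`. -/
lemma ringKrullDim_eq_add_card [IsNoetherianRing R] [IsNoetherianRing S] [Module.Flat R S]
    (y : ι → S) (hyn : ∀ k, y k ∈ maximalIdeal S)
    (hreg : ∀ (T : Finset ι) (k : ι), k ∉ T →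
      ∀ s : S, y k * s ∈ fibreIdeal R y T → s ∈ fibreIdeal R y T)
    (T : Finset ι) (j : ℕ) (h : maximalIdeal S ^ j ≤ fibreIdeal R y T) :
    ringKrullDim S = ringKrullDim R + T.card := by
  have := flat_quotient_span_image y hyn hreg T
  rw [← ringKrullDim_quotient_span_image_add_card y hyn hreg T,
    ringKrullDim_quotient_eq_of_flat (span_image_le y hyn T) j h]

open scoped ENNReal Nat Topology in
/-- Iterated summation raises the degree of growth by one each time and keeps the normalised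
limit. -/
lemma tendsto_iterSum (f : ℕ → ℕ∞) (hf : ∀ N, f N ≠ ⊤) (d : ℕ) (e : ℝ≥0∞) (he : e ≠ ⊤)
    (h : Tendsto (fun N : ℕ => (d ! : ℝ≥0∞) * (f N).toENNReal / (N : ℝ≥0∞) ^ d) atTop (𝓝 e)) :
    ∀ t : ℕ, Tendsto (fun N : ℕ => ((d + t) ! : ℝ≥0∞) * (iterSum f t N).toENNReal
      / (N : ℝ≥0∞) ^ (d + t)) atTop (𝓝 e) := by
  intro t
  induction t with
  | zero => exact h
  | succ t ih =>
    have h1 := taskA_ennreal (d + t) (fun N => (iterSum f t N).toENNReal)
      (fun N => ENat.toENNReal_ne_top.mpr (iterSum_ne_top f hf t N)) e he ih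
    refine h1.congr fun N => ?_
    have h2 : (iterSum f (t + 1) N).toENNReal =
        ∑ j ∈ Finset.range N, (iterSum f t (j + 1)).toENNReal :=
      map_sum ENat.toENNRealRingHom _ _
    rw [h2]
    rfl

open scoped ENNReal Nat Topology in
/-- **Closed fibres that are Cohen-Macaulay of minimal multiplicity.**  The normalised
Hilbert-Samuel function of `S` converges to `length (S / J) * e` when that of `R` converges
to `e`, where `J = m S + (y i : i ∈ T)`. -/
theorem tendsto_of_regular_family [IsNoetherianRing R] [IsNoetherianRing S] [Module.Flat R S]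
    (y : ι → S) (hyn : ∀ k, y k ∈ maximalIdeal S)
    (hreg : ∀ (T : Finset ι) (k : ι), k ∉ T →
      ∀ s : S, y k * s ∈ fibreIdeal R y T → s ∈ fibreIdeal R y T)
    (T : Finset ι) (h : maximalIdeal S ^ 2 ≤ fibreIdeal R y T)
    (hnp : ∀ x : S, maximalIdeal S ≠ Ideal.span {x} ⊔ fibreIdeal R y T)
    (d : ℕ) (e : ℝ≥0∞) (he : e ≠ ⊤)
    (hR : Tendsto (fun N : ℕ => (d ! : ℝ≥0∞) *
      (Module.length R (R ⧸ maximalIdeal R ^ N)).toENNReal / (N : ℝ≥0∞) ^ d) atTop (𝓝 e)) :
    Tendsto (fun N : ℕ => ((d + T.card) ! : ℝ≥0∞) *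
      (Module.length S (S ⧸ maximalIdeal S ^ N)).toENNReal / (N : ℝ≥0∞) ^ (d + T.card)) atTop
      (𝓝 ((Module.length S (S ⧸ fibreIdeal R y T)).toENNReal * e)) := by
  have hb := tendsto_iterSum (fun N => Module.length R (R ⧸ maximalIdeal R ^ N))
    (length_quot_pow_ne_top R) d e he hR T.card
  have hL : (Module.length S (S ⧸ fibreIdeal R y T)).toENNReal ≠ ⊤ :=
    ENat.toENNReal_ne_top.mpr (length_quot_ne_top_of_pow_le (fibreIdeal_le y hyn T) 2 h)
  refine taskB_sandwich (d + T.card) _ _ _ e hL he hb ?_ ?_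
  · intro N
    have h1 := (length_sandwich_family y hyn hreg T h hnp N).1
    have h2 := ENat.toENNReal_le.mpr h1
    rwa [ENat.toENNReal_mul] at h2
  · intro N
    have h1 := (length_sandwich_family y hyn hreg T h hnp N).2
    have h2 := ENat.toENNReal_le.mpr h1
    rwa [ENat.toENNReal_mul] at h2

end main

end Vale.Agent.Lib.P202
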