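import Vale.Agent.Lib.P202.NonPrincipal

/-!
# Elements that are regular on the closed fibre of a flat local map

For a flat local homomorphism `(R, m) → (S, n)` of Noetherian local rings and `y ∈ S` that is
a nonzerodivisor on the closed fibre `S / m S`, we prove that `y` is a nonzerodivisor on
`S / 𝔞 S` for every ideal `𝔞` of `R`, and that `S / y S` is flat over `R`.
-/

namespace Vale.Agent.Lib.P202

open IsLocalRing Filter

section generators

variable {R : Type*} [CommRing R]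

lemma exists_smaller_generators_mod {𝔭 𝔮 : Ideal R} {v' : ℕ}
    (τ : Fin (v' + 1) → R) (hmem : ∀ i, τ i ∈ 𝔭) (hτ : 𝔭 ≤ Ideal.span (Set.range τ) ⊔ 𝔮)
    (a : Fin (v' + 1) → R) (ha : ∑ i, a i * τ i ∈ 𝔮) (j : Fin (v' + 1)) (hu : IsUnit (a j)) :
    ∃ τ' : Fin v' → R, (∀ i, τ' i ∈ 𝔭) ∧ 𝔭 ≤ Ideal.span (Set.range τ') ⊔ 𝔮 := by
  obtain ⟨u, hu⟩ := hu
  refine ⟨τ ∘ j.succAbove, fun i => hmem _, hτ.trans (sup_le ?_ le_sup_right)⟩
  rw [Ideal.span_le]
  rintro _ ⟨i, rfl⟩
  by_cases hij : i = j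
  · subst hij
    rw [Fin.sum_univ_succAbove _ i] at ha
    have h1 : τ i = (↑u⁻¹ : R) * (a i * τ i +
        ∑ i' : Fin v', a (i.succAbove i') * τ (i.succAbove i')) +
        (-(↑u⁻¹ : R)) * ∑ i' : Fin v', a (i.succAbove i') * τ (i.succAbove i') := by
      have h2 : τ i = (↑u⁻¹ : R) * ((u : R) * τ i) := by
        rw [← mul_assoc, Units.inv_mul, one_mul]
      rw [hu] at h2
      calc τ i = (↑u⁻¹ : R) * (a i * τ i) := h2
        _ = _ := by ring
    rw [h1]
    apply Ideal.add_mem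
    · exact Ideal.mem_sup_right (Ideal.mul_mem_left _ _ ha)
    · apply Ideal.mem_sup_left
      apply Ideal.mul_mem_left
      apply Ideal.sum_mem
      intro i' _
      apply Ideal.mul_mem_left
      exact Ideal.subset_span ⟨i', rfl⟩
  · obtain ⟨z, rfl⟩ := Fin.exists_succAbove_eq hij
    exact Ideal.mem_sup_left (Ideal.subset_span ⟨z, rfl⟩)

/-- A finitely generated ideal `𝔭` of a local ring has a finite family of elements generating it
modulo `𝔮` and independent modulo `𝔮` in the sense that every relation modulo `𝔮` has all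
coefficients in the maximal ideal. -/
lemma exists_generators_mod [IsLocalRing R] (𝔭 𝔮 : Ideal R) (h𝔭 : 𝔭.FG) :
    ∃ (v : ℕ) (τ : Fin v → R), (∀ i, τ i ∈ 𝔭) ∧ 𝔭 ≤ Ideal.span (Set.range τ) ⊔ 𝔮 ∧
      ∀ a : Fin v → R, ∑ i, a i * τ i ∈ 𝔮 → ∀ i, a i ∈ maximalIdeal R := by
  classical
  have hex : ∃ v : ℕ, ∃ τ : Fin v → R, (∀ i, τ i ∈ 𝔭) ∧ 𝔭 ≤ Ideal.span (Set.range τ) ⊔ 𝔮 := by
    obtain ⟨v, t, ht⟩ := Submodule.fg_iff_exists_fin_generating_family.mp h𝔭
    refine ⟨v, t, fun i => ?_, ?_⟩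
    · rw [← ht]; exact Ideal.subset_span ⟨i, rfl⟩
    · rw [← ht]; exact le_sup_left
  have hmin := fun k (hk : k < Nat.find hex) => Nat.find_min hex hk
  obtain ⟨τ, hmem, hτ⟩ := Nat.find_spec hex
  generalize Nat.find hex = v at τ hmem hτ hmin
  refine ⟨v, τ, hmem, hτ, ?_⟩
  intro a ha j
  by_contra hj
  have hu : IsUnit (a j) := by
    by_contra h
    exact hj ((mem_maximalIdeal _).mpr h)
  cases v with
  | zero => exact j.elim0
  | succ v' =>
    exact hmin v' (Nat.lt_succ_self v') (exists_smaller_generators_mod τ hmem hτ a ha j hu)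

end generators

section flat

variable {R S : Type*} [CommRing R] [CommRing S] [IsLocalRing R] [Algebra R S]

/-- Flatness: if `τ` is independent modulo `𝔮` and `∑ τ_i b_i ∈ 𝔮 S`, then all `b_i ∈ m S`. -/
lemma coeff_mem_map_of_sum_mem [IsNoetherianRing R] [Module.Flat R S] (𝔮 : Ideal R) {v : ℕ}
    (τ : Fin v → R)
    (hind : ∀ a : Fin v → R, ∑ i, a i * τ i ∈ 𝔮 → ∀ i, a i ∈ maximalIdeal R)
    (b : Fin v → S) (hb : ∑ i, algebraMap R S (τ i) * b i ∈ 𝔮.map (algebraMap R S))
    (i : Fin v) : b i ∈ (maximalIdeal R).map (algebraMap R S) := by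
  obtain ⟨w, q, hq⟩ := Submodule.fg_iff_exists_fin_generating_family.mp
    (IsNoetherian.noetherian 𝔮)
  have hmap : 𝔮.map (algebraMap R S) = Ideal.span (Set.range fun γ => algebraMap R S (q γ)) := by
    rw [← hq, Ideal.map_span, ← Set.range_comp]
    rfl
  rw [hmap, Ideal.mem_span_range_iff_exists_fun] at hb
  obtain ⟨c, hc⟩ := hb
  -- the relation indexed by `Fin v ⊕ Fin w`
  have hrel : ∑ ι : Fin v ⊕ Fin w, (Sum.elim τ q ι) • (Sum.elim b (fun γ => -c γ) ι) = 0 := by
    rw [Fintype.sum_sum_type]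
    simp only [Sum.elim_inl, Sum.elim_inr, Algebra.smul_def]
    rw [← hc]
    simp only [mul_neg, Finset.sum_neg_distrib]
    rw [add_neg_eq_zero]
    apply Finset.sum_congr rfl
    intro γ _
    ring
  obtain ⟨k, a, z, hx, hrel'⟩ := Module.Flat.isTrivialRelation_of_sum_smul_eq_zero
    (R := R) (M := S) hrel
  have hbi := hx (Sum.inl i)
  simp only [Sum.elim_inl] at hbi
  rw [hbi]
  apply Ideal.sum_mem
  intro j _
  rw [Algebra.smul_def]
  apply Ideal.mul_mem_right
  apply Ideal.mem_map_of_mem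
  refine hind (fun i => a (Sum.inl i) j) ?_ i
  have h1 := hrel' j
  rw [Fintype.sum_sum_type] at h1
  simp only [Sum.elim_inl, Sum.elim_inr] at h1
  have h2 : ∑ i, a (Sum.inl i) j * τ i = -∑ γ, q γ * a (Sum.inr γ) j := by
    rw [eq_neg_iff_add_eq_zero, ← h1]
    congr 1
    apply Finset.sum_congr rfl
    intro i _
    ring
  rw [h2]
  apply neg_mem
  apply Ideal.sum_mem
  intro γ _
  apply Ideal.mul_mem_right
  rw [← hq]
  exact Ideal.subset_span ⟨γ, rfl⟩

end flat

section regular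

variable {R S : Type*} [CommRing R] [CommRing S] [IsLocalRing R] [IsLocalRing S]
  [Algebra R S] [IsLocalHom (algebraMap R S)]

omit [IsLocalRing S] [IsLocalHom (algebraMap R S)] in
/-- If `y` is a nonzerodivisor on `S / m S`, it is a nonzerodivisor on `S / 𝔮 S` for every
ideal `𝔮` of `R` containing a power of `m`. -/
lemma mem_map_of_mul_mem_map_of_pow_le [IsNoetherianRing R] [Module.Flat R S] (y : S)
    (hy : ∀ s : S, y * s ∈ (maximalIdeal R).map (algebraMap R S) →
      s ∈ (maximalIdeal R).map (algebraMap R S)) :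
    ∀ (j : ℕ) (𝔮 : Ideal R), maximalIdeal R ^ j ≤ 𝔮 →
      ∀ s : S, y * s ∈ 𝔮.map (algebraMap R S) → s ∈ 𝔮.map (algebraMap R S) := by
  intro j
  induction j with
  | zero =>
    intro 𝔮 h𝔮 s _
    have : 𝔮 = ⊤ := by
      rw [eq_top_iff]
      simpa using h𝔮
    rw [this, Ideal.map_top]
    trivial
  | succ j ih =>
    intro 𝔮 h𝔮 s hs
    have h1 : s ∈ (𝔮 ⊔ maximalIdeal R ^ j).map (algebraMap R S) :=
      ih (𝔮 ⊔ maximalIdeal R ^ j) le_sup_right s (Ideal.map_mono le_sup_left hs)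
    obtain ⟨v, τ, hmem, hτ, hind⟩ := exists_generators_mod (maximalIdeal R ^ j) 𝔮
      (IsNoetherian.noetherian _)
    have h2 : (𝔮 ⊔ maximalIdeal R ^ j).map (algebraMap R S) ≤
        𝔮.map (algebraMap R S) ⊔ Ideal.span (Set.range fun β => algebraMap R S (τ β)) := by
      have h3 : 𝔮 ⊔ maximalIdeal R ^ j ≤ 𝔮 ⊔ Ideal.span (Set.range τ) :=
        sup_le le_sup_left (hτ.trans (sup_comm _ _).le)
      refine (Ideal.map_mono h3).trans ?_
      rw [Ideal.map_sup, Ideal.map_span, ← Set.range_comp]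
      rfl
    have h1' : s ∈ 𝔮.map (algebraMap R S) ⊔
        Ideal.span (Set.range fun β => algebraMap R S (τ β)) := h2 h1
    obtain ⟨q, hq, r, hr, hqr⟩ := Submodule.mem_sup.mp h1'
    obtain ⟨μ, hμ⟩ := (Ideal.mem_span_range_iff_exists_fun).mp hr
    have h4 : ∑ β, algebraMap R S (τ β) * (y * μ β) ∈ 𝔮.map (algebraMap R S) := by
      have h5 : ∑ β, algebraMap R S (τ β) * (y * μ β) = y * s - y * q := by
        rw [← hqr, ← hμ, mul_add, add_sub_cancel_left, Finset.mul_sum]
        apply Finset.sum_congr rfl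
        intro β _
        ring
      rw [h5]
      exact Ideal.sub_mem _ hs (Ideal.mul_mem_left _ _ hq)
    have h6 : ∀ β, μ β ∈ (maximalIdeal R).map (algebraMap R S) := fun β =>
      hy _ (coeff_mem_map_of_sum_mem 𝔮 τ hind _ h4 β)
    rw [← hqr, ← hμ]
    apply Ideal.add_mem _ hq
    apply Ideal.sum_mem
    intro β _
    apply Ideal.map_mono h𝔮
    have h7 : algebraMap R S (τ β) * μ β ∈ Ideal.map (algebraMap R S) (maximalIdeal R ^ j) *
        Ideal.map (algebraMap R S) (maximalIdeal R) :=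
      Ideal.mul_mem_mul (Ideal.mem_map_of_mem _ (hmem β)) (h6 β)
    rw [pow_succ, Ideal.map_mul, mul_comm (μ β)]
    exact h7

/-- If `y` is a nonzerodivisor on `S / m S`, it is a nonzerodivisor on `S / 𝔞 S` for every
ideal `𝔞` of `R`. -/
lemma mem_map_of_mul_mem_map [IsNoetherianRing R] [IsNoetherianRing S] [Module.Flat R S] (y : S)
    (hy : ∀ s : S, y * s ∈ (maximalIdeal R).map (algebraMap R S) →
      s ∈ (maximalIdeal R).map (algebraMap R S))
    (𝔞 : Ideal R) (s : S) (hs : y * s ∈ 𝔞.map (algebraMap R S)) :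
    s ∈ 𝔞.map (algebraMap R S) := by
  have key : ∀ j : ℕ, s ∈ 𝔞.map (algebraMap R S) ⊔ maximalIdeal S ^ j := by
    intro j
    have h1 := mem_map_of_mul_mem_map_of_pow_le y hy j (𝔞 ⊔ maximalIdeal R ^ j) le_sup_right s
      (Ideal.map_mono le_sup_left hs)
    rw [Ideal.map_sup, Ideal.map_pow] at h1
    have h3 : Ideal.map (algebraMap R S) 𝔞 ⊔ Ideal.map (algebraMap R S) (maximalIdeal R) ^ j ≤
        Ideal.map (algebraMap R S) 𝔞 ⊔ maximalIdeal S ^ j :=
      sup_le_sup_left (Ideal.pow_right_mono map_maximalIdeal_le j) _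
    exact h3 h1
  have hK : (⨅ i : ℕ, maximalIdeal S ^ i • ⊤ :
      Submodule S (S ⧸ 𝔞.map (algebraMap R S))) = ⊥ :=
    Ideal.iInf_pow_smul_eq_bot_of_isLocalRing (maximalIdeal S) Ideal.IsPrime.ne_top'
  have hmem : (Ideal.Quotient.mk (𝔞.map (algebraMap R S)) s) ∈
      (⨅ i : ℕ, maximalIdeal S ^ i • ⊤ : Submodule S (S ⧸ 𝔞.map (algebraMap R S))) := by
    rw [Submodule.mem_iInf]
    intro j
    obtain ⟨a, ha, ν, hν, rfl⟩ := Submodule.mem_sup.mp (key j)
    have h2 : Ideal.Quotient.mk (𝔞.map (algebraMap R S)) (a + ν) =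
        ν • (Ideal.Quotient.mk (𝔞.map (algebraMap R S)) 1) := by
      rw [map_add, Ideal.Quotient.eq_zero_iff_mem.mpr ha, zero_add]
      rw [Algebra.smul_def, map_one, mul_one]
      rfl
    rw [h2]
    exact Submodule.smul_mem_smul hν Submodule.mem_top
  rw [hK, Submodule.mem_bot] at hmem
  exact Ideal.Quotient.eq_zero_iff_mem.mp hmem

/-- If `y` is a nonzerodivisor on `S / m S`, then `S / y S` is flat over `R`. -/
theorem flat_quotient_span_singleton [IsNoetherianRing R] [IsNoetherianRing S] [Module.Flat R S]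
    (y : S)
    (hy : ∀ s : S, y * s ∈ (maximalIdeal R).map (algebraMap R S) →
      s ∈ (maximalIdeal R).map (algebraMap R S)) :
    Module.Flat R (S ⧸ Ideal.span {y}) := by
  apply Module.Flat.of_forall_isTrivialRelation
  intro l f x hfx
  choose x' hx' using fun i => Ideal.Quotient.mk_surjective (x i)
  have h1 : ∑ i, algebraMap R S (f i) * x' i ∈ Ideal.span {y} := by
    rw [← Ideal.Quotient.eq_zero_iff_mem, map_sum, ← hfx]
    apply Finset.sum_congr rfl
    intro i _
    rw [map_mul, hx', Algebra.smul_def]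
    rfl
  obtain ⟨s, hs⟩ := Ideal.mem_span_singleton'.mp h1
  have h2 : y * s ∈ (Ideal.span (Set.range f)).map (algebraMap R S) := by
    rw [mul_comm, hs]
    apply Ideal.sum_mem
    intro i _
    exact Ideal.mul_mem_right _ _ (Ideal.mem_map_of_mem _ (Ideal.subset_span ⟨i, rfl⟩))
  have h3 := mem_map_of_mul_mem_map y hy _ s h2
  rw [Ideal.map_span, ← Set.range_comp, Ideal.mem_span_range_iff_exists_fun] at h3
  obtain ⟨c, hc⟩ := h3
  have hrel : ∑ i, f i • (x' i - y * c i) = 0 := by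
    simp only [Algebra.smul_def, mul_sub, Finset.sum_sub_distrib]
    rw [← hs, sub_eq_zero, ← hc, Finset.sum_mul]
    apply Finset.sum_congr rfl
    intro i _
    simp only [Function.comp_apply]
    ring
  obtain ⟨k, a, z, hz, hrel'⟩ := Module.Flat.isTrivialRelation_of_sum_smul_eq_zero
    (R := R) (M := S) hrel
  refine ⟨k, a, fun j => Ideal.Quotient.mk _ (z j), fun i => ?_, hrel'⟩
  rw [← hx' i]
  have h4 : Ideal.Quotient.mk (Ideal.span {y}) (x' i) =
      Ideal.Quotient.mk (Ideal.span {y}) (x' i - y * c i) := by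
    rw [map_sub, sub_eq_self.mpr]
    rw [Ideal.Quotient.eq_zero_iff_mem]
    exact Ideal.mul_mem_right _ _ (Ideal.mem_span_singleton_self y)
  have hzi := hz i
  simp only at hzi
  rw [h4, hzi, map_sum]
  apply Finset.sum_congr rfl
  intro j _
  rw [Algebra.smul_def, map_mul, Algebra.smul_def]
  rfl

end regular

end Vale.Agent.Lib.P202
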